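import Mathlib

/-! Two arithmetic lemmas. -/

namespace Vale.Agent.Lib.P028E

/-- The number of divisors is at most twice the square root. -/
theorem card_divisors_sq_le (q : ℕ) : ((Nat.divisors q).card : ℝ) ^ 2 ≤ 4 * q := by
  classical
  rcases Nat.eq_zero_or_pos q with rfl | hq
  · simp
  set A := (Nat.divisors q).filter (fun d => d * d ≤ q) with hA
  set B := (Nat.divisors q).filter (fun d => ¬ d * d ≤ q) with hB
  have hAcard : A.card ≤ Nat.sqrt q := by
    have hsub : A ⊆ Finset.Icc 1 (Nat.sqrt q) := by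
      intro d hd
      rw [hA, Finset.mem_filter, Nat.mem_divisors] at hd
      rw [Finset.mem_Icc]
      refine ⟨Nat.pos_of_dvd_of_pos hd.1.1 hq, ?_⟩
      exact Nat.le_sqrt.2 hd.2
    calc A.card ≤ (Finset.Icc 1 (Nat.sqrt q)).card := Finset.card_le_card hsub
      _ = Nat.sqrt q := by simp
  have hBcard : B.card ≤ A.card := by
    apply Finset.card_le_card_of_injOn (fun d => q / d)
    · intro d hd
      have hd' : d ∈ B := hd
      rw [hB, Finset.mem_filter, Nat.mem_divisors] at hd'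
      obtain ⟨⟨hdq, -⟩, hlt⟩ := hd'
      obtain ⟨e, rfl⟩ := hdq
      have hd0 : 0 < d := Nat.pos_of_ne_zero (by rintro rfl; simp at hq)
      have he : d * e / d = e := Nat.mul_div_cancel_left e hd0
      show d * e / d ∈ A
      rw [he, hA, Finset.mem_filter, Nat.mem_divisors]
      refine ⟨⟨Dvd.intro_left d rfl, hq.ne'⟩, ?_⟩
      have : e ≤ d := by
        by_contra hcon
        apply hlt
        exact Nat.mul_le_mul_left d (le_of_not_ge hcon)
      exact Nat.mul_le_mul_right e this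
    · intro d hd e he hde
      have hd' : d ∈ B := hd
      have he' : e ∈ B := he
      rw [hB, Finset.mem_filter, Nat.mem_divisors] at hd' he'
      have h1 : q / (q / d) = d := Nat.div_div_self hd'.1.1 hq.ne'
      have h2 : q / (q / e) = e := Nat.div_div_self he'.1.1 hq.ne'
      have hde' : q / d = q / e := hde
      rw [← h1, ← h2, hde']
  have hsplit : (Nat.divisors q).card = A.card + B.card :=
    (Finset.card_filter_add_card_filter_not (s := Nat.divisors q) (fun d => d * d ≤ q)).symm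
  have hcard : (Nat.divisors q).card ≤ 2 * Nat.sqrt q := by omega
  have hsq : Nat.sqrt q * Nat.sqrt q ≤ q := Nat.sqrt_le q
  have h1 : ((Nat.divisors q).card : ℝ) ≤ 2 * (Nat.sqrt q : ℝ) := by exact_mod_cast hcard
  have h2 : (Nat.sqrt q : ℝ) * (Nat.sqrt q : ℝ) ≤ q := by exact_mod_cast hsq
  have h3 : (0 : ℝ) ≤ ((Nat.divisors q).card : ℝ) := Nat.cast_nonneg _
  nlinarith

/-- The prime power case, over the naturals. -/
private theorem sigma_totient_prime_pow {p k : ℕ} (hp : p.Prime) (hk : 0 < k) :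
    (∑ d ∈ Nat.divisors (p ^ k), (d : ℝ)) * (Nat.totient (p ^ k) : ℝ) ≤ ((p ^ k : ℕ) : ℝ) ^ 2 := by
  rw [Nat.sum_divisors_prime_pow hp, Nat.totient_prime_pow hp hk]
  have hp1 : (1 : ℝ) < p := by exact_mod_cast hp.one_lt
  have hgeom : (∑ i ∈ Finset.range (k + 1), ((p ^ i : ℕ) : ℝ)) * ((p : ℝ) - 1) = (p : ℝ) ^ (k + 1) - 1 := by
    push_cast
    exact geom_sum_mul (p : ℝ) (k + 1)
  have hcast : ((p ^ (k - 1) * (p - 1) : ℕ) : ℝ) = (p : ℝ) ^ (k - 1) * ((p : ℝ) - 1) := by
    rw [Nat.cast_mul, Nat.cast_pow, Nat.cast_sub hp.one_lt.le, Nat.cast_one]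
  rw [hcast]
  calc (∑ i ∈ Finset.range (k + 1), ((p ^ i : ℕ) : ℝ)) * ((p : ℝ) ^ (k - 1) * ((p : ℝ) - 1))
      = ((∑ i ∈ Finset.range (k + 1), ((p ^ i : ℕ) : ℝ)) * ((p : ℝ) - 1)) * (p : ℝ) ^ (k - 1) := by
        ring
    _ = ((p : ℝ) ^ (k + 1) - 1) * (p : ℝ) ^ (k - 1) := by rw [hgeom]
    _ ≤ (p : ℝ) ^ (k + 1) * (p : ℝ) ^ (k - 1) := by
        apply mul_le_mul_of_nonneg_right (by linarith) (by positivity)
    _ = ((p ^ k : ℕ) : ℝ) ^ 2 := by
        push_cast
        rw [← pow_add, ← pow_mul]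
        congr 1
        omega

/-- The sum of divisors against the totient. -/
theorem sigma_totient_le (n : ℕ) (hn : 0 < n) :
    (∑ d ∈ Nat.divisors n, (d : ℝ)) * (Nat.totient n : ℝ) ≤ (n : ℝ) ^ 2 := by
  induction n using Nat.recOnPosPrimePosCoprime with
  | prime_pow p k hp hk => exact sigma_totient_prime_pow hp hk
  | zero => exact absurd hn (lt_irrefl 0)
  | one => simp
  | coprime a b ha hb hab iha ihb =>
    have ha0 : 0 < a := by omega
    have hb0 : 0 < b := by omega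
    have h1 := iha ha0
    have h2 := ihb hb0
    have hsig : (∑ d ∈ Nat.divisors (a * b), (d : ℝ)) =
        (∑ d ∈ Nat.divisors a, (d : ℝ)) * (∑ d ∈ Nat.divisors b, (d : ℝ)) := by
      have := (ArithmeticFunction.isMultiplicative_sigma (k := 1)).map_mul_of_coprime hab
      simp only [ArithmeticFunction.sigma_one_apply] at this
      have h' := congrArg (Nat.cast : ℕ → ℝ) this
      push_cast at h'
      exact h'
    rw [hsig, Nat.totient_mul hab]
    push_cast
    have h3 : (0 : ℝ) ≤ (∑ d ∈ Nat.divisors a, (d : ℝ)) * (Nat.totient a : ℝ) := by positivity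
    have h4 : (0 : ℝ) ≤ (∑ d ∈ Nat.divisors b, (d : ℝ)) * (Nat.totient b : ℝ) := by positivity
    calc (∑ d ∈ Nat.divisors a, (d : ℝ)) * (∑ d ∈ Nat.divisors b, (d : ℝ)) *
          ((Nat.totient a : ℝ) * (Nat.totient b : ℝ))
        = ((∑ d ∈ Nat.divisors a, (d : ℝ)) * (Nat.totient a : ℝ)) *
          ((∑ d ∈ Nat.divisors b, (d : ℝ)) * (Nat.totient b : ℝ)) := by ring
      _ ≤ (a : ℝ) ^ 2 * (b : ℝ) ^ 2 := mul_le_mul h1 h2 h4 (by positivity)
      _ = ((a : ℝ) * (b : ℝ)) ^ 2 := by ring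

end Vale.Agent.Lib.P028E
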