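import Vale.Agent.Lib.P028E.First

/-! One pair of classes: split by the size of the gcd, use the first moment for large gcd. -/

namespace Vale.Agent.Lib.P028E

/-- Standing assumptions on a finite block of moduli. -/
structure BlockOK (ψ : ℕ → ℝ) (B : Finset ℕ) : Prop where
  two_le : ∀ q ∈ B, 2 ≤ q
  psi_pos : ∀ q ∈ B, 0 < ψ q
  psi_le : ∀ q ∈ B, (q : ℝ) * ψ q ≤ 1

/-- The kernel as a minimum of the two scales. -/
theorem kap_eq_min (i l₁ j l₂ : ℕ) (hij : i ≤ j) :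
    pw i * pw j * min (lam l₁ / pw i ^ 2) (lam l₂ / pw j ^ 2) = kap i l₁ j l₂ := by
  have hQ := pw_pos i
  have hx := pw_pos (j - i)
  have hR : pw j = pw i * pw (j - i) := by
    unfold pw
    rw [← pow_add]
    congr 1
    omega
  have hQR : 0 ≤ pw i * pw j := by
    rw [hR]; positivity
  rw [mul_min_of_nonneg _ _ hQR]
  unfold kap
  congr 1
  · rw [hR]; field_simp
  · rw [hR]; field_simp

/-- What membership in a class says. -/
theorem class_facts {ψ : ℕ → ℝ} {B : Finset ℕ} (hB : BlockOK ψ B) {q i l : ℕ} (hq : q ∈ B)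
    (hcl : cl ψ q = (i, l)) :
    lam l / (256 * pw i) < ψ q ∧ ψ q / q ≤ lam l / pw i ^ 2 ∧ pw i ≤ q ∧ (q : ℝ) < 16 * pw i := by
  have h2 := hB.two_le q hq
  have hψ := hB.psi_pos q hq
  have hle := hB.psi_le q hq
  have hq0 : (0 : ℝ) < q := by
    have : 0 < q := by omega
    exact_mod_cast this
  have hcl1 : lev q = i := congrArg Prod.fst hcl
  have hcl2 : ell ((q : ℝ) * ψ q) = l := congrArg Prod.snd hcl
  obtain ⟨h3, h4⟩ := ell_spec ((q : ℝ) * ψ q) (mul_pos hq0 hψ) hle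
  rw [hcl2] at h3 h4
  obtain ⟨h5, h6⟩ := lev_spec q (by omega)
  rw [hcl1] at h5 h6
  have hQ := pw_pos i
  have hA := lam_pos l
  refine ⟨?_, ?_, h5, h6⟩
  · rw [div_lt_iff₀ (by positivity)]
    have h7 : lam l < 16 * ((q : ℝ) * ψ q) := by
      rw [div_lt_iff₀ (by norm_num)] at h3
      linarith
    have h8 : (q : ℝ) * ψ q < 16 * pw i * ψ q := mul_lt_mul_of_pos_right h6 hψ
    nlinarith
  · rw [div_le_div_iff₀ hq0 (by positivity)]
    have h9 : ψ q * pw i ^ 2 ≤ ψ q * (q : ℝ) ^ 2 := by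
      apply mul_le_mul_of_nonneg_left _ hψ.le
      exact pow_le_pow_left₀ hQ.le h5 2
    have h10 : ψ q * (q : ℝ) ^ 2 = ((q : ℝ) * ψ q) * q := by ring
    have h11 : ((q : ℝ) * ψ q) * q ≤ lam l * q := mul_le_mul_of_nonneg_right h4 hq0.le
    linarith

/-- The size of a class. -/
theorem class_card {ψ : ℕ → ℝ} {B : Finset ℕ} (hB : BlockOK ψ B) (i l : ℕ)
    (X : Finset ℕ) (hX : ∀ q ∈ X, q ∈ B ∧ cl ψ q = (i, l)) :
    (X.card : ℝ) ≤ 256 * pw i * (∑ q ∈ X, ψ q) / lam l := by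
  have hQ := pw_pos i
  have hA := lam_pos l
  have h1 : (X.card : ℝ) * (lam l / (256 * pw i)) ≤ ∑ q ∈ X, ψ q := by
    have := Finset.card_nsmul_le_sum X ψ (lam l / (256 * pw i))
      (fun q hq => (class_facts hB (hX q hq).1 (hX q hq).2).1.le)
    simpa [nsmul_eq_mul] using this
  rw [le_div_iff₀ hA]
  have h2 : (X.card : ℝ) * (lam l / (256 * pw i)) * (256 * pw i) = (X.card : ℝ) * lam l := by
    field_simp
  calc (X.card : ℝ) * lam l = (X.card : ℝ) * (lam l / (256 * pw i)) * (256 * pw i) := h2.symm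
    _ ≤ (∑ q ∈ X, ψ q) * (256 * pw i) :=
        mul_le_mul_of_nonneg_right h1 (by positivity)
    _ = 256 * pw i * ∑ q ∈ X, ψ q := by ring

/-- Members of a class lie in the corresponding level. -/
theorem class_level {ψ : ℕ → ℝ} {B : Finset ℕ} (hB : BlockOK ψ B) {q i l : ℕ} (hq : q ∈ B)
    (hcl : cl ψ q = (i, l)) : q ∈ Finset.Ico (16 ^ i) (16 ^ (i + 1)) := by
  obtain ⟨-, -, h5, h6⟩ := class_facts hB hq hcl
  have h7 : (16 : ℝ) ^ i ≤ q := h5
  have h8 : (q : ℝ) < (16 : ℝ) ^ (i + 1) := by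
    have : (16 : ℝ) * pw i = (16 : ℝ) ^ (i + 1) := by unfold pw; ring
    linarith
  rw [Finset.mem_Ico]
  constructor
  · exact_mod_cast h7
  · exact_mod_cast h8

open scoped Classical in
/-- Fixed `q`: the sum over the moduli with a large gcd. -/
theorem large_gcd_one (ψ : ℕ → ℝ) (B : Finset ℕ) (hB : BlockOK ψ B) (Ov : ℕ → ℕ → ℝ)
    (hOv0 : ∀ q r, 0 ≤ Ov q r) (Good : ℕ → ℕ → Prop) (Lam : ℕ → ℝ) (hLam : ∀ i, 0 < Lam i)
    (hS : ∀ q ∈ B, ∀ d : ℕ, 0 < d → ∀ j l : ℕ, lev q ≤ j →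
        ∑ r ∈ B.filter (fun r => cl ψ r = (j, l) ∧ q < r ∧ Nat.gcd q r = d ∧ Good q r), Ov q r
          ≤ 61440 * (lam (ell ((q : ℝ) * ψ q)) * lam l) / (pw (lev q) * d)
            + 128 * kap (lev q) (ell ((q : ℝ) * ψ q)) j l / (pw (lev q) * Lam (lev q)))
    (i l₁ j l₂ : ℕ) (hij : i ≤ j) (D : ℝ) (q : ℕ) (hq : q ∈ B) (hcl : cl ψ q = (i, l₁)) :
    ∑ r ∈ (B.filter (fun r => cl ψ r = (j, l₂) ∧ q < r ∧ Good q r)).filter
          (fun r => D ≤ (Nat.gcd q r : ℝ)), Ov q r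
      ≤ 61440 * (lam l₁ * lam l₂) / pw i *
            (∑ d ∈ (Nat.divisors q).filter (fun d : ℕ => D ≤ (d : ℝ)), (1 / (d : ℝ)))
        + 128 * kap i l₁ j l₂ / (pw i * Lam i) * ((Nat.divisors q).card : ℝ) := by
  have h2 := hB.two_le q hq
  have hq0 : 0 < q := by omega
  have hcl1 : lev q = i := congrArg Prod.fst hcl
  have hcl2 : ell ((q : ℝ) * ψ q) = l₁ := congrArg Prod.snd hcl
  set G := (B.filter (fun r => cl ψ r = (j, l₂) ∧ q < r ∧ Good q r)).filter
          (fun r => D ≤ (Nat.gcd q r : ℝ)) with hG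
  set Dq := (Nat.divisors q).filter (fun d : ℕ => D ≤ (d : ℝ)) with hDq
  have hmaps : ∀ r ∈ G, Nat.gcd q r ∈ Dq := by
    intro r hr
    have hr' := (Finset.mem_filter.mp hr).2
    refine Finset.mem_filter.mpr ⟨?_, hr'⟩
    exact Nat.mem_divisors.mpr ⟨Nat.gcd_dvd_left q r, by omega⟩
  have hsplit : ∑ r ∈ G, Ov q r
      = ∑ d ∈ Dq, ∑ r ∈ G.filter (fun r => Nat.gcd q r = d), Ov q r :=
    (Finset.sum_fiberwise_of_maps_to hmaps _).symm
  have hQ := pw_pos i
  have hL := hLam i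
  have hbound : ∀ d ∈ Dq, ∑ r ∈ G.filter (fun r => Nat.gcd q r = d), Ov q r
      ≤ 61440 * (lam l₁ * lam l₂) / pw i * (1 / (d : ℝ))
        + 128 * kap i l₁ j l₂ / (pw i * Lam i) := by
    intro d hd
    have hd0 : 0 < d := by
      have := (Finset.mem_filter.mp hd).1
      exact Nat.pos_of_mem_divisors this
    have h1 := hS q hq d hd0 j l₂ (by rw [hcl1]; exact hij)
    rw [hcl1, hcl2] at h1
    have hsub : G.filter (fun r => Nat.gcd q r = d) ⊆
        B.filter (fun r => cl ψ r = (j, l₂) ∧ q < r ∧ Nat.gcd q r = d ∧ Good q r) := by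
      intro r hr
      obtain ⟨hr1, hr2⟩ := Finset.mem_filter.mp hr
      obtain ⟨hr3, -⟩ := Finset.mem_filter.mp hr1
      obtain ⟨hr4, hr5, hr6, hr7⟩ := Finset.mem_filter.mp hr3
      exact Finset.mem_filter.mpr ⟨hr4, hr5, hr6, hr2, hr7⟩
    have h3 := Finset.sum_le_sum_of_subset_of_nonneg hsub
      (f := fun r => Ov q r) (fun r _ _ => hOv0 q r)
    have hd' : (0 : ℝ) < d := by exact_mod_cast hd0
    have h4 : 61440 * (lam l₁ * lam l₂) / (pw i * d)
        = 61440 * (lam l₁ * lam l₂) / pw i * (1 / (d : ℝ)) := by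
      field_simp
    linarith
  rw [hsplit]
  refine (Finset.sum_le_sum hbound).trans ?_
  rw [Finset.sum_add_distrib, ← Finset.mul_sum, Finset.sum_const, nsmul_eq_mul]
  have hkap := kap_pos i l₁ j l₂
  have hcard : (Dq.card : ℝ) ≤ ((Nat.divisors q).card : ℝ) := by
    exact_mod_cast Finset.card_le_card (Finset.filter_subset _ _)
  have hc0 : 0 ≤ 128 * kap i l₁ j l₂ / (pw i * Lam i) := by positivity
  have := mul_le_mul_of_nonneg_right hcard hc0
  linarith

open scoped Classical in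
/-- One pair of classes. Here `s₁, s₂` are the masses of the two classes, with `q` running in the
class `(i, l₁)` and `r` in the class `(j, l₂)`. The weight `w > 0` is free. -/
theorem class_pair (ψ : ℕ → ℝ) (B : Finset ℕ) (hB : BlockOK ψ B) (Ov : ℕ → ℕ → ℝ)
    (hOv0 : ∀ q r, 0 ≤ Ov q r) (Good : ℕ → ℕ → Prop) (Lam : ℕ → ℝ) (hLam : ∀ i, 0 < Lam i)
    (hO : ∀ q ∈ B, ∀ r ∈ B, q < r → Good q r →
        Ov q r ≤ 2 * (Nat.gcd q r : ℝ) * min (ψ q / q) (ψ r / r))
    (hS : ∀ q ∈ B, ∀ d : ℕ, 0 < d → ∀ j l : ℕ, lev q ≤ j →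
        ∑ r ∈ B.filter (fun r => cl ψ r = (j, l) ∧ q < r ∧ Nat.gcd q r = d ∧ Good q r), Ov q r
          ≤ 61440 * (lam (ell ((q : ℝ) * ψ q)) * lam l) / (pw (lev q) * d)
            + 128 * kap (lev q) (ell ((q : ℝ) * ψ q)) j l / (pw (lev q) * Lam (lev q)))
    (i l₁ j l₂ : ℕ) (hij : i ≤ j) (w : ℝ) (hw : 0 < w)
    (hne : (B.filter (fun r => cl ψ r = (j, l₂))).Nonempty) :
    ∑ q ∈ B.filter (fun q => cl ψ q = (i, l₁)),
        ∑ r ∈ B.filter (fun r => cl ψ r = (j, l₂) ∧ q < r ∧ Good q r), Ov q r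
      ≤ 131072 * w * (∑ q ∈ B.filter (fun q => cl ψ q = (i, l₁)), ψ q)
        + 64 * 61440 * (kap i l₁ j l₂ / w) * (∑ r ∈ B.filter (fun r => cl ψ r = (j, l₂)), ψ r)
        + 500 * 128 * kap i l₁ j l₂ * (((i : ℝ) + 1) / Lam i) := by
  set X₁ := B.filter (fun q => cl ψ q = (i, l₁)) with hX₁
  set X₂ := B.filter (fun r => cl ψ r = (j, l₂)) with hX₂
  set s₁ := ∑ q ∈ X₁, ψ q with hs₁
  set s₂ := ∑ r ∈ X₂, ψ r with hs₂
  set K := kap i l₁ j l₂ with hK
  set Q := pw i with hQdef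
  set R := pw j with hRdef
  set A₁ := lam l₁ with hA₁
  set A₂ := lam l₂ with hA₂
  have hQ : 0 < Q := pw_pos i
  have hR : 0 < R := pw_pos j
  have hA₁0 : 0 < A₁ := lam_pos l₁
  have hA₂0 : 0 < A₂ := lam_pos l₂
  have hK0 : 0 < K := kap_pos i l₁ j l₂
  have hL := hLam i
  have hs₂0 : 0 < s₂ := Finset.sum_pos
    (fun r hr => hB.psi_pos r (Finset.mem_filter.mp hr).1) hne
  have hs₁0 : 0 ≤ s₁ := Finset.sum_nonneg
    (fun r hr => (hB.psi_pos r (Finset.mem_filter.mp hr).1).le)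
  set m := min (A₁ / Q ^ 2) (A₂ / R ^ 2) with hm
  have hm0 : 0 ≤ m := le_min (by positivity) (by positivity)
  have hQRm : Q * R * m = K := kap_eq_min i l₁ j l₂ hij
  set D := w * (A₁ * A₂) / (K * s₂) with hD
  have hD0 : 0 < D := by positivity
  -- the bound for one `q`
  have hone : ∀ q ∈ X₁, ∑ r ∈ B.filter (fun r => cl ψ r = (j, l₂) ∧ q < r ∧ Good q r), Ov q r
      ≤ (X₂.card : ℝ) * (2 * D * m)
        + (61440 * (A₁ * A₂) / Q *
            (∑ d ∈ (Nat.divisors q).filter (fun d : ℕ => D ≤ (d : ℝ)), (1 / (d : ℝ)))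
          + 128 * K / (Q * Lam i) * ((Nat.divisors q).card : ℝ)) := by
    intro q hq
    obtain ⟨hqB, hqcl⟩ := Finset.mem_filter.mp hq
    rw [← Finset.sum_filter_add_sum_filter_not
      (B.filter (fun r => cl ψ r = (j, l₂) ∧ q < r ∧ Good q r))
      (fun r => D ≤ (Nat.gcd q r : ℝ))]
    have hlarge := large_gcd_one ψ B hB Ov hOv0 Good Lam hLam hS i l₁ j l₂ hij D q hqB hqcl
    have hsmall : ∑ r ∈ (B.filter (fun r => cl ψ r = (j, l₂) ∧ q < r ∧ Good q r)).filter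
          (fun r => ¬ D ≤ (Nat.gcd q r : ℝ)), Ov q r ≤ (X₂.card : ℝ) * (2 * D * m) := by
      set F := (B.filter (fun r => cl ψ r = (j, l₂) ∧ q < r ∧ Good q r)).filter
          (fun r => ¬ D ≤ (Nat.gcd q r : ℝ)) with hF
      have hFsub : F ⊆ X₂ := by
        intro r hr
        obtain ⟨hr1, -⟩ := Finset.mem_filter.mp hr
        obtain ⟨hr2, hr3, -, -⟩ := Finset.mem_filter.mp hr1
        exact Finset.mem_filter.mpr ⟨hr2, hr3⟩
      have hpt : ∀ r ∈ F, Ov q r ≤ 2 * D * m := by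
        intro r hr
        obtain ⟨hr1, hr2⟩ := Finset.mem_filter.mp hr
        obtain ⟨hr3, hr4, hr5, hr6⟩ := Finset.mem_filter.mp hr1
        have h1 := hO q hqB r hr3 hr5 hr6
        have h2 : (Nat.gcd q r : ℝ) ≤ D := (not_le.mp hr2).le
        have h3 : min (ψ q / q) (ψ r / r) ≤ m := by
          apply min_le_min
          · exact (class_facts hB hqB hqcl).2.1
          · exact (class_facts hB hr3 hr4).2.1
        have h4 : 0 ≤ min (ψ q / q) (ψ r / r) := by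
          have h5 := hB.psi_pos q hqB
          have h6 := hB.psi_pos r hr3
          exact le_min (by positivity) (by positivity)
        have h7 : (Nat.gcd q r : ℝ) * min (ψ q / q) (ψ r / r) ≤ D * m :=
          mul_le_mul h2 h3 h4 hD0.le
        linarith
      have h1 : ∑ r ∈ F, Ov q r ≤ (F.card : ℝ) * (2 * D * m) := by
        have := Finset.sum_le_card_nsmul F (fun r => Ov q r) (2 * D * m) hpt
        simpa [nsmul_eq_mul] using this
      have h2 : (F.card : ℝ) ≤ (X₂.card : ℝ) := by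
        exact_mod_cast Finset.card_le_card hFsub
      have h3 : (F.card : ℝ) * (2 * D * m) ≤ (X₂.card : ℝ) * (2 * D * m) :=
        mul_le_mul_of_nonneg_right h2 (by positivity)
      linarith
    linarith
  -- sum over `q`
  have hsum := Finset.sum_le_sum hone
  rw [Finset.sum_add_distrib, Finset.sum_add_distrib, Finset.sum_const, nsmul_eq_mul,
    ← Finset.mul_sum, ← Finset.mul_sum] at hsum
  refine hsum.trans ?_
  -- the three parts
  have hX₁sub : X₁ ⊆ Finset.Ico (16 ^ i) (16 ^ (i + 1)) := by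
    intro q hq
    obtain ⟨hq1, hq2⟩ := Finset.mem_filter.mp hq
    exact class_level hB hq1 hq2
  have hfirst : ∑ q ∈ X₁, ∑ d ∈ (Nat.divisors q).filter (fun d : ℕ => D ≤ (d : ℝ)), (1 / (d : ℝ))
      ≤ 64 * Q / D := by
    refine le_trans ?_ (first_moment_large i D hD0)
    refine Finset.sum_le_sum_of_subset_of_nonneg hX₁sub ?_
    intro q _ _
    exact Finset.sum_nonneg (fun d _ => by positivity)
  have hsecond : ∑ q ∈ X₁, ((Nat.divisors q).card : ℝ) ≤ 500 * Q * ((i : ℝ) + 1) := by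
    refine le_trans ?_ (first_moment_tau i)
    refine Finset.sum_le_sum_of_subset_of_nonneg hX₁sub ?_
    intro q _ _
    positivity
  have hc1 : (X₁.card : ℝ) ≤ 256 * Q * s₁ / A₁ :=
    class_card hB i l₁ X₁ (fun q hq => Finset.mem_filter.mp hq)
  have hc2 : (X₂.card : ℝ) ≤ 256 * R * s₂ / A₂ :=
    class_card hB j l₂ X₂ (fun q hq => Finset.mem_filter.mp hq)
  have hpart1 : (X₁.card : ℝ) * ((X₂.card : ℝ) * (2 * D * m)) ≤ 131072 * w * s₁ := by
    have h1 : (X₁.card : ℝ) * ((X₂.card : ℝ) * (2 * D * m))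
        ≤ (256 * Q * s₁ / A₁) * ((256 * R * s₂ / A₂) * (2 * D * m)) := by
      apply mul_le_mul hc1 _ (by positivity) (by positivity)
      exact mul_le_mul_of_nonneg_right hc2 (by positivity)
    have h2 : (256 * Q * s₁ / A₁) * ((256 * R * s₂ / A₂) * (2 * D * m)) = 131072 * w * s₁ := by
      have : (256 * Q * s₁ / A₁) * ((256 * R * s₂ / A₂) * (2 * D * m))
          = 131072 * s₁ * s₂ * D * (Q * R * m) / (A₁ * A₂) := by
        field_simp
        ring
      rw [this, hQRm, hD]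
      field_simp
    linarith
  have hpart2 : 61440 * (A₁ * A₂) / Q *
      (∑ q ∈ X₁, ∑ d ∈ (Nat.divisors q).filter (fun d : ℕ => D ≤ (d : ℝ)), (1 / (d : ℝ)))
      ≤ 64 * 61440 * (K / w) * s₂ := by
    have h1 := mul_le_mul_of_nonneg_left hfirst
      (show 0 ≤ 61440 * (A₁ * A₂) / Q by positivity)
    have h2 : 61440 * (A₁ * A₂) / Q * (64 * Q / D) = 64 * 61440 * (K / w) * s₂ := by
      rw [hD]
      field_simp
    linarith
  have hpart3 : 128 * K / (Q * Lam i) * (∑ q ∈ X₁, ((Nat.divisors q).card : ℝ))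
      ≤ 500 * 128 * K * (((i : ℝ) + 1) / Lam i) := by
    have h1 := mul_le_mul_of_nonneg_left hsecond
      (show 0 ≤ 128 * K / (Q * Lam i) by positivity)
    have h2 : 128 * K / (Q * Lam i) * (500 * Q * ((i : ℝ) + 1))
        = 500 * 128 * K * (((i : ℝ) + 1) / Lam i) := by
      field_simp
    linarith
  linarith

end Vale.Agent.Lib.P028E
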