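import Mathlib

/-! Dyadic style classes (base 16) for moduli and for the size of `q ψ(q)`. -/

namespace Vale.Agent.Lib.P028E

/-- Level of a modulus: `16 ^ lev q ≤ q < 16 ^ (lev q + 1)`. -/
def lev (q : ℕ) : ℕ := Nat.log 16 q

/-- The real number `16 ^ i`. -/
noncomputable def pw (i : ℕ) : ℝ := (16 : ℝ) ^ i

/-- The real number `(1/16) ^ l`. -/
noncomputable def lam (l : ℕ) : ℝ := (1 / 16 : ℝ) ^ l

theorem pw_pos (i : ℕ) : 0 < pw i := by unfold pw; positivity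

theorem lam_pos (l : ℕ) : 0 < lam l := by unfold lam; positivity

theorem lam_le_one (l : ℕ) : lam l ≤ 1 := by
  unfold lam; exact pow_le_one₀ (by norm_num) (by norm_num)

theorem lev_spec (q : ℕ) (hq : 0 < q) : pw (lev q) ≤ q ∧ (q : ℝ) < 16 * pw (lev q) := by
  have h1 : 16 ^ Nat.log 16 q ≤ q := Nat.pow_log_le_self 16 hq.ne'
  have h2 : q < 16 ^ (Nat.log 16 q + 1) := Nat.lt_pow_succ_log_self (by norm_num) q
  unfold lev pw
  constructor
  · exact_mod_cast h1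
  · have : (q : ℝ) < (16 : ℝ) ^ (Nat.log 16 q + 1) := by exact_mod_cast h2
    rw [pow_succ] at this
    linarith

theorem lev_mono {q r : ℕ} (h : q ≤ r) : lev q ≤ lev r := Nat.log_mono_right h

theorem exists_ell (L : ℝ) (h0 : 0 < L) (h1 : L ≤ 1) : ∃ l : ℕ, lam l / 16 < L ∧ L ≤ lam l := by
  rcases lt_or_eq_of_le h1 with h | h
  · obtain ⟨n, h2, h3⟩ := exists_nat_pow_near_of_lt_one h0 h1 (by norm_num : (0 : ℝ) < 1 / 16)
      (by norm_num : (1 / 16 : ℝ) < 1)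
    refine ⟨n, ?_, h3⟩
    unfold lam
    rw [pow_succ] at h2
    linarith
  · refine ⟨0, ?_, ?_⟩
    · unfold lam; rw [h]; norm_num
    · unfold lam; rw [h]; norm_num

open scoped Classical in
/-- The class of a real number in `(0, 1]`: `lam (ell L) / 16 < L ≤ lam (ell L)`. -/
noncomputable def ell (L : ℝ) : ℕ :=
  if h : 0 < L ∧ L ≤ 1 then Classical.choose (exists_ell L h.1 h.2) else 0

theorem ell_spec (L : ℝ) (h0 : 0 < L) (h1 : L ≤ 1) : lam (ell L) / 16 < L ∧ L ≤ lam (ell L) := by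
  unfold ell
  rw [dif_pos ⟨h0, h1⟩]
  exact Classical.choose_spec (exists_ell L h0 h1)

/-- The class of a modulus. -/
noncomputable def cl (ψ : ℕ → ℝ) (q : ℕ) : ℕ × ℕ := (lev q, ell ((q : ℝ) * ψ q))

/-- The kernel `min (x Λ₁, Λ₂ / x)`, with `x = 16 ^ (j - i)`. -/
noncomputable def kap (i l₁ j l₂ : ℕ) : ℝ := min (pw (j - i) * lam l₁) (lam l₂ / pw (j - i))

theorem kap_pos (i l₁ j l₂ : ℕ) : 0 < kap i l₁ j l₂ := by
  unfold kap
  have h1 := pw_pos (j - i)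
  have h2 := lam_pos l₁
  have h3 := lam_pos l₂
  exact lt_min (by positivity) (by positivity)

/-- The bound of the kernel by a pure power of one half. -/
theorem kap_le (i l₁ j l₂ : ℕ) :
    kap i l₁ j l₂ ≤ (1 / 2 : ℝ) ^ (l₁ + 3 * l₂ + 2 * (j - i)) := by
  unfold kap
  set D := j - i
  have hp : pw D = (2 : ℝ) ^ (4 * D) := by
    unfold pw
    rw [pow_mul]
    norm_num
  have hl1 : lam l₁ = (1 / 2 : ℝ) ^ (4 * l₁) := by
    unfold lam
    rw [pow_mul]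
    norm_num
  have hl2 : lam l₂ = (1 / 2 : ℝ) ^ (4 * l₂) := by
    unfold lam
    rw [pow_mul]
    norm_num
  set T : ℝ := (1 / 2 : ℝ) ^ (l₁ + 3 * l₂ + 2 * D) with hT
  have hT0 : 0 < T := by rw [hT]; positivity
  -- the two members of the minimum, in terms of `a = (1/2)^D`
  set a : ℝ := (1 / 2 : ℝ) ^ D with ha
  have ha0 : 0 < a := by rw [ha]; positivity
  have hpa : pw D * a ^ 4 = 1 := by
    rw [hp, ha, ← pow_mul, mul_comm D 4]
    rw [← mul_pow]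
    norm_num
  set b : ℝ := (1 / 2 : ℝ) ^ l₁ with hb
  set c : ℝ := (1 / 2 : ℝ) ^ l₂ with hc
  have hb0 : 0 < b := by rw [hb]; positivity
  have hc0 : 0 < c := by rw [hc]; positivity
  have hb4 : lam l₁ = b ^ 4 := by rw [hl1, hb, ← pow_mul, mul_comm]
  have hc4 : lam l₂ = c ^ 4 := by rw [hl2, hc, ← pow_mul, mul_comm]
  have hTe : T = b * c ^ 3 * a ^ 2 := by
    rw [hT, hb, hc, ha, pow_add, pow_add, mul_comm 3 l₂, mul_comm 2 D, pow_mul, pow_mul]
  have hpw : pw D = 1 / a ^ 4 := by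
    field_simp
    linarith
  rcases le_total (pw D * lam l₁) (lam l₂ / pw D) with h | h
  · -- use `A ≤ B`, so `A ^ 4 ≤ A * B ^ 3`
    rw [min_eq_left h]
    have hA : pw D * lam l₁ = b ^ 4 / a ^ 4 := by rw [hpw, hb4]; field_simp
    have hB : lam l₂ / pw D = c ^ 4 * a ^ 4 := by rw [hpw, hc4]; field_simp
    rw [hA, hB] at h
    rw [hA, hTe]
    have h1 : (b ^ 4 / a ^ 4) ^ 4 ≤ (b * c ^ 3 * a ^ 2) ^ 4 := by
      have h2 : (b ^ 4 / a ^ 4) ^ 3 ≤ (c ^ 4 * a ^ 4) ^ 3 := pow_le_pow_left₀ (by positivity) h 3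
      have h3 : (b ^ 4 / a ^ 4) ^ 4 = (b ^ 4 / a ^ 4) * (b ^ 4 / a ^ 4) ^ 3 := by ring
      have h4 : (b * c ^ 3 * a ^ 2) ^ 4 = (b ^ 4 / a ^ 4) * (c ^ 4 * a ^ 4) ^ 3 := by
        field_simp
      rw [h3, h4]
      exact mul_le_mul_of_nonneg_left h2 (by positivity)
    exact le_of_pow_le_pow_left₀ (by norm_num) (by positivity) h1
  · rw [min_eq_right h]
    have hA : pw D * lam l₁ = b ^ 4 / a ^ 4 := by rw [hpw, hb4]; field_simp
    have hB : lam l₂ / pw D = c ^ 4 * a ^ 4 := by rw [hpw, hc4]; field_simp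
    rw [hA, hB] at h
    rw [hB, hTe]
    have h1 : (c ^ 4 * a ^ 4) ^ 4 ≤ (b * c ^ 3 * a ^ 2) ^ 4 := by
      have h3 : (c ^ 4 * a ^ 4) ^ 4 = (c ^ 4 * a ^ 4) ^ 3 * (c ^ 4 * a ^ 4) := by ring
      have h4 : (b * c ^ 3 * a ^ 2) ^ 4 = (c ^ 4 * a ^ 4) ^ 3 * (b ^ 4 / a ^ 4) := by
        field_simp
      rw [h3, h4]
      exact mul_le_mul_of_nonneg_left h (by positivity)
    exact le_of_pow_le_pow_left₀ (by norm_num) (by positivity) h1

end Vale.Agent.Lib.P028E
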