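import Vale.Agent.Lib.P028E.ClassPair

/-! The Schur test over all pairs of classes. -/

namespace Vale.Agent.Lib.P028E

private lemma geom_bound (x : ℝ) (h0 : 0 ≤ x) (h1 : x < 1) (S : Finset ℕ) :
    ∑ n ∈ S, x ^ n ≤ (1 - x)⁻¹ := by
  rw [← tsum_geometric_of_lt_one h0 h1]
  exact (summable_geometric_of_lt_one h0 h1).sum_le_tsum S (fun _ _ => pow_nonneg h0 _)

private lemma up_bound (x : ℝ) (h0 : 0 ≤ x) (h1 : x < 1) (i : ℕ) (S : Finset ℕ) :
    ∑ j ∈ S, (if i ≤ j then x ^ (j - i) else 0) ≤ (1 - x)⁻¹ := by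
  classical
  rw [← Finset.sum_filter]
  have hinj : Set.InjOn (fun j => j - i) (S.filter (fun j => i ≤ j) : Set ℕ) := by
    intro a ha b hb hab
    simp only [Finset.coe_filter, Set.mem_ofPred_eq] at ha hb
    simp only at hab
    omega
  have := geom_bound x h0 h1 ((S.filter (fun j => i ≤ j)).image (fun j => j - i))
  rwa [Finset.sum_image hinj] at this

private lemma down_bound (x : ℝ) (h0 : 0 ≤ x) (h1 : x < 1) (j : ℕ) (S : Finset ℕ) :
    ∑ i ∈ S, (if i ≤ j then x ^ (j - i) else 0) ≤ (1 - x)⁻¹ := by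
  classical
  rw [← Finset.sum_filter]
  have hinj : Set.InjOn (fun i => j - i) (S.filter (fun i => i ≤ j) : Set ℕ) := by
    intro a ha b hb hab
    simp only [Finset.coe_filter, Set.mem_ofPred_eq] at ha hb
    simp only at hab
    omega
  have := geom_bound x h0 h1 ((S.filter (fun i => i ≤ j)).image (fun i => j - i))
  rwa [Finset.sum_image hinj] at this

private lemma sum_prod_le (A : Finset (ℕ × ℕ)) (f g : ℕ → ℝ) (hf : ∀ n, 0 ≤ f n) (hg : ∀ n, 0 ≤ g n)
    (F G : ℝ) (hF : ∀ S : Finset ℕ, ∑ n ∈ S, f n ≤ F) (hG : ∀ S : Finset ℕ, ∑ n ∈ S, g n ≤ G) :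
    ∑ b ∈ A, f b.1 * g b.2 ≤ F * G := by
  classical
  have hsub : A ⊆ (A.image Prod.fst) ×ˢ (A.image Prod.snd) := by
    intro b hb
    exact Finset.mem_product.mpr ⟨Finset.mem_image_of_mem _ hb, Finset.mem_image_of_mem _ hb⟩
  have hF0 : 0 ≤ F := by simpa using hF ∅
  calc ∑ b ∈ A, f b.1 * g b.2
      ≤ ∑ b ∈ (A.image Prod.fst) ×ˢ (A.image Prod.snd), f b.1 * g b.2 :=
        Finset.sum_le_sum_of_subset_of_nonneg hsub (fun b _ _ => mul_nonneg (hf _) (hg _))
    _ = (∑ n ∈ A.image Prod.fst, f n) * (∑ n ∈ A.image Prod.snd, g n) := by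
        rw [Finset.sum_product, Finset.sum_mul_sum]
    _ ≤ F * G := mul_le_mul (hF _) (hG _) (Finset.sum_nonneg (fun _ _ => hg _)) hF0

private lemma sum_three {ι : Type*} (A : Finset ι) (c x : ℝ) (f : ι → ℝ) :
    ∑ b ∈ A, c * f b * x = c * (∑ b ∈ A, f b) * x := by
  rw [Finset.mul_sum, Finset.sum_mul]

/-- The three kernels of the Schur test. -/
private noncomputable def kW (a b : ℕ × ℕ) : ℝ :=
  (if a.1 ≤ b.1 then (1 / 2 : ℝ) ^ (b.1 - a.1) else 0) * (1 / 4 : ℝ) ^ b.2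

private noncomputable def kV (a b : ℕ × ℕ) : ℝ :=
  (1 / 2 : ℝ) ^ b.2 * ((if a.1 ≤ b.1 then (1 / 2 : ℝ) ^ (b.1 - a.1) else 0) * (1 / 2 : ℝ) ^ a.2)

private noncomputable def kK (a b : ℕ × ℕ) : ℝ :=
  (1 / 2 : ℝ) ^ a.2 * ((if a.1 ≤ b.1 then (1 / 4 : ℝ) ^ (b.1 - a.1) else 0) * (1 / 8 : ℝ) ^ b.2)

private lemma ite_nonneg' (x : ℝ) (h0 : 0 ≤ x) (p : Prop) [Decidable p] (n : ℕ) :
    0 ≤ (if p then x ^ n else 0) := by
  split_ifs
  · exact pow_nonneg h0 _
  · exact le_rfl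

private lemma kW_sum (a : ℕ × ℕ) (A : Finset (ℕ × ℕ)) : ∑ b ∈ A, kW a b ≤ 8 / 3 := by
  have := sum_prod_le A (fun j => if a.1 ≤ j then (1 / 2 : ℝ) ^ (j - a.1) else 0)
    (fun l => (1 / 4 : ℝ) ^ l) (fun n => ite_nonneg' _ (by norm_num) _ _)
    (fun n => by positivity) 2 (4 / 3)
    (fun S => by
      have := up_bound (1 / 2) (by norm_num) (by norm_num) a.1 S
      norm_num at this ⊢; exact this)
    (fun S => by
      have := geom_bound (1 / 4) (by norm_num) (by norm_num) S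
      norm_num at this ⊢; exact this)
  simp only [kW]
  linarith

private lemma kV_sum (b : ℕ × ℕ) (A : Finset (ℕ × ℕ)) : ∑ a ∈ A, kV a b ≤ 4 := by
  have := sum_prod_le A (fun i => if i ≤ b.1 then (1 / 2 : ℝ) ^ (b.1 - i) else 0)
    (fun l => (1 / 2 : ℝ) ^ l) (fun n => ite_nonneg' _ (by norm_num) _ _)
    (fun n => by positivity) 2 2
    (fun S => by
      have := down_bound (1 / 2) (by norm_num) (by norm_num) b.1 S
      norm_num at this ⊢; exact this)
    (fun S => by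
      have := geom_bound (1 / 2) (by norm_num) (by norm_num) S
      norm_num at this ⊢; exact this)
  simp only [kV]
  rw [← Finset.mul_sum]
  have h1 : (1 / 2 : ℝ) ^ b.2 ≤ 1 := pow_le_one₀ (by norm_num) (by norm_num)
  have h0 : (0 : ℝ) ≤ (1 / 2 : ℝ) ^ b.2 := by positivity
  have h2 : 0 ≤ ∑ a ∈ A, (if a.1 ≤ b.1 then (1 / 2 : ℝ) ^ (b.1 - a.1) else 0) * (1 / 2 : ℝ) ^ a.2 :=
    Finset.sum_nonneg (fun a _ => mul_nonneg (ite_nonneg' _ (by norm_num) _ _) (by positivity))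
  nlinarith

private lemma kK_sum (a : ℕ × ℕ) (A : Finset (ℕ × ℕ)) :
    ∑ b ∈ A, kK a b ≤ (1 / 2 : ℝ) ^ a.2 * (32 / 21) := by
  have := sum_prod_le A (fun j => if a.1 ≤ j then (1 / 4 : ℝ) ^ (j - a.1) else 0)
    (fun l => (1 / 8 : ℝ) ^ l) (fun n => ite_nonneg' _ (by norm_num) _ _)
    (fun n => by positivity) (4 / 3) (8 / 7)
    (fun S => by
      have := up_bound (1 / 4) (by norm_num) (by norm_num) a.1 S
      norm_num at this ⊢; exact this)
    (fun S => by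
      have := geom_bound (1 / 8) (by norm_num) (by norm_num) S
      norm_num at this ⊢; exact this)
  simp only [kK]
  rw [← Finset.mul_sum]
  have h0 : (0 : ℝ) ≤ (1 / 2 : ℝ) ^ a.2 := by positivity
  apply mul_le_mul_of_nonneg_left _ h0
  linarith

/-- Bound for a sum over the classes, grouped by the first coordinate. -/
private lemma fibre_sum (A : Finset (ℕ × ℕ)) (I : Finset ℕ) (hAI : ∀ a ∈ A, a.1 ∈ I) (L : ℕ → ℝ)
    (hL : ∀ i, 0 ≤ L i) :
    ∑ a ∈ A, L a.1 * (1 / 2 : ℝ) ^ a.2 ≤ 2 * ∑ i ∈ I, L i := by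
  classical
  have hsub : A ⊆ I ×ˢ (A.image Prod.snd) := by
    intro b hb
    exact Finset.mem_product.mpr ⟨hAI b hb, Finset.mem_image_of_mem _ hb⟩
  have hg := geom_bound (1 / 2) (by norm_num) (by norm_num) (A.image Prod.snd)
  have hI0 : 0 ≤ ∑ i ∈ I, L i := Finset.sum_nonneg (fun i _ => hL i)
  calc ∑ a ∈ A, L a.1 * (1 / 2 : ℝ) ^ a.2
      ≤ ∑ a ∈ I ×ˢ (A.image Prod.snd), L a.1 * (1 / 2 : ℝ) ^ a.2 :=
        Finset.sum_le_sum_of_subset_of_nonneg hsub
          (fun b _ _ => mul_nonneg (hL _) (by positivity))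
    _ = (∑ i ∈ I, L i) * (∑ l ∈ A.image Prod.snd, (1 / 2 : ℝ) ^ l) := by
        rw [Finset.sum_product, Finset.sum_mul_sum]
    _ ≤ 2 * ∑ i ∈ I, L i := by
        have : ∑ l ∈ A.image Prod.snd, (1 / 2 : ℝ) ^ l ≤ 2 := by
          norm_num at hg ⊢; exact hg
        nlinarith

open scoped Classical in
/-- The main bound for the pairs in a block. -/
theorem schur_main (ψ : ℕ → ℝ) (B : Finset ℕ) (hB : BlockOK ψ B) (Ov : ℕ → ℕ → ℝ)
    (hOv0 : ∀ q r, 0 ≤ Ov q r) (Good : ℕ → ℕ → Prop) (Lam : ℕ → ℝ) (hLam : ∀ i, 0 < Lam i)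
    (hO : ∀ q ∈ B, ∀ r ∈ B, q < r → Good q r →
        Ov q r ≤ 2 * (Nat.gcd q r : ℝ) * min (ψ q / q) (ψ r / r))
    (hS : ∀ q ∈ B, ∀ d : ℕ, 0 < d → ∀ j l : ℕ, lev q ≤ j →
        ∑ r ∈ B.filter (fun r => cl ψ r = (j, l) ∧ q < r ∧ Nat.gcd q r = d ∧ Good q r), Ov q r
          ≤ 61440 * (lam (ell ((q : ℝ) * ψ q)) * lam l) / (pw (lev q) * d)
            + 128 * kap (lev q) (ell ((q : ℝ) * ψ q)) j l / (pw (lev q) * Lam (lev q))) :
    ∑ q ∈ B, ∑ r ∈ B.filter (fun r => q < r ∧ Good q r), Ov q r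
      ≤ 16100000 * (∑ q ∈ B, ψ q) + 256000 * ∑ i ∈ B.image lev, ((i : ℝ) + 1) / Lam i := by
  set A : Finset (ℕ × ℕ) := B.image (cl ψ) with hA
  set s : ℕ × ℕ → ℝ := fun a => ∑ q ∈ B.filter (fun q => cl ψ q = a), ψ q with hs
  have hs0 : ∀ a, 0 ≤ s a := fun a =>
    Finset.sum_nonneg (fun q hq => (hB.psi_pos q (Finset.mem_filter.mp hq).1).le)
  have hmaps : ∀ q ∈ B, cl ψ q ∈ A := fun q hq => Finset.mem_image_of_mem _ hq
  have hsum : ∑ a ∈ A, s a = ∑ q ∈ B, ψ q := Finset.sum_fiberwise_of_maps_to hmaps _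
  set T : ℕ × ℕ → ℕ × ℕ → ℝ := fun a b =>
    ∑ q ∈ B.filter (fun q => cl ψ q = a),
      ∑ r ∈ B.filter (fun r => cl ψ r = b ∧ q < r ∧ Good q r), Ov q r with hT
  -- the decomposition of the left side
  have hLHS : ∑ q ∈ B, ∑ r ∈ B.filter (fun r => q < r ∧ Good q r), Ov q r
      = ∑ a ∈ A, ∑ b ∈ A, T a b := by
    have h1 : ∀ q, ∑ r ∈ B.filter (fun r => q < r ∧ Good q r), Ov q r
        = ∑ b ∈ A, ∑ r ∈ B.filter (fun r => cl ψ r = b ∧ q < r ∧ Good q r), Ov q r := by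
      intro q
      have := Finset.sum_fiberwise_of_maps_to (s := B.filter (fun r => q < r ∧ Good q r)) (t := A)
        (g := cl ψ) (fun r hr => hmaps r (Finset.mem_filter.mp hr).1) (fun r => Ov q r)
      rw [← this]
      refine Finset.sum_congr rfl (fun b _ => ?_)
      rw [Finset.filter_filter]
      refine Finset.sum_congr ?_ (fun _ _ => rfl)
      ext r
      simp only [Finset.mem_filter]
      tauto
    simp_rw [h1]
    have h2 := Finset.sum_fiberwise_of_maps_to (s := B) (t := A) (g := cl ψ) hmaps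
      (fun q => ∑ b ∈ A, ∑ r ∈ B.filter (fun r => cl ψ r = b ∧ q < r ∧ Good q r), Ov q r)
    rw [← h2]
    refine Finset.sum_congr rfl (fun a _ => ?_)
    rw [Finset.sum_comm]
  -- the bound for one pair of classes
  set Li : ℕ → ℝ := fun i => ((i : ℝ) + 1) / Lam i with hLi
  have hLi0 : ∀ i, 0 ≤ Li i := fun i => div_nonneg (by positivity) (hLam i).le
  have hpair : ∀ a ∈ A, ∀ b ∈ A, T a b ≤ 131072 * kW a b * s a + 64 * 61440 * kV a b * s b
      + 64000 * kK a b * Li a.1 := by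
    intro a _ b hb
    by_cases hab : a.1 ≤ b.1
    · have hne : (B.filter (fun r => cl ψ r = (b.1, b.2))).Nonempty := by
        obtain ⟨r, hr, hrb⟩ := Finset.mem_image.mp hb
        exact ⟨r, Finset.mem_filter.mpr ⟨hr, hrb⟩⟩
      have hw : (0 : ℝ) < (1 / 4 : ℝ) ^ b.2 * (1 / 2 : ℝ) ^ (b.1 - a.1) := by positivity
      have hcp := class_pair ψ B hB Ov hOv0 Good Lam hLam hO hS a.1 a.2 b.1 b.2 hab _ hw hne
      have hkap := kap_le a.1 a.2 b.1 b.2
      have hkap0 := kap_pos a.1 a.2 b.1 b.2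
      have hratio : kap a.1 a.2 b.1 b.2 / ((1 / 4 : ℝ) ^ b.2 * (1 / 2 : ℝ) ^ (b.1 - a.1))
          ≤ kV a b := by
        rw [div_le_iff₀ hw]
        refine le_trans hkap (le_of_eq ?_)
        simp only [kV, if_pos hab]
        have e1 : (1 / 4 : ℝ) = (1 / 2) ^ 2 := by norm_num
        rw [e1, ← pow_mul]
        simp only [← pow_add]
        congr 1
        ring
      have hkK : kap a.1 a.2 b.1 b.2 ≤ kK a b := by
        refine le_trans hkap (le_of_eq ?_)
        simp only [kK, if_pos hab]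
        have e1 : (1 / 4 : ℝ) = (1 / 2) ^ 2 := by norm_num
        have e2 : (1 / 8 : ℝ) = (1 / 2) ^ 3 := by norm_num
        rw [e1, e2, ← pow_mul, ← pow_mul]
        simp only [← pow_add]
        congr 1
        ring
      have hsa := hs0 a
      have hsb := hs0 b
      have hLa := hLi0 a.1
      have hkW : (1 / 4 : ℝ) ^ b.2 * (1 / 2 : ℝ) ^ (b.1 - a.1) = kW a b := by
        simp only [kW, if_pos hab]; ring
      have e3 : T a b ≤ _ := hcp
      rw [hkW] at e3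
      have h5 : kap a.1 a.2 b.1 b.2 / kW a b ≤ kV a b := by rwa [← hkW]
      calc T a b ≤ _ := e3
        _ ≤ _ := by
          have h6 : 64 * 61440 * (kap a.1 a.2 b.1 b.2 / kW a b) * s b ≤ 64 * 61440 * kV a b * s b := by
            apply mul_le_mul_of_nonneg_right _ hsb
            linarith
          have h7 : 500 * 128 * kap a.1 a.2 b.1 b.2 * Li a.1 ≤ 64000 * kK a b * Li a.1 := by
            apply mul_le_mul_of_nonneg_right _ hLa
            linarith
          simp only [hs, hLi] at h6 h7 ⊢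
          linarith
    · have h0 : T a b = 0 := by
        refine Finset.sum_eq_zero (fun q hq => ?_)
        refine Finset.sum_eq_zero (fun r hr => ?_)
        exfalso
        obtain ⟨_, hqa⟩ := Finset.mem_filter.mp hq
        obtain ⟨_, hrb, hqr, _⟩ := Finset.mem_filter.mp hr
        apply hab
        have h1 : lev q = a.1 := congrArg Prod.fst hqa
        have h2 : lev r = b.1 := congrArg Prod.fst hrb
        rw [← h1, ← h2]
        exact lev_mono hqr.le
      have hW : kW a b = 0 := by simp [kW, hab]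
      have hV : kV a b = 0 := by simp [kV, hab]
      have hK : kK a b = 0 := by simp [kK, hab]
      rw [h0, hW, hV, hK]
      simp
  -- summing up
  have hm0 : 0 ≤ ∑ q ∈ B, ψ q := Finset.sum_nonneg (fun q hq => (hB.psi_pos q hq).le)
  have hS1 : ∑ a ∈ A, ∑ b ∈ A, 131072 * kW a b * s a ≤ 131072 * (8 / 3) * ∑ a ∈ A, s a := by
    rw [Finset.mul_sum]
    refine Finset.sum_le_sum (fun a _ => ?_)
    have h1 : ∑ b ∈ A, 131072 * kW a b * s a = 131072 * (∑ b ∈ A, kW a b) * s a :=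
      sum_three A _ _ _
    rw [h1]
    apply mul_le_mul_of_nonneg_right _ (hs0 a)
    have := kW_sum a A
    linarith
  have hS2 : ∑ a ∈ A, ∑ b ∈ A, 64 * 61440 * kV a b * s b ≤ 64 * 61440 * 4 * ∑ b ∈ A, s b := by
    rw [Finset.sum_comm, Finset.mul_sum]
    refine Finset.sum_le_sum (fun b _ => ?_)
    have h1 : ∑ a ∈ A, 64 * 61440 * kV a b * s b = 64 * 61440 * (∑ a ∈ A, kV a b) * s b :=
      sum_three A _ _ _
    rw [h1]
    apply mul_le_mul_of_nonneg_right _ (hs0 b)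
    have := kV_sum b A
    linarith
  have hS3 : ∑ a ∈ A, ∑ b ∈ A, 64000 * kK a b * Li a.1
      ≤ 64000 * (32 / 21) * (2 * ∑ i ∈ B.image lev, Li i) := by
    have hAI : ∀ a ∈ A, a.1 ∈ B.image lev := by
      intro a ha
      obtain ⟨q, hq, hqa⟩ := Finset.mem_image.mp ha
      rw [← hqa]
      exact Finset.mem_image_of_mem _ hq
    have hf := fibre_sum A (B.image lev) hAI Li hLi0
    have h2 : ∑ a ∈ A, ∑ b ∈ A, 64000 * kK a b * Li a.1
        ≤ ∑ a ∈ A, 64000 * (32 / 21) * (Li a.1 * (1 / 2 : ℝ) ^ a.2) := by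
      refine Finset.sum_le_sum (fun a _ => ?_)
      have h1 : ∑ b ∈ A, 64000 * kK a b * Li a.1 = 64000 * (∑ b ∈ A, kK a b) * Li a.1 :=
        sum_three A _ _ _
      rw [h1]
      have := kK_sum a A
      have hLa := hLi0 a.1
      have h3 : 64000 * (∑ b ∈ A, kK a b) * Li a.1
          ≤ 64000 * ((1 / 2 : ℝ) ^ a.2 * (32 / 21)) * Li a.1 := by
        apply mul_le_mul_of_nonneg_right _ hLa
        linarith
      refine le_trans h3 (le_of_eq ?_)
      ring
    refine le_trans h2 ?_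
    rw [← Finset.mul_sum]
    apply mul_le_mul_of_nonneg_left hf (by norm_num)
  rw [hLHS]
  have hfinal : ∑ a ∈ A, ∑ b ∈ A, T a b ≤ ∑ a ∈ A, ∑ b ∈ A, 131072 * kW a b * s a
      + ∑ a ∈ A, ∑ b ∈ A, 64 * 61440 * kV a b * s b
      + ∑ a ∈ A, ∑ b ∈ A, 64000 * kK a b * Li a.1 := by
    rw [← Finset.sum_add_distrib, ← Finset.sum_add_distrib]
    refine Finset.sum_le_sum (fun a ha => ?_)
    rw [← Finset.sum_add_distrib, ← Finset.sum_add_distrib]
    exact Finset.sum_le_sum (fun b hb => hpair a ha b hb)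
  rw [hsum] at hS1 hS2
  have hI0 : 0 ≤ ∑ i ∈ B.image lev, Li i := Finset.sum_nonneg (fun i _ => hLi0 i)
  have : (∑ i ∈ B.image lev, ((i : ℝ) + 1) / Lam i) = ∑ i ∈ B.image lev, Li i := rfl
  rw [this]
  nlinarith

end Vale.Agent.Lib.P028E
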