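import Vale.Agent.Lib.P028E.Pair
import Vale.Agent.Lib.P028E.Schur

/-! From the lattice dichotomy to the bound per triple (modulus, gcd, class). -/

open MeasureTheory Set
open Vale.Agent.Lib.P028

namespace Vale.Agent.Lib.P028E

/-- The overlap integral of a family of sets. -/
noncomputable def Ovl (E : ℕ → Set ℝ) (q r : ℕ) : ℝ := ∫ x in (0 : ℝ)..1, ind (E q) x * ind (E r) x

/-- The parameter of the box in the second case: `16^i * lam l / (16^j)^2`. -/
noncomputable def pstar (i j l : ℕ) : ℝ := pw i * lam l / (pw j) ^ 2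

theorem Ovl_nonneg (E : ℕ → Set ℝ) (q r : ℕ) : 0 ≤ Ovl E q r := by
  unfold Ovl
  refine intervalIntegral.integral_nonneg (by norm_num) fun x _ => ?_
  exact mul_nonneg (ind_nonneg _ x) (ind_nonneg _ x)

/-- The overlap of sub-families is dominated by the overlap of the full arc sets. -/
theorem Ovl_le (γ : ℝ) (ψ : ℕ → ℝ) (E : ℕ → Set ℝ) (hopen : ∀ q, IsOpen (E q))
    (hE : ∀ q, E q ⊆ arcSet q γ (ψ q)) (q r : ℕ) :
    Ovl E q r ≤ ∫ x in (0 : ℝ)..1, ind (arcSet q γ (ψ q)) x * ind (arcSet r γ (ψ r)) x := by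
  unfold Ovl
  have hmono : ∀ (S T : Set ℝ), S ⊆ T → ∀ x, ind S x ≤ ind T x := by
    intro S T hST x
    unfold ind
    exact Set.indicator_le_indicator_of_subset hST (fun _ => zero_le_one) x
  have hint : ∀ (S T : Set ℝ), MeasurableSet S → MeasurableSet T →
      IntervalIntegrable (fun x => ind S x * ind T x) volume 0 1 := by
    intro S T hS hT
    refine intervalIntegrable_of_bdd ((measurable_ind hS).mul (measurable_ind hT)) 1
      (fun x => ?_) 0 1
    simp only [Pi.mul_apply]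
    rw [abs_of_nonneg (mul_nonneg (ind_nonneg _ x) (ind_nonneg _ x))]
    exact mul_le_one₀ (ind_le_one _ x) (ind_nonneg _ x) (ind_le_one _ x)
  refine intervalIntegral.integral_mono_on (by norm_num)
    (hint _ _ (hopen q).measurableSet (hopen r).measurableSet)
    (hint _ _ (measurableSet_arcSet _ _ _) (measurableSet_arcSet _ _ _)) fun x _ => ?_
  exact mul_le_mul (hmono _ _ (hE q) x) (hmono _ _ (hE r) x) (ind_nonneg _ x) (ind_nonneg _ x)

/-- Zero overlap if the two sets do not meet. -/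
theorem Ovl_eq_zero (E : ℕ → Set ℝ) (q r : ℕ) (h : ¬ (E q ∩ E r).Nonempty) : Ovl E q r = 0 := by
  unfold Ovl
  have : ∀ x, ind (E q) x * ind (E r) x = 0 := by
    intro x
    unfold ind
    by_cases h1 : x ∈ E q
    · by_cases h2 : x ∈ E r
      · exact absurd ⟨x, h1, h2⟩ h
      · simp [h2]
    · simp [h1]
  simp [this]

/-- The dichotomy applied to a family of moduli. -/
theorem case_bound (γ : ℝ) (q : ℕ) (F : Finset ℕ) (f : ℕ → ℝ) (p M V L : ℝ)
    (hp : 0 < p) (hM : 0 < M) (hV : 0 ≤ V) (hL : 0 < L)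
    (hz : ∀ r ∈ F, pz γ q r ≠ 0 ∧ nrm γ p (pz γ q r) ≤ M)
    (hinj : Set.InjOn (pz γ q) (F : Set ℕ))
    (hline : ∀ r ∈ F, ∀ u : ℤ, pz γ q r = u • sv γ p → L ≤ nrm γ p (sv γ p))
    (hfV : ∀ r ∈ F, f r ≤ V) :
    ∑ r ∈ F, f r ≤ 60 * p * M ^ 2 * V + (2 * M / L) * V := by
  classical
  have hsum : ∑ r ∈ F, f r ≤ (F.card : ℝ) * V := by
    calc ∑ r ∈ F, f r ≤ ∑ _r ∈ F, V := Finset.sum_le_sum hfV
      _ = (F.card : ℝ) * V := by rw [Finset.sum_const, nsmul_eq_mul]
  have hcard : ((F.image (pz γ q)).card : ℝ) = F.card := by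
    rw [Finset.card_image_of_injOn hinj]
  have h1 : 0 ≤ 60 * p * M ^ 2 * V := by positivity
  have h2 : 0 ≤ (2 * M / L) * V := by positivity
  have hdich := dichotomy γ p M hp (F.image (pz γ q)) (by
    intro z hz'
    obtain ⟨r, hr, rfl⟩ := Finset.mem_image.mp hz'
    exact hz r hr)
  rcases hdich with hmul | hfew
  · rcases F.eq_empty_or_nonempty with hF | ⟨r₀, hr₀⟩
    · subst hF
      simp only [Finset.sum_empty]
      linarith
    · obtain ⟨u₀, hu₀⟩ := hmul _ (Finset.mem_image_of_mem _ hr₀)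
      have hLn := hline r₀ hr₀ u₀ hu₀
      have hcm := card_multiples γ p M hp hM.le (F.image (pz γ q)) (by
        intro z hz'
        obtain ⟨r, hr, rfl⟩ := Finset.mem_image.mp hz'
        exact ⟨(hz r hr).1, (hz r hr).2, hmul _ hz'⟩)
      rw [hcard] at hcm
      have hc : (F.card : ℝ) ≤ 2 * M / L := by
        rw [le_div_iff₀ hL]
        calc (F.card : ℝ) * L ≤ (F.card : ℝ) * nrm γ p (sv γ p) :=
              mul_le_mul_of_nonneg_left hLn (Nat.cast_nonneg _)
          _ ≤ 2 * M := hcm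
      have := mul_le_mul_of_nonneg_right hc hV
      linarith
  · rw [hcard] at hfew
    have := mul_le_mul_of_nonneg_right hfew hV
    linarith

/-- The kernel as a minimum at the scale `16^j`. -/
theorem pw_mul_min (i j l₁ l₂ : ℕ) (hij : i ≤ j) :
    pw j * min (lam l₁ / (pw i) ^ 2) (lam l₂ / (pw j) ^ 2) = kap i l₁ j l₂ / pw i := by
  have hQ := pw_pos i
  have hR := pw_pos j
  have hx := pw_pos (j - i)
  have hmul : pw j = pw i * pw (j - i) := by
    unfold pw
    rw [← pow_add]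
    congr 1
    omega
  have e1 : pw j * (lam l₁ / (pw i) ^ 2) = pw (j - i) * lam l₁ / pw i := by
    rw [hmul]
    field_simp
  have e2 : pw j * (lam l₂ / (pw j) ^ 2) = lam l₂ / pw (j - i) / pw i := by
    rw [hmul]
    field_simp
  unfold kap
  rw [mul_min_of_nonneg _ _ hR.le, e1, e2]
  rw [min_div_div_right hQ.le]

open scoped Classical in
/-- The bound per (modulus, gcd, class). The hypotheses `hN`, `hT` say that when all points lie on
the line of the relevant shortest vector, this vector is long (or the situation cannot occur). -/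
theorem hS_of_lines (γ : ℝ) (ψ : ℕ → ℝ) (B : Finset ℕ) (hB : BlockOK ψ B) (E : ℕ → Set ℝ)
    (hopen : ∀ q, IsOpen (E q)) (hE : ∀ q, E q ⊆ arcSet q γ (ψ q))
    (Good : ℕ → ℕ → Prop) (Lam : ℕ → ℝ) (hLam : ∀ i, 0 < Lam i)
    (hGood : ∀ q r, Good q r → tt q r (ψ q) (ψ r) < 1 / 2 ∧ (E q ∩ E r).Nonempty)
    (hN : ∀ q ∈ B, ∀ r ∈ B, q < r → Good q r → ψ r / r ≤ ψ q / q → ∀ u : ℤ,
        pz γ q r = u • sv γ (ψ q) → Lam (lev q) ≤ nrm γ (ψ q) (sv γ (ψ q)))
    (hT : ∀ q ∈ B, ∀ r ∈ B, q < r → Good q r → ψ q / q < ψ r / r → ∀ u : ℤ,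
        pz γ q r = u • sv γ (pstar (lev q) (lev r) (ell ((r : ℝ) * ψ r))) →
        Lam (lev q) ≤ nrm γ (pstar (lev q) (lev r) (ell ((r : ℝ) * ψ r)))
          (sv γ (pstar (lev q) (lev r) (ell ((r : ℝ) * ψ r))))) :
    ∀ q ∈ B, ∀ d : ℕ, 0 < d → ∀ j l : ℕ, lev q ≤ j →
        ∑ r ∈ B.filter (fun r => cl ψ r = (j, l) ∧ q < r ∧ Nat.gcd q r = d ∧ Good q r), Ovl E q r
          ≤ 61440 * (lam (ell ((q : ℝ) * ψ q)) * lam l) / (pw (lev q) * d)
            + 128 * kap (lev q) (ell ((q : ℝ) * ψ q)) j l / (pw (lev q) * Lam (lev q)) := by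
  intro q hq d hd j l hj
  set F := B.filter (fun r => cl ψ r = (j, l) ∧ q < r ∧ Nat.gcd q r = d ∧ Good q r) with hF
  set i := lev q with hi
  set Q := pw i with hQdef
  set R := pw j with hRdef
  set A₁ := lam (ell ((q : ℝ) * ψ q)) with hA₁
  set A₂ := lam l with hA₂
  set L := Lam i with hLdef
  set K := kap i (ell ((q : ℝ) * ψ q)) j l with hKdef
  have hq2 : 2 ≤ q := hB.two_le q hq
  have hq0 : 0 < q := by omega
  have hQ : 0 < Q := pw_pos i
  have hR : 0 < R := pw_pos j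
  have hA₁p : 0 < A₁ := lam_pos _
  have hA₂p : 0 < A₂ := lam_pos _
  have hLp : 0 < L := hLam i
  have hdR : (0 : ℝ) < d := by exact_mod_cast hd
  have hqR : (0 : ℝ) < q := by exact_mod_cast hq0
  obtain ⟨hQq, hqQ⟩ := lev_spec q hq0
  have hψq : 0 < ψ q := hB.psi_pos q hq
  have hqψ : (q : ℝ) * ψ q ≤ 1 := hB.psi_le q hq
  have hqψ0 : 0 < (q : ℝ) * ψ q := mul_pos hqR hψq
  have hqA : (q : ℝ) * ψ q ≤ A₁ := (ell_spec _ hqψ0 hqψ).2
  have hψq_half : ψ q ≤ 1 / 2 := by
    have h2 : (2 : ℝ) ≤ q := by exact_mod_cast hq2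
    nlinarith
  have hψqA : ψ q ≤ A₁ / Q := by
    rw [le_div_iff₀ hQ]
    calc ψ q * Q ≤ ψ q * q := mul_le_mul_of_nonneg_left hQq hψq.le
      _ = (q : ℝ) * ψ q := by ring
      _ ≤ A₁ := hqA
  -- facts for r in the family
  have hfacts : ∀ r ∈ F, r ∈ B ∧ lev r = j ∧ ell ((r : ℝ) * ψ r) = l ∧ q < r ∧ Nat.gcd q r = d ∧
      Good q r ∧ 0 < r ∧ R ≤ (r : ℝ) ∧ (r : ℝ) < 16 * R ∧ 0 < ψ r ∧ ψ r ≤ 1 / 2 ∧ (r : ℝ) * ψ r ≤ A₂ := by
    intro r hr
    obtain ⟨hrB, hcl, hqr, hg, hG⟩ := Finset.mem_filter.mp hr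
    have h1 : lev r = j := congrArg Prod.fst hcl
    have h2 : ell ((r : ℝ) * ψ r) = l := congrArg Prod.snd hcl
    have hr2 := hB.two_le r hrB
    have hr0 : 0 < r := by omega
    have hrR : (0 : ℝ) < r := by exact_mod_cast hr0
    obtain ⟨h3, h4⟩ := lev_spec r hr0
    rw [h1] at h3 h4
    have h5 := hB.psi_pos r hrB
    have h6 := hB.psi_le r hrB
    have h7 : ψ r ≤ 1 / 2 := by
      have h2' : (2 : ℝ) ≤ r := by exact_mod_cast hr2
      nlinarith
    have h8 := (ell_spec _ (mul_pos hrR h5) h6).2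
    rw [h2] at h8
    exact ⟨hrB, h1, h2, hqr, hg, hG, hr0, h3, h4, h5, h7, h8⟩
  set V : ℝ := 2 * d * min (A₁ / Q ^ 2) (A₂ / R ^ 2) with hVdef
  have hV0 : 0 ≤ V := by
    have : 0 ≤ min (A₁ / Q ^ 2) (A₂ / R ^ 2) := le_min (by positivity) (by positivity)
    positivity
  have hOv : ∀ r ∈ F, Ovl E q r ≤ V := by
    intro r hr
    obtain ⟨_, _, _, _, hg, hG, hr0, hRr, _, hψr, hψr2, hrA⟩ := hfacts r hr
    have hrR : (0 : ℝ) < r := by exact_mod_cast hr0
    have h1 := Ovl_le γ ψ E hopen hE q r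
    have h2 := overlap_le (γ := γ) hq0 hr0 hψq.le hψq_half hψr.le hψr2 (hGood q r hG).1.le
    rw [hg] at h2
    refine h1.trans (h2.trans ?_)
    refine mul_le_mul_of_nonneg_left ?_ (by positivity)
    refine min_le_min ?_ ?_
    · rw [div_le_div_iff₀ hqR (by positivity)]
      calc ψ q * Q ^ 2 ≤ ψ q * (q : ℝ) ^ 2 := by
            apply mul_le_mul_of_nonneg_left _ hψq.le
            exact pow_le_pow_left₀ hQ.le hQq 2
        _ = ((q : ℝ) * ψ q) * q := by ring
        _ ≤ A₁ * q := mul_le_mul_of_nonneg_right hqA hqR.le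
    · rw [div_le_div_iff₀ hrR (by positivity)]
      calc ψ r * R ^ 2 ≤ ψ r * (r : ℝ) ^ 2 := by
            apply mul_le_mul_of_nonneg_left _ hψr.le
            exact pow_le_pow_left₀ hR.le hRr 2
        _ = ((r : ℝ) * ψ r) * r := by ring
        _ ≤ A₂ * r := mul_le_mul_of_nonneg_right hrA hrR.le
  set M : ℝ := 16 * R / d with hMdef
  have hM : 0 < M := by positivity
  -- common facts for the point
  have hpoint : ∀ r ∈ F, pz γ q r ≠ 0 ∧ |((pz γ q r).1 : ℝ)| < M ∧
      |yv γ (pz γ q r)| < tt q r (ψ q) (ψ r) ∧ (rp q r : ℝ) = r / d ∧ (qp q r : ℝ) = q / d := by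
    intro r hr
    obtain ⟨_, _, _, hqr, hg, hG, hr0, _, hr16, hψr, _, _⟩ := hfacts r hr
    have hdne : (d : ℝ) ≠ 0 := hdR.ne'
    have hrp : (rp q r : ℝ) = r / d := by
      unfold rp
      rw [hg, Nat.cast_div (hg ▸ Nat.gcd_dvd_right q r) hdne]
    have hqp : (qp q r : ℝ) = q / d := by
      unfold qp
      rw [hg, Nat.cast_div (hg ▸ Nat.gcd_dvd_left q r) hdne]
    obtain ⟨hk0, hkr⟩ := pk_bounds hq0 hqr
    have hz1 : (pz γ q r).1 = pk q r := rfl
    refine ⟨?_, ?_, ?_, hrp, hqp⟩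
    · intro h0
      have : (pz γ q r).1 = 0 := by rw [h0]; rfl
      rw [hz1] at this
      omega
    · rw [hz1]
      have h1 : (0 : ℝ) < (pk q r : ℝ) := by exact_mod_cast hk0
      have h2 : (pk q r : ℝ) ≤ (rp q r : ℝ) := by exact_mod_cast hkr
      rw [abs_of_pos h1]
      refine lt_of_le_of_lt h2 ?_
      rw [hrp, hMdef]
      exact div_lt_div_of_pos_right hr16 hdR
    · obtain ⟨x, hx1, hx2⟩ := (hGood q r hG).2
      obtain ⟨a, ha⟩ := hE q hx1
      obtain ⟨b, hb⟩ := hE r hx2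
      exact (pair_round hq0 hr0 ha hb (hGood q r hG).1.le).2
  have hinj : Set.InjOn (pz γ q) (F : Set ℕ) := by
    intro r hr r₁ hr₁ h
    obtain ⟨_, _, _, _, hg, _, hr0, _⟩ := hfacts r hr
    obtain ⟨_, _, _, _, hg₁, _, hr₁0, _⟩ := hfacts r₁ hr₁
    exact pz_inj hq0 hr0 hr₁0 (hg.trans hg₁.symm) h
  have hline : (2 * M / L) * V = 64 * K / (Q * L) := by
    have h := pw_mul_min i j (ell ((q : ℝ) * ψ q)) l hj
    rw [hVdef, hMdef]
    have h' : R * min (A₁ / Q ^ 2) (A₂ / R ^ 2) = K / Q := h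
    have e : 2 * (16 * R / d) / L * (2 * d * min (A₁ / Q ^ 2) (A₂ / R ^ 2))
        = 64 * (R * min (A₁ / Q ^ 2) (A₂ / R ^ 2)) / L := by
      field_simp
      ring
    rw [e, h']
    field_simp
  have hMsq : M ^ 2 = 256 * R ^ 2 / d ^ 2 := by
    rw [hMdef]
    field_simp
    ring
  -- split
  have hsplit := Finset.sum_filter_add_sum_filter_not F (fun r => ψ r / r ≤ ψ q / q) (Ovl E q)
  -- first case
  have hcase1 : ∑ r ∈ F.filter (fun r => ψ r / r ≤ ψ q / q), Ovl E q r
      ≤ 30720 * (A₁ * A₂) / (Q * d) + 64 * K / (Q * L) := by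
    have h := case_bound γ q (F.filter (fun r => ψ r / r ≤ ψ q / q)) (Ovl E q)
      (ψ q) M V L hψq hM hV0 hLp ?_ ?_ ?_ ?_
    · rw [hline] at h
      refine h.trans ?_
      have hmain : 60 * ψ q * M ^ 2 * V ≤ 30720 * (A₁ * A₂) / (Q * d) := by
        have hVle : V ≤ 2 * d * (A₂ / R ^ 2) := by
          rw [hVdef]
          exact mul_le_mul_of_nonneg_left (min_le_right _ _) (by positivity)
        calc 60 * ψ q * M ^ 2 * V ≤ 60 * (A₁ / Q) * M ^ 2 * (2 * d * (A₂ / R ^ 2)) := by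
              apply mul_le_mul _ hVle hV0 (by positivity)
              apply mul_le_mul_of_nonneg_right _ (by positivity)
              linarith
          _ = 30720 * (A₁ * A₂) / (Q * d) := by
              rw [hMsq]
              field_simp
              ring
      linarith
    · intro r hr
      obtain ⟨hrF, hcmp⟩ := Finset.mem_filter.mp hr
      obtain ⟨h0, h1, h2, hrp, hqp⟩ := hpoint r hrF
      obtain ⟨_, _, _, _, _, _, hr0, _, _, hψr, _, _⟩ := hfacts r hrF
      have hrR : (0 : ℝ) < r := by exact_mod_cast hr0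
      refine ⟨h0, max_le h1.le ?_⟩
      rw [div_le_iff₀ (by positivity)]
      have hcross : (q : ℝ) * ψ r ≤ r * ψ q := by
        rw [div_le_div_iff₀ hrR hqR] at hcmp
        linarith
      have htt : tt q r (ψ q) (ψ r) ≤ 2 * (rp q r : ℝ) * ψ q := by
        unfold tt
        rw [hrp, hqp]
        have : (q : ℝ) / d * ψ r ≤ (r : ℝ) / d * ψ q := by
          have e1 : (q : ℝ) / d * ψ r = ((q : ℝ) * ψ r) / d := by ring
          have e2 : (r : ℝ) / d * ψ q = ((r : ℝ) * ψ q) / d := by ring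
          rw [e1, e2]
          exact div_le_div_of_nonneg_right hcross hdR.le
        linarith
      have hrpM : (rp q r : ℝ) ≤ M := by
        rw [hrp, hMdef]
        obtain ⟨_, _, _, _, _, _, _, _, hr16, _⟩ := hfacts r hrF
        exact div_le_div_of_nonneg_right hr16.le hdR.le
      have : 2 * (rp q r : ℝ) * ψ q ≤ M * (2 * ψ q) := by nlinarith
      linarith
    · exact hinj.mono (by intro r hr; exact (Finset.mem_filter.mp hr).1)
    · intro r hr u hu
      obtain ⟨hrF, hcmp⟩ := Finset.mem_filter.mp hr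
      obtain ⟨hrB, _, _, hqr, _, hG, _⟩ := hfacts r hrF
      exact hN q hq r hrB hqr hG hcmp u hu
    · intro r hr
      exact hOv r (Finset.mem_filter.mp hr).1
  -- second case
  set ps : ℝ := pstar i j l with hps
  have hps0 : 0 < ps := by
    rw [hps]
    unfold pstar
    have := pw_pos i
    have := pw_pos j
    have := lam_pos l
    positivity
  have hcase2 : ∑ r ∈ F.filter (fun r => ¬ ψ r / r ≤ ψ q / q), Ovl E q r
      ≤ 30720 * (A₁ * A₂) / (Q * d) + 64 * K / (Q * L) := by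
    have h := case_bound γ q (F.filter (fun r => ¬ ψ r / r ≤ ψ q / q)) (Ovl E q)
      ps M V L hps0 hM hV0 hLp ?_ ?_ ?_ ?_
    · rw [hline] at h
      refine h.trans ?_
      have hmain : 60 * ps * M ^ 2 * V ≤ 30720 * (A₁ * A₂) / (Q * d) := by
        have hVle : V ≤ 2 * d * (A₁ / Q ^ 2) := by
          rw [hVdef]
          exact mul_le_mul_of_nonneg_left (min_le_left _ _) (by positivity)
        have hpse : ps = Q * A₂ / R ^ 2 := rfl
        calc 60 * ps * M ^ 2 * V ≤ 60 * ps * M ^ 2 * (2 * d * (A₁ / Q ^ 2)) :=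
              mul_le_mul_of_nonneg_left hVle (by positivity)
          _ = 30720 * (A₁ * A₂) / (Q * d) := by
              rw [hMsq, hpse]
              field_simp
              ring
      linarith
    · intro r hr
      obtain ⟨hrF, hcmp⟩ := Finset.mem_filter.mp hr
      push Not at hcmp
      obtain ⟨h0, h1, h2, hrp, hqp⟩ := hpoint r hrF
      obtain ⟨_, _, _, _, _, _, hr0, hRr, _, hψr, _, hrA⟩ := hfacts r hrF
      have hrR : (0 : ℝ) < r := by exact_mod_cast hr0
      refine ⟨h0, max_le h1.le ?_⟩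
      rw [div_le_iff₀ (by positivity)]
      have hcross : (r : ℝ) * ψ q ≤ q * ψ r := by
        rw [div_lt_div_iff₀ hqR hrR] at hcmp
        linarith
      have htt : tt q r (ψ q) (ψ r) ≤ 2 * ((q : ℝ) / d * ψ r) := by
        unfold tt
        rw [hrp, hqp]
        have : (r : ℝ) / d * ψ q ≤ (q : ℝ) / d * ψ r := by
          have e1 : (q : ℝ) / d * ψ r = ((q : ℝ) * ψ r) / d := by ring
          have e2 : (r : ℝ) / d * ψ q = ((r : ℝ) * ψ q) / d := by ring
          rw [e1, e2]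
          exact div_le_div_of_nonneg_right hcross hdR.le
        linarith
      have hψrA : ψ r ≤ A₂ / R := by
        rw [le_div_iff₀ hR]
        calc ψ r * R ≤ ψ r * r := mul_le_mul_of_nonneg_left hRr hψr.le
          _ = (r : ℝ) * ψ r := by ring
          _ ≤ A₂ := hrA
      have hq16 : (q : ℝ) / d * ψ r ≤ (16 * Q / d) * (A₂ / R) := by
        apply mul_le_mul _ hψrA hψr.le (by positivity)
        exact div_le_div_of_nonneg_right hqQ.le hdR.le
      have hend : (16 * Q / d) * (A₂ / R) = M * ps := by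
        have hpse : ps = Q * A₂ / R ^ 2 := rfl
        rw [hMdef, hpse]
        field_simp
      have : |yv γ (pz γ q r)| ≤ 2 * (M * ps) := by
        have := h2.le.trans htt
        rw [← hend]
        linarith
      linarith
    · exact hinj.mono (by intro r hr; exact (Finset.mem_filter.mp hr).1)
    · intro r hr u hu
      obtain ⟨hrF, hcmp⟩ := Finset.mem_filter.mp hr
      push Not at hcmp
      obtain ⟨hrB, h1, h2, hqr, _, hG, _⟩ := hfacts r hrF
      have := hT q hq r hrB hqr hG hcmp u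
      rw [h1, h2] at this
      exact this hu
    · intro r hr
      exact hOv r (Finset.mem_filter.mp hr).1
  rw [← hsplit]
  have e1 : 61440 * (A₁ * A₂) / (Q * d) = 2 * (30720 * (A₁ * A₂) / (Q * d)) := by ring
  have e2 : 128 * K / (Q * L) = 2 * (64 * K / (Q * L)) := by ring
  rw [e1, e2]
  linarith

end Vale.Agent.Lib.P028E
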