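import Vale.Agent.Lib.P028.Final

/-! Arc sets with a restricted set of centres, and a lower bound for their measure in an interval. -/

open MeasureTheory Set
open Vale.Agent.Lib.P028

namespace Vale.Agent.Lib.P028E

/-- Arcs `|q x - a - γ| < ψ` with `a` in a given set `A`. -/
def thinSet (q : ℕ) (γ ψ : ℝ) (A : Set ℤ) : Set ℝ := {x | ∃ a ∈ A, |(q : ℝ) * x - a - γ| < ψ}

theorem thinSet_subset (q : ℕ) (γ ψ : ℝ) (A : Set ℤ) : thinSet q γ ψ A ⊆ arcSet q γ ψ := by
  rintro x ⟨a, -, ha⟩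
  exact ⟨a, ha⟩

theorem isOpen_thinSet (q : ℕ) (γ ψ : ℝ) (A : Set ℤ) : IsOpen (thinSet q γ ψ A) := by
  have h : thinSet q γ ψ A = ⋃ a ∈ A, {x : ℝ | |(q : ℝ) * x - a - γ| < ψ} := by
    ext x
    simp [thinSet]
  rw [h]
  refine isOpen_biUnion fun a _ => ?_
  exact isOpen_lt (by fun_prop) continuous_const

open scoped Classical in
/-- Lower bound for the measure of a restricted arc set in an interval. -/
theorem cell_lower (q : ℕ) (hq : 0 < q) (γ ψ : ℝ) (hψ0 : 0 < ψ) (hψ : ψ ≤ 1 / 2) (A : Set ℤ)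
    (c e : ℝ) (hc : 0 ≤ c)
    (hA : ∀ (X : ℤ) (H : ℕ), c * H - e ≤ (((Finset.Ico X (X + H)).filter (· ∈ A)).card : ℝ))
    (u v : ℝ) (huv : u ≤ v) :
    2 * (ψ / q) * (c * ((q : ℝ) * (v - u) - 3) - e) ≤ (volume (thinSet q γ ψ A ∩ Ioc u v)).toReal := by
  have hq' : (0 : ℝ) < q := by exact_mod_cast hq
  set L : ℝ := (q : ℝ) * (v - u) with hL
  set X : ℤ := ⌈(q : ℝ) * u - γ + ψ⌉ with hX
  set H : ℕ := ⌊L - 2 * ψ⌋₊ with hHdef
  have hH : L - 3 ≤ (H : ℝ) := by
    have h1 : L - 2 * ψ < (H : ℝ) + 1 := Nat.lt_floor_add_one _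
    have h2 : (0 : ℝ) ≤ H := Nat.cast_nonneg _
    linarith
  set S := (Finset.Ico X (X + H)).filter (· ∈ A) with hS
  let arc : ℤ → Set ℝ := fun a => Ioo (((a : ℝ) + γ - ψ) / q) (((a : ℝ) + γ + ψ) / q)
  have hsub : (⋃ a ∈ S, arc a) ⊆ thinSet q γ ψ A ∩ Ioc u v := by
    intro x hx
    simp only [mem_iUnion, exists_prop] at hx
    obtain ⟨a, ha, hxa⟩ := hx
    have ha' := Finset.mem_filter.mp ha
    have hIco := Finset.mem_Ico.mp ha'.1
    have hl : ((a : ℝ) + γ - ψ) / q < x := hxa.1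
    have hr : x < ((a : ℝ) + γ + ψ) / q := hxa.2
    rw [div_lt_iff₀ hq'] at hl
    rw [lt_div_iff₀ hq'] at hr
    refine ⟨⟨a, ha'.2, ?_⟩, ?_, ?_⟩
    · rw [abs_lt]
      constructor <;> nlinarith
    · have h1 : (q : ℝ) * u - γ + ψ ≤ (X : ℝ) := Int.le_ceil _
      have h2 : (X : ℝ) ≤ (a : ℝ) := by exact_mod_cast hIco.1
      have : (q : ℝ) * u < (q : ℝ) * x := by nlinarith
      exact lt_of_mul_lt_mul_left this hq'.le
    · have h1 : (X : ℝ) < (q : ℝ) * u - γ + ψ + 1 := Int.ceil_lt_add_one _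
      have h2 : (a : ℝ) + 1 ≤ (X : ℝ) + H := by exact_mod_cast hIco.2
      have hHpos : 0 < H := by
        have : X < X + (H : ℤ) := lt_of_le_of_lt hIco.1 hIco.2
        omega
      have h3 : 0 ≤ L - 2 * ψ := by
        by_contra hneg
        push Not at hneg
        have : H = 0 := Nat.floor_of_nonpos hneg.le
        omega
      have h4 : (H : ℝ) ≤ L - 2 * ψ := Nat.floor_le h3
      have : (q : ℝ) * x ≤ (q : ℝ) * v := by
        have hLe : L = (q : ℝ) * v - (q : ℝ) * u := by rw [hL]; ring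
        nlinarith
      exact le_of_mul_le_mul_left this hq'
  have hdisj : (S : Set ℤ).PairwiseDisjoint arc := by
    intro a _ b _ hab
    refine Set.disjoint_left.mpr ?_
    intro x hxa hxb
    have h1 : ((a : ℝ) + γ - ψ) / q < x := hxa.1
    have h2 : x < ((a : ℝ) + γ + ψ) / q := hxa.2
    have h3 : ((b : ℝ) + γ - ψ) / q < x := hxb.1
    have h4 : x < ((b : ℝ) + γ + ψ) / q := hxb.2
    rw [div_lt_iff₀ hq'] at h1 h3
    rw [lt_div_iff₀ hq'] at h2 h4
    have h5 : (a : ℝ) - b < 1 := by linarith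
    have h6 : (b : ℝ) - a < 1 := by linarith
    have h7 : a - b < 1 := by exact_mod_cast h5
    have h8 : b - a < 1 := by exact_mod_cast h6
    exact hab (by omega)
  have hmeas : volume (⋃ a ∈ S, arc a) = ∑ a ∈ S, volume (arc a) :=
    measure_biUnion_finset hdisj (fun a _ => measurableSet_Ioo)
  have hvol : ∀ a, (volume (arc a)).toReal = 2 * (ψ / q) := by
    intro a
    have hle : ((a : ℝ) + γ - ψ) / q ≤ ((a : ℝ) + γ + ψ) / q := by
      apply div_le_div_of_nonneg_right _ hq'.le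
      linarith
    simp only [arc, Real.volume_Ioo]
    rw [ENNReal.toReal_ofReal (by linarith)]
    field_simp
    ring
  have hfin : volume (thinSet q γ ψ A ∩ Ioc u v) ≠ ⊤ :=
    ne_top_of_le_ne_top (by simp) (measure_mono inter_subset_right)
  have hmono : (volume (⋃ a ∈ S, arc a)).toReal ≤ (volume (thinSet q γ ψ A ∩ Ioc u v)).toReal :=
    ENNReal.toReal_mono hfin (measure_mono hsub)
  have hsum : (volume (⋃ a ∈ S, arc a)).toReal = (S.card : ℝ) * (2 * (ψ / q)) := by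
    rw [hmeas, ENNReal.toReal_sum]
    · simp [hvol]
    · intro a _
      exact measure_Ioo_lt_top.ne
  have hcount := hA X H
  have hψq : 0 ≤ 2 * (ψ / q) := by positivity
  have hcH : c * (L - 3) - e ≤ (S.card : ℝ) := by
    have : c * (L - 3) ≤ c * H := mul_le_mul_of_nonneg_left hH hc
    linarith
  calc 2 * (ψ / q) * (c * (L - 3) - e) ≤ 2 * (ψ / q) * (S.card : ℝ) :=
        mul_le_mul_of_nonneg_left hcH hψq
    _ = (S.card : ℝ) * (2 * (ψ / q)) := by ring
    _ = (volume (⋃ a ∈ S, arc a)).toReal := hsum.symm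
    _ ≤ _ := hmono

end Vale.Agent.Lib.P028E
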