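import Vale.Agent.Lib.P028E.Family
import Vale.Agent.Lib.P028E.Local

/-! The first family: all arcs kept, shifts with a Diophantine condition. -/

open MeasureTheory Set Filter Topology
open Vale.Agent.Lib.P028

namespace Vale.Agent.Lib.P028E

/-- In the first family all arcs are kept. -/
theorem thinSet_univ (q : ℕ) (γ ψ : ℝ) : thinSet q γ ψ Set.univ = arcSet q γ ψ := by
  ext x
  constructor
  · rintro ⟨a, -, ha⟩; exact ⟨a, ha⟩
  · rintro ⟨a, ha⟩; exact ⟨a, Set.mem_univ _, ha⟩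

/-- The measure lower bound for a cell, for the full family. -/
theorem cell_full (γ : ℝ) (ψ : ℕ → ℝ) (h0 : ∀ q, 0 ≤ ψ q) (hL : ∀ q : ℕ, 1 ≤ q → (q : ℝ) * ψ q ≤ 1)
    (N : ℕ) (hN : 0 < N) : ∃ q₁ : ℕ, ∀ q, q₁ ≤ q → 0 < ψ q → ∀ n : ℕ, n < N →
        (1 : ℝ) / N * ψ q ≤ (volume (arcSet q γ (ψ q) ∩ Ioc ((n : ℝ) / N) (((n : ℝ) + 1) / N))).toReal := by
  classical
  refine ⟨6 * N + 2, fun q hq hψ n _ => ?_⟩
  have hq2 : 2 ≤ q := by omega
  have hqR : (2 : ℝ) ≤ q := by exact_mod_cast hq2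
  have hq0 : (0 : ℝ) < q := by linarith
  have hN0 : (0 : ℝ) < N := by exact_mod_cast hN
  have hqN : 6 * (N : ℝ) ≤ q := by
    have : 6 * N ≤ q := by omega
    exact_mod_cast this
  have hψ2 : ψ q ≤ 1 / 2 := by
    have h1 := hL q (by omega)
    rw [le_div_iff₀ (by norm_num)]
    nlinarith
  have huv : (n : ℝ) / N ≤ ((n : ℝ) + 1) / N := by
    apply div_le_div_of_nonneg_right _ hN0.le
    linarith
  have hc := cell_lower q (by omega) γ (ψ q) hψ hψ2 Set.univ 1 0 zero_le_one
    (fun X H => by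
      have e : ∀ inst : DecidablePred (· ∈ (Set.univ : Set ℤ)),
          (@Finset.filter ℤ (· ∈ (Set.univ : Set ℤ)) inst (Finset.Ico X (X + H))) =
            Finset.Ico X (X + H) := fun inst =>
        Finset.filter_true_of_mem (fun a _ => Set.mem_univ a)
      rw [e, Int.card_Ico]
      simp)
    _ _ huv
  rw [thinSet_univ] at hc
  refine le_trans ?_ hc
  have e : ((n : ℝ) + 1) / N - (n : ℝ) / N = 1 / N := by field_simp; ring
  rw [e]
  have h1 : 0 ≤ ψ q * ((q : ℝ) - 6 * N) := mul_nonneg hψ.le (by linarith)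
  have e2 : 2 * (ψ q / q) * (1 * ((q : ℝ) * (1 / N) - 3) - 0) - (1 : ℝ) / N * ψ q
      = ψ q * ((q : ℝ) - 6 * N) / (q * N) := by
    field_simp
    ring
  have h2 : 0 ≤ ψ q * ((q : ℝ) - 6 * N) / (q * N) := by positivity
  linarith

/-- The lower bound of the shortest vector for a Diophantine shift. -/
theorem dio_lower (γ : ℝ) (c : ℝ) (n : ℕ) (hc : 0 < c)
    (hdio : ∀ k : ℕ, 0 < k → ∀ m : ℤ, c ≤ (k : ℝ) ^ n * |(k : ℝ) * γ + m|) :
    ∃ (Lam : ℕ → ℝ), (∀ i, 0 < Lam i) ∧ Summable (fun i : ℕ => ((i : ℝ) + 1) / Lam i) ∧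
      ∀ (i : ℕ) (s : ℝ), 0 < s → s ≤ 1 / pw i → Lam i ≤ nrm γ s (sv γ s) := by
  set c₁ : ℝ := min (c / 2) (1 / 2) with hc₁
  have hc₁0 : 0 < c₁ := lt_min (by positivity) (by norm_num)
  have hc₁2 : c₁ ≤ 1 / 2 := min_le_right _ _
  have hc₁c : c₁ ≤ c / 2 := min_le_left _ _
  set ρ : ℝ := (1 / 16 : ℝ) ^ ((1 : ℝ) / ((n : ℝ) + 1)) with hρ
  have hn1 : (0 : ℝ) < (n : ℝ) + 1 := by positivity
  have hρ0 : 0 < ρ := by rw [hρ]; positivity
  have hρn : ρ ^ (n + 1) = 1 / 16 := by
    rw [hρ, ← Real.rpow_natCast, ← Real.rpow_mul (by norm_num)]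
    have : (1 : ℝ) / ((n : ℝ) + 1) * ((n + 1 : ℕ) : ℝ) = 1 := by
      push_cast
      field_simp
    rw [this, Real.rpow_one]
  have hρ1 : ρ < 1 := by
    rw [hρ]
    apply Real.rpow_lt_one (by norm_num) (by norm_num) (by positivity)
  have hρ16 : 1 / 16 ≤ ρ := by
    rw [← hρn]
    calc ρ ^ (n + 1) ≤ ρ ^ 1 := pow_le_pow_of_le_one hρ0.le hρ1.le (by omega)
      _ = ρ := pow_one ρ
  refine ⟨fun i => c₁ / ρ ^ i, fun i => by positivity, ?_, ?_⟩
  · have h1 : Summable (fun i : ℕ => (i : ℝ) ^ 1 * ρ ^ i) :=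
      summable_pow_mul_geometric_of_norm_lt_one 1 (by rw [Real.norm_of_nonneg hρ0.le]; exact hρ1)
    have h2 : Summable (fun i : ℕ => ρ ^ i) := summable_geometric_of_lt_one hρ0.le hρ1
    have h3 := (h1.add h2).mul_left (1 / c₁)
    refine h3.congr (fun i => ?_)
    have hρi : 0 < ρ ^ i := by positivity
    field_simp
  · intro i s hs hsi
    have hpw := pw_pos i
    have hv0 := sv_ne_zero γ s
    set v := sv γ s with hv
    set l := nrm γ s v with hl
    have hl0 : 0 < l := nrm_pos γ s hs v hv0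
    obtain ⟨hk, hy⟩ := (nrm_le_iff γ s l hs v).mp le_rfl
    have hs2 : pw i * s ≤ 1 := by
      have := (le_div_iff₀ hpw).mp hsi
      linarith
    by_cases hk0 : v.1 = 0
    · -- the first coordinate vanishes
      have hm0 : v.2 ≠ 0 := by
        intro h
        exact hv0 (Prod.ext hk0 h)
      have hy1 : (1 : ℝ) ≤ |yv γ v| := by
        have e : yv γ v = (v.2 : ℝ) := by
          unfold yv
          rw [hk0]
          simp
        rw [e]
        have : (1 : ℤ) ≤ |v.2| := Int.one_le_abs hm0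
        exact_mod_cast this
      have hl1 : 1 ≤ 2 * s * l := by linarith
      have hli : pw i / 2 ≤ l := by
        have : pw i * (2 * s * l) ≤ 2 * l := by nlinarith
        nlinarith
      have hρi : (1 / 16 : ℝ) ^ i ≤ ρ ^ i := pow_le_pow_left₀ (by norm_num) hρ16 i
      have hρi0 : 0 < ρ ^ i := by positivity
      have h16 : pw i * (1 / 16 : ℝ) ^ i = 1 := by
        unfold pw
        rw [← mul_pow]
        norm_num
      have h5 : 1 / ρ ^ i ≤ pw i := by
        rw [div_le_iff₀ hρi0]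
        calc (1 : ℝ) = pw i * (1 / 16 : ℝ) ^ i := h16.symm
          _ ≤ pw i * ρ ^ i := mul_le_mul_of_nonneg_left hρi hpw.le
      calc c₁ / ρ ^ i = c₁ * (1 / ρ ^ i) := by ring
        _ ≤ (1 / 2) * pw i := mul_le_mul hc₁2 h5 (by positivity) (by norm_num)
        _ = pw i / 2 := by ring
        _ ≤ l := hli
    · -- the first coordinate does not vanish
      set K : ℕ := v.1.natAbs with hK
      have hKpos : 0 < K := Int.natAbs_pos.mpr hk0
      have hKR : (K : ℝ) = |(v.1 : ℝ)| := by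
        rw [hK]
        simp
      have hKl : (K : ℝ) ≤ l := by rw [hKR]; exact hk
      have hyv : ∃ m : ℤ, |(K : ℝ) * γ + m| = |yv γ v| := by
        rcases lt_or_gt_of_ne hk0 with hneg | hpos
        · refine ⟨-v.2, ?_⟩
          have e : (K : ℝ) = -(v.1 : ℝ) := by
            rw [hKR, abs_of_neg]
            exact_mod_cast hneg
          rw [e]
          unfold yv
          push_cast
          rw [← abs_neg]
          congr 1
          ring
        · refine ⟨v.2, ?_⟩
          have e : (K : ℝ) = (v.1 : ℝ) := by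
            rw [hKR, abs_of_pos]
            exact_mod_cast hpos
          rw [e]
          unfold yv
          congr 1
          ring
      obtain ⟨m, hm⟩ := hyv
      have h1 := hdio K hKpos m
      rw [hm] at h1
      have h2 : (K : ℝ) ^ n * |yv γ v| ≤ l ^ n * (2 * s * l) :=
        mul_le_mul (pow_le_pow_left₀ (by positivity) hKl n) hy (abs_nonneg _) (by positivity)
      have h3 : c ≤ 2 * s * l ^ (n + 1) := by
        calc c ≤ _ := h1
          _ ≤ l ^ n * (2 * s * l) := h2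
          _ = 2 * s * l ^ (n + 1) := by ring
      have h4 : c / 2 * pw i ≤ l ^ (n + 1) := by
        have h5 : pw i * (2 * s * l ^ (n + 1)) ≤ 2 * l ^ (n + 1) := by
          have : 0 ≤ l ^ (n + 1) := by positivity
          nlinarith
        nlinarith
      have hρi0 : 0 < ρ ^ i := by positivity
      have hLi : (c₁ / ρ ^ i) ^ (n + 1) ≤ l ^ (n + 1) := by
        have e1 : (c₁ / ρ ^ i) ^ (n + 1) = c₁ ^ (n + 1) * pw i := by
          rw [div_pow, ← pow_mul, mul_comm i, pow_mul, hρn]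
          unfold pw
          have h16 : ((1 : ℝ) / 16) ^ i = 1 / (16 : ℝ) ^ i := by rw [div_pow, one_pow]
          rw [h16]
          field_simp
        rw [e1]
        have e2 : c₁ ^ (n + 1) ≤ c₁ := by
          calc c₁ ^ (n + 1) ≤ c₁ ^ 1 := pow_le_pow_of_le_one hc₁0.le (by linarith) (by omega)
            _ = c₁ := pow_one _
        have e3 : c₁ ^ (n + 1) * pw i ≤ (c / 2) * pw i :=
          mul_le_mul_of_nonneg_right (le_trans e2 hc₁c) hpw.le
        linarith
      exact le_of_pow_le_pow_left₀ (by omega) hl0.le hLi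

/-- Elementary bound of `pstar`. -/
theorem pstar_le {i j l : ℕ} (hij : i ≤ j) : pstar i j l ≤ 1 / pw i := by
  unfold pstar
  have h1 := pw_pos i
  have h2 := pw_pos j
  have h3 : pw i ≤ pw j := by
    unfold pw
    exact pow_le_pow_right₀ (by norm_num) hij
  have h4 := lam_le_one l
  have h5 := lam_pos l
  rw [div_le_div_iff₀ (by positivity) h1]
  have h6 : pw i ^ 2 ≤ pw j ^ 2 := pow_le_pow_left₀ h1.le h3 2
  have h7 : pw i * lam l * pw i ≤ pw i * 1 * pw i :=
    mul_le_mul_of_nonneg_right (mul_le_mul_of_nonneg_left h4 h1.le) h1.le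
  nlinarith

theorem pstar_pos (i j l : ℕ) : 0 < pstar i j l := by
  unfold pstar
  have := pw_pos i; have := pw_pos j; have := lam_pos l
  positivity

/-- Bound for the modulus from its level. -/
theorem one_div_le_of_lev {q : ℕ} (hq : 1 ≤ q) {s : ℝ} (hs : (q : ℝ) * s ≤ 1) :
    s ≤ 1 / pw (lev q) := by
  have h := (lev_spec q hq).1
  have hp := pw_pos (lev q)
  have hq' : (0 : ℝ) < q := by exact_mod_cast hq
  rw [le_div_iff₀ hp]
  by_cases hs0 : 0 ≤ s
  · nlinarith
  · have : s < 0 := not_le.mp hs0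
    nlinarith

/-- From the Mathlib notion to the inequality used above. -/
theorem dio_of_not_liouville (γ : ℝ) (hirr : Irrational γ) (hL : ¬ Liouville γ) :
    ∃ (c : ℝ) (n : ℕ), 0 < c ∧ ∀ k : ℕ, 0 < k → ∀ m : ℤ, c ≤ (k : ℝ) ^ n * |(k : ℝ) * γ + m| := by
  unfold Liouville at hL
  push Not at hL
  obtain ⟨n, hn⟩ := hL
  have hr : 0 < |γ - round γ| := by
    rw [abs_pos, sub_ne_zero]
    exact hirr.ne_int _
  refine ⟨min 1 |γ - round γ|, n, lt_min one_pos hr, fun k hk m => ?_⟩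
  rcases Nat.lt_or_ge k 2 with hk2 | hk2
  · have hk1 : k = 1 := by omega
    subst hk1
    have h1 : |γ - round γ| ≤ |γ - ((-m : ℤ) : ℝ)| := round_le γ (-m)
    have e : γ - ((-m : ℤ) : ℝ) = ((1 : ℕ) : ℝ) * γ + m := by push_cast; ring
    rw [e] at h1
    simp only [Nat.cast_one, one_pow, one_mul] at h1 ⊢
    exact le_trans (min_le_right _ _) h1
  · have hkR : (0 : ℝ) < k := by exact_mod_cast hk
    have hk1 : (1 : ℤ) < (k : ℤ) := by exact_mod_cast hk2
    have hne : γ ≠ ((-m : ℤ) : ℝ) / (((k : ℤ)) : ℝ) := by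
      have := (irrational_iff_ne_rational γ).mp hirr (-m) (k : ℤ) (by omega)
      exact this
    have h1 := hn (-m) (k : ℤ) hk1 hne
    have e : |γ - ((-m : ℤ) : ℝ) / ((k : ℤ) : ℝ)| = |(k : ℝ) * γ + m| / k := by
      have e1 : γ - ((-m : ℤ) : ℝ) / ((k : ℤ) : ℝ) = ((k : ℝ) * γ + m) / k := by
        push_cast
        field_simp
        ring
      rw [e1, abs_div, abs_of_pos hkR]
    rw [e] at h1
    have hk1R : (1 : ℝ) ≤ k := by exact_mod_cast hk
    have h2 : (1 : ℝ) / (k : ℝ) ^ n ≤ |(k : ℝ) * γ + m| := by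
      refine le_trans ?_ (div_le_self (abs_nonneg _) hk1R)
      simpa using h1
    have hkn : (0 : ℝ) < (k : ℝ) ^ n := by positivity
    rw [div_le_iff₀ hkn] at h2
    calc min 1 |γ - round γ| ≤ 1 := min_le_left _ _
      _ ≤ (k : ℝ) ^ n * |(k : ℝ) * γ + m| := by linarith

end Vale.Agent.Lib.P028E
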