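import Vale.Agent.Lib.P028E.Second
import Vale.Agent.Lib.P028E.Block

/-! The generic theorem for a family of sub arc sets. -/

open MeasureTheory Set Filter Topology
open Vale.Agent.Lib.P028

namespace Vale.Agent.Lib.P028E

/-- A summable sequence has small sums over finite sets far out. -/
theorem exists_tail_small (f : ℕ → ℝ) (hf0 : ∀ i, 0 ≤ f i) (hf : Summable f) :
    ∃ i₀ : ℕ, ∀ I : Finset ℕ, (∀ i ∈ I, i₀ ≤ i) → ∑ i ∈ I, f i ≤ 1 := by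
  obtain ⟨s, hs⟩ := (summable_iff_vanishing_norm.mp hf) 1 one_pos
  refine ⟨s.sup id + 1, fun I hI => ?_⟩
  have hdisj : Disjoint I s := by
    rw [Finset.disjoint_left]
    intro i hi his
    have h1 := hI i hi
    have h2 : i ≤ s.sup id := Finset.le_sup (f := id) his
    omega
  have h3 := hs I hdisj
  have h4 : (0 : ℝ) ≤ ∑ i ∈ I, f i := Finset.sum_nonneg (fun i _ => hf0 i)
  rw [Real.norm_of_nonneg h4] at h3
  exact h3.le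

open scoped Classical in
/-- The generic theorem. -/
theorem family_ae (γ : ℝ) (ψ : ℕ → ℝ) (h0 : ∀ q, 0 ≤ ψ q) (hL : ∀ q : ℕ, 1 ≤ q → (q : ℝ) * ψ q ≤ 1)
    (hdiv : ¬ Summable ψ) (E : ℕ → Set ℝ) (hopen : ∀ q, IsOpen (E q))
    (hE : ∀ q, E q ⊆ arcSet q γ (ψ q)) (Exc : ℕ → ℕ → Prop) (Lam : ℕ → ℝ) (hLam : ∀ i, 0 < Lam i)
    (hsum : Summable (fun i : ℕ => ((i : ℝ) + 1) / Lam i)) (c A₀ : ℝ) (hc : 0 < c) (hA₀ : 0 ≤ A₀)
    (hcell : ∀ N : ℕ, 0 < N → ∃ q₁ : ℕ, ∀ q, q₁ ≤ q → 0 < ψ q → ∀ n : ℕ, n < N →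
        c / N * ψ q ≤ (volume (E q ∩ Ioc ((n : ℝ) / N) (((n : ℝ) + 1) / N))).toReal)
    (hExc : ∀ B : Finset ℕ, BlockOK ψ B →
        ∑ q ∈ B, ∑ r ∈ B.filter (fun r => q < r ∧ tt q r (ψ q) (ψ r) < 1 / 2 ∧ Exc q r), Ovl E q r
          ≤ A₀ * ∑ q ∈ B, ψ q)
    (hN : ∀ q r : ℕ, 2 ≤ q → 0 < ψ q → 0 < ψ r → q < r → tt q r (ψ q) (ψ r) < 1 / 2 →
        (E q ∩ E r).Nonempty → ¬ Exc q r →
        ψ r / r ≤ ψ q / q → ∀ u : ℤ,
        pz γ q r = u • sv γ (ψ q) → Lam (lev q) ≤ nrm γ (ψ q) (sv γ (ψ q)))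
    (hT : ∀ q r : ℕ, 2 ≤ q → 0 < ψ q → 0 < ψ r → q < r → tt q r (ψ q) (ψ r) < 1 / 2 →
        (E q ∩ E r).Nonempty → ¬ Exc q r →
        ψ q / q < ψ r / r → ∀ u : ℤ,
        pz γ q r = u • sv γ (pstar (lev q) (lev r) (ell ((r : ℝ) * ψ r))) →
        Lam (lev q) ≤ nrm γ (pstar (lev q) (lev r) (ell ((r : ℝ) * ψ r)))
          (sv γ (pstar (lev q) (lev r) (ell ((r : ℝ) * ψ r))))) :
    ∀ᵐ x : ℝ, ∃ᶠ q : ℕ in atTop, ∃ a : ℤ, |(q : ℝ) * x - a - γ| < ψ q := by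
  have h1 : ∀ q : ℕ, 1 ≤ q → ψ q ≤ 1 := by
    intro q hq
    have hq' : (1 : ℝ) ≤ q := by exact_mod_cast hq
    have := hL q hq
    nlinarith [h0 q]
  have hf0 : ∀ i : ℕ, 0 ≤ ((i : ℝ) + 1) / Lam i := fun i => div_nonneg (by positivity) (hLam i).le
  obtain ⟨i₀, hi₀⟩ := exists_tail_small _ hf0 hsum
  set K : ℝ := 2 * 2 + 24 * 2 ^ 2 + 2 * (16100000 * 2 + 256000 * 1) + 2 * (A₀ * 2) + 1 with hKdef
  have hK : 0 < K := by rw [hKdef]; positivity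
  refine ae_of_blocks γ ψ h0 h1 hdiv E hopen hE c K hc hK hcell ⟨16 ^ i₀ + 2, ?_⟩
  intro B hB hm1 hm2
  have hBle : ∀ q ∈ B, 2 ≤ q ∧ 16 ^ i₀ ≤ q := by
    intro q hq
    have h2 := (hB q hq).1
    exact ⟨le_trans (Nat.le_add_left _ _) h2, le_trans (Nat.le_add_right _ _) h2⟩
  have hBOK : BlockOK ψ B := by
    refine ⟨fun q hq => (hBle q hq).1, fun q hq => (hB q hq).2, fun q hq => ?_⟩
    exact hL q (le_trans (by norm_num) (hBle q hq).1)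
  have hsec := second_moment γ ψ B hBOK E hopen hE Exc Lam hLam
    (fun q hq r hr hqr ht hmeet hex hcase u hz =>
      hN q r (hBOK.two_le q hq) (hBOK.psi_pos q hq) (hBOK.psi_pos r hr) hqr ht hmeet hex hcase u hz)
    (fun q hq r hr hqr ht hmeet hex hcase u hz =>
      hT q r (hBOK.two_le q hq) (hBOK.psi_pos q hq) (hBOK.psi_pos r hr) hqr ht hmeet hex hcase u hz)
  have htail : ∑ i ∈ B.image lev, ((i : ℝ) + 1) / Lam i ≤ 1 := by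
    apply hi₀
    intro i hi
    obtain ⟨q, hq, rfl⟩ := Finset.mem_image.mp hi
    have hq1 := hBle q hq
    unfold lev
    exact (Nat.le_log_iff_pow_le (by norm_num) (by omega)).mpr hq1.2
  have hexc := hExc B hBOK
  set m := ∑ q ∈ B, ψ q with hm
  have hm0 : 0 ≤ m := by linarith
  have hsq : m ^ 2 ≤ 2 ^ 2 := pow_le_pow_left₀ hm0 hm2 2
  have hAm : A₀ * m ≤ A₀ * 2 := mul_le_mul_of_nonneg_left hm2 hA₀
  calc ∑ q ∈ B, ∑ r ∈ B, Ovl E q r ≤ _ := hsec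
    _ ≤ K := by
      rw [hKdef]
      nlinarith

end Vale.Agent.Lib.P028E
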