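import Vale.Agent.Lib.P028E.Thin

/-! The two theorems: non-Liouville shifts with all supports, all shifts with supports on which the
totient is comparable to the modulus. -/

open MeasureTheory Set Filter Topology
open Vale.Agent.Lib.P028

namespace Vale.Agent.Lib.P028E

/-- Conclusion is monotone in `ψ`. -/
theorem ae_mono {γ : ℝ} {ψ ψ' : ℕ → ℝ} (h : ∀ q, ψ q ≤ ψ' q)
    (H : ∀ᵐ x : ℝ, ∃ᶠ q : ℕ in atTop, ∃ a : ℤ, |(q : ℝ) * x - a - γ| < ψ q) :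
    ∀ᵐ x : ℝ, ∃ᶠ q : ℕ in atTop, ∃ a : ℤ, |(q : ℝ) * x - a - γ| < ψ' q := by
  filter_upwards [H] with x hx
  refine hx.mono ?_
  rintro q ⟨a, ha⟩
  exact ⟨a, lt_of_lt_of_le ha (h q)⟩

open scoped Classical in
/-- First family: all supports, Diophantine shifts, normalised `ψ`. -/
theorem main_dio_norm (γ : ℝ) (ψ : ℕ → ℝ) (h0 : ∀ q, 0 ≤ ψ q)
    (hL : ∀ q : ℕ, 1 ≤ q → (q : ℝ) * ψ q ≤ 1) (hdiv : ¬ Summable ψ) (c : ℝ) (n : ℕ) (hc : 0 < c)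
    (hdio : ∀ k : ℕ, 0 < k → ∀ m : ℤ, c ≤ (k : ℝ) ^ n * |(k : ℝ) * γ + m|) :
    ∀ᵐ x : ℝ, ∃ᶠ q : ℕ in atTop, ∃ a : ℤ, |(q : ℝ) * x - a - γ| < ψ q := by
  obtain ⟨Lam, hLam, hsum, hlow⟩ := dio_lower γ c n hc hdio
  refine family_ae γ ψ h0 hL hdiv (fun q => arcSet q γ (ψ q))
    (fun q => isOpen_arcSet q γ (ψ q)) (fun q => Subset.rfl) (fun _ _ => False) Lam hLam hsum 1 0
    one_pos le_rfl (fun N hN => ?_) (fun B hB => ?_) ?_ ?_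
  · obtain ⟨q₁, hq₁⟩ := cell_full γ ψ h0 hL N hN
    exact ⟨q₁, fun q hq hψ n hn => by simpa using hq₁ q hq hψ n hn⟩
  · simp
  · intro q r hq hψq hψr hqr ht hmeet hex hcase u hz
    exact hlow _ _ hψq (one_div_le_of_lev (by omega) (hL q (by omega)))
  · intro q r hq hψq hψr hqr ht hmeet hex hcase u hz
    exact hlow _ _ (pstar_pos _ _ _) (pstar_le (lev_mono hqr.le))

open scoped Classical in
/-- Second family, normalised `ψ`. -/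
theorem main_thin_norm (γ : ℝ) (ψ : ℕ → ℝ) (h0 : ∀ q, 0 ≤ ψ q)
    (hL : ∀ q : ℕ, 1 ≤ q → (q : ℝ) * ψ q ≤ 1) (hdiv : ¬ Summable ψ) (c : ℝ) (hc : 0 < c)
    (hφ : ∀ q : ℕ, 0 < ψ q → c * q ≤ Nat.totient q) :
    ∀ᵐ x : ℝ, ∃ᶠ q : ℕ in atTop, ∃ a : ℤ, |(q : ℝ) * x - a - γ| < ψ q := by
  refine family_ae γ ψ h0 hL hdiv (fun q => thinSet q γ (ψ q) (cop γ (ψ q) q))
    (fun q => isOpen_thinSet _ _ _ _) (fun q => thinSet_subset _ _ _ _)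
    (fun q r => ψ r / r ≤ ψ q / q ∧ q ∣ r) (fun i => (4 : ℝ) ^ i / 91) (fun i => by positivity)
    summable_thin c (2 / c) hc (by positivity) (fun N hN => cell_thin γ ψ h0 hL c hc hφ N hN)
    (fun B hB => by convert exc_sum γ ψ h0 c hc hφ B hB) ?_ ?_
  · intro q r hq hψq hψr hqr ht hmeet hex hcase u hz
    exact (thin_hN γ ψ q r hq hψq hqr ht hmeet hex hcase u hz).elim
  · intro q r hq hψq hψr hqr ht hmeet hex hcase u hz
    exact thin_hT γ ψ hL q r hq hψr hqr ht hmeet u hz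

/-- Normalisation. -/
theorem normalise (ψ : ℕ → ℝ) (h0 : ∀ q, 0 ≤ ψ q) (C : ℝ) (hC : ∀ q : ℕ, 1 ≤ q → ψ q ≤ C / q) :
    ∃ K : ℝ, 0 < K ∧ 1 ≤ K ∧ ∀ q : ℕ, 1 ≤ q → (q : ℝ) * (ψ q / K) ≤ 1 := by
  refine ⟨max C 1, lt_of_lt_of_le one_pos (le_max_right _ _), le_max_right _ _, fun q hq => ?_⟩
  have hq' : (0 : ℝ) < q := by exact_mod_cast hq
  have hK : 0 < max C 1 := lt_of_lt_of_le one_pos (le_max_right _ _)
  have h1 : (q : ℝ) * ψ q ≤ C := by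
    have := hC q hq
    rw [le_div_iff₀ hq'] at this
    linarith
  have h2 : (q : ℝ) * ψ q ≤ max C 1 := le_trans h1 (le_max_left _ _)
  rw [← mul_div_assoc, div_le_one hK]
  exact h2

/-- First theorem. -/
theorem main_dio (γ : ℝ) (ψ : ℕ → ℝ) (h0 : ∀ q, 0 ≤ ψ q) (C : ℝ)
    (hC : ∀ q : ℕ, 1 ≤ q → ψ q ≤ C / q) (hdiv : ¬ Summable ψ) (c : ℝ) (n : ℕ) (hc : 0 < c)
    (hdio : ∀ k : ℕ, 0 < k → ∀ m : ℤ, c ≤ (k : ℝ) ^ n * |(k : ℝ) * γ + m|) :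
    ∀ᵐ x : ℝ, ∃ᶠ q : ℕ in atTop, ∃ a : ℤ, |(q : ℝ) * x - a - γ| < ψ q := by
  obtain ⟨K, hK, hK1, hn⟩ := normalise ψ h0 C hC
  have hdiv' : ¬ Summable (fun q => ψ q / K) := by
    intro h
    apply hdiv
    have := h.mul_right K
    refine this.congr (fun q => ?_)
    field_simp
  have H := main_dio_norm γ (fun q => ψ q / K) (fun q => div_nonneg (h0 q) hK.le) hn hdiv' c n hc hdio
  refine ae_mono (fun q => ?_) H
  exact div_le_self (h0 q) hK1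

/-- Second theorem. -/
theorem main_thin (γ : ℝ) (ψ : ℕ → ℝ) (h0 : ∀ q, 0 ≤ ψ q) (C : ℝ)
    (hC : ∀ q : ℕ, 1 ≤ q → ψ q ≤ C / q) (c : ℝ) (hc : 0 < c)
    (hdiv : ¬ Summable (fun q : ℕ => if c * q ≤ Nat.totient q then ψ q else 0)) :
    ∀ᵐ x : ℝ, ∃ᶠ q : ℕ in atTop, ∃ a : ℤ, |(q : ℝ) * x - a - γ| < ψ q := by
  set ψ₁ : ℕ → ℝ := fun q => if c * q ≤ Nat.totient q then ψ q else 0 with hψ₁
  have h10 : ∀ q, 0 ≤ ψ₁ q := fun q => by
    simp only [hψ₁]; split_ifs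
    · exact h0 q
    · exact le_rfl
  have h1le : ∀ q, ψ₁ q ≤ ψ q := fun q => by
    simp only [hψ₁]; split_ifs
    · exact le_rfl
    · exact h0 q
  have hC1 : ∀ q : ℕ, 1 ≤ q → ψ₁ q ≤ C / q := fun q hq => le_trans (h1le q) (hC q hq)
  obtain ⟨K, hK, hK1, hn⟩ := normalise ψ₁ h10 C hC1
  have hdiv' : ¬ Summable (fun q => ψ₁ q / K) := by
    intro h
    apply hdiv
    have := h.mul_right K
    refine this.congr (fun q => ?_)
    field_simp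
  have hφ : ∀ q : ℕ, 0 < ψ₁ q / K → c * q ≤ Nat.totient q := by
    intro q hq
    by_contra hne
    have : ψ₁ q = 0 := by simp only [hψ₁]; rw [if_neg hne]
    rw [this] at hq
    simp at hq
  have H := main_thin_norm γ (fun q => ψ₁ q / K) (fun q => div_nonneg (h10 q) hK.le) hn hdiv' c hc hφ
  refine ae_mono (fun q => ?_) H
  exact le_trans (div_le_self (h10 q) hK1) (h1le q)

end Vale.Agent.Lib.P028E
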