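import Vale.Agent.Lib.P028E.Classes

/-! First moments over all integers of a level. -/

namespace Vale.Agent.Lib.P028E

/-- Number of multiples of `d` in a level, for `0 < d < 16 ^ (i + 1)`. -/
theorem card_multiples_level (i d : ℕ) (hd : 0 < d) (hd2 : d < 16 ^ (i + 1)) :
    (((Finset.Ico (16 ^ i) (16 ^ (i + 1))).filter (fun q => d ∣ q)).card : ℝ) ≤ 31 * pw i / d := by
  set A : ℕ := 16 ^ i with hA
  have hA1 : 1 ≤ A := Nat.one_le_pow _ _ (by norm_num)
  set B : ℕ := 16 ^ (i + 1) with hB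
  have hBA : B = 16 * A := by rw [hB, hA, pow_succ]; ring
  have hunion : (Finset.Ioc 0 (B - 1)).filter (fun q => d ∣ q)
      = (Finset.Ioc 0 (A - 1)).filter (fun q => d ∣ q) ∪
        (Finset.Ico A B).filter (fun q => d ∣ q) := by
    ext x
    simp only [Finset.mem_filter, Finset.mem_Ioc, Finset.mem_union, Finset.mem_Ico]
    constructor
    · rintro ⟨⟨h1, h2⟩, h3⟩
      by_cases hx : x < A
      · exact Or.inl ⟨⟨h1, by omega⟩, h3⟩
      · exact Or.inr ⟨⟨by omega, by omega⟩, h3⟩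
    · rintro (⟨⟨h1, h2⟩, h3⟩ | ⟨⟨h1, h2⟩, h3⟩)
      · exact ⟨⟨h1, by omega⟩, h3⟩
      · exact ⟨⟨by omega, by omega⟩, h3⟩
  have hdisj : Disjoint ((Finset.Ioc 0 (A - 1)).filter (fun q => d ∣ q))
      ((Finset.Ico A B).filter (fun q => d ∣ q)) := by
    rw [Finset.disjoint_left]
    intro x hx hy
    simp only [Finset.mem_filter, Finset.mem_Ioc, Finset.mem_Ico] at hx hy
    omega
  have hcard : (B - 1) / d = (A - 1) / d + ((Finset.Ico A B).filter (fun q => d ∣ q)).card := by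
    rw [← Nat.Ioc_filter_dvd_card_eq_div, ← Nat.Ioc_filter_dvd_card_eq_div, hunion,
      Finset.card_union_of_disjoint hdisj]
  have hdR : (0 : ℝ) < d := by exact_mod_cast hd
  have h1 : (((B - 1) / d : ℕ) : ℝ) ≤ ((B - 1 : ℕ) : ℝ) / d := Nat.cast_div_le
  have h2 : ((A - 1 : ℕ) : ℝ) / d < (((A - 1) / d : ℕ) : ℝ) + 1 := by
    rw [div_lt_iff₀ hdR]
    have : (A - 1) < ((A - 1) / d + 1) * d := by
      have := Nat.lt_div_mul_add (a := A - 1) hd
      nlinarith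
    exact_mod_cast this
  have h3 : ((((Finset.Ico A B).filter (fun q => d ∣ q)).card : ℕ) : ℝ)
      = (((B - 1) / d : ℕ) : ℝ) - (((A - 1) / d : ℕ) : ℝ) := by
    rw [hcard]; push_cast; ring
  have hB1 : ((B - 1 : ℕ) : ℝ) = (B : ℝ) - 1 := by
    rw [Nat.cast_sub (by omega)]; simp
  have hA1' : ((A - 1 : ℕ) : ℝ) = (A : ℝ) - 1 := by
    rw [Nat.cast_sub hA1]; simp
  have hAp : (A : ℝ) = pw i := by simp [hA, pw]
  have hBR : (B : ℝ) = 16 * pw i := by rw [hBA]; push_cast; rw [hAp]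
  have hdle : (d : ℝ) ≤ 16 * pw i := by
    rw [← hBR]; exact_mod_cast hd2.le
  have h4 : 1 ≤ 16 * pw i / d := by
    rw [le_div_iff₀ hdR]; linarith
  rw [h3]
  have h5 : ((B : ℝ) - 1) / d - ((A : ℝ) - 1) / d + 1 ≤ 31 * pw i / d := by
    have : ((B : ℝ) - 1) / d - ((A : ℝ) - 1) / d = 15 * pw i / d := by
      rw [hBR, hAp]; field_simp; ring
    rw [this]
    have h6 : 31 * pw i / d = 15 * pw i / d + 16 * pw i / d := by field_simp; ring
    rw [h6]; linarith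
  rw [hB1] at h1
  rw [hA1'] at h2
  linarith

/-- Exchange of summation between moduli of a level and divisors. -/
theorem sum_level_divisors (i : ℕ) (P : ℕ → Prop) [DecidablePred P] (f : ℕ → ℝ) :
    ∑ q ∈ Finset.Ico (16 ^ i) (16 ^ (i + 1)), ∑ d ∈ (Nat.divisors q).filter P, f d
      = ∑ d ∈ (Finset.Ico 1 (16 ^ (i + 1))).filter P,
          (((Finset.Ico (16 ^ i) (16 ^ (i + 1))).filter (fun q => d ∣ q)).card : ℝ) * f d := by
  have hA1 : 1 ≤ 16 ^ i := Nat.one_le_pow _ _ (by norm_num)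
  have : ∀ d ∈ (Finset.Ico 1 (16 ^ (i + 1))).filter P,
      (((Finset.Ico (16 ^ i) (16 ^ (i + 1))).filter (fun q => d ∣ q)).card : ℝ) * f d
        = ∑ q ∈ (Finset.Ico (16 ^ i) (16 ^ (i + 1))).filter (fun q => d ∣ q), f d := by
    intro d _
    rw [Finset.sum_const, nsmul_eq_mul]
  rw [Finset.sum_congr rfl this]
  apply Finset.sum_comm'
  intro q d
  simp only [Finset.mem_Ico, Finset.mem_filter, Nat.mem_divisors]
  constructor
  · rintro ⟨⟨h1, h2⟩, ⟨h3, h4⟩, h5⟩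
    have hdle : d ≤ q := Nat.le_of_dvd (by omega) h3
    have hdpos : 0 < d := Nat.pos_of_dvd_of_pos h3 (by omega)
    exact ⟨⟨⟨h1, h2⟩, h3⟩, ⟨hdpos, by omega⟩, h5⟩
  · rintro ⟨⟨⟨h1, h2⟩, h3⟩, ⟨h4, h5⟩, h6⟩
    exact ⟨⟨h1, h2⟩, ⟨h3, by omega⟩, h6⟩

/-- The tail of the series of inverse squares. -/
theorem sum_inv_sq_le_of_ge (S : Finset ℕ) (D : ℝ) (hD : 0 < D)
    (hS : ∀ d ∈ S, D ≤ (d : ℝ)) : ∑ d ∈ S, (1 / (d : ℝ)) ^ 2 ≤ 2 / D := by
  set n0 : ℕ := ⌈D⌉₊ with hn0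
  have hn0pos : 0 < n0 := Nat.ceil_pos.mpr hD
  set N : ℕ := S.sup id + 1 with hN
  have hsub : S ⊆ Finset.Ioo (n0 - 1) N := by
    intro d hd
    have h1 : n0 ≤ d := Nat.ceil_le.mpr (hS d hd)
    have h2 : d ≤ S.sup id := Finset.le_sup (f := id) hd
    rw [Finset.mem_Ioo]
    omega
  have hterm : ∀ d : ℕ, (1 / (d : ℝ)) ^ 2 = ((d : ℝ) ^ 2)⁻¹ := by
    intro d; rw [one_div, inv_pow]
  have h1 : ∑ d ∈ S, (1 / (d : ℝ)) ^ 2 ≤ ∑ d ∈ Finset.Ioo (n0 - 1) N, ((d : ℝ) ^ 2)⁻¹ := by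
    simp_rw [hterm]
    exact Finset.sum_le_sum_of_subset_of_nonneg hsub (fun _ _ _ => by positivity)
  have h2 := sum_Ioo_inv_sq_le (α := ℝ) (n0 - 1) N
  have h3 : ((n0 - 1 : ℕ) : ℝ) + 1 = n0 := by
    rw [Nat.cast_sub hn0pos]; simp
  rw [h3] at h2
  have h4 : D ≤ n0 := Nat.le_ceil D
  have h5 : (2 : ℝ) / n0 ≤ 2 / D := by
    apply div_le_div_of_nonneg_left (by norm_num) hD h4
  linarith

open scoped Classical in
/-- First moment over all integers of a level: for `D > 0`, the sum over `q` of level `i` of the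
sum over divisors `d ≥ D` of `1/d` is at most `64 * 16 ^ i / D`. -/
theorem first_moment_large (i : ℕ) (D : ℝ) (hD : 0 < D) :
    ∑ q ∈ Finset.Ico (16 ^ i) (16 ^ (i + 1)), ∑ d ∈ (Nat.divisors q).filter (fun d : ℕ => D ≤ (d : ℝ)),
        (1 / (d : ℝ)) ≤ 64 * pw i / D := by
  rw [sum_level_divisors]
  have hpw := pw_pos i
  have h1 : ∀ d ∈ (Finset.Ico 1 (16 ^ (i + 1))).filter (fun d : ℕ => D ≤ (d : ℝ)),
      (((Finset.Ico (16 ^ i) (16 ^ (i + 1))).filter (fun q => d ∣ q)).card : ℝ) * (1 / (d : ℝ))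
        ≤ 31 * pw i * (1 / (d : ℝ)) ^ 2 := by
    intro d hd
    simp only [Finset.mem_filter, Finset.mem_Ico] at hd
    have hdpos : (0 : ℝ) < d := by exact_mod_cast hd.1.1
    have h := card_multiples_level i d hd.1.1 hd.1.2
    calc _ ≤ (31 * pw i / d) * (1 / (d : ℝ)) :=
          mul_le_mul_of_nonneg_right h (by positivity)
      _ = _ := by field_simp
  refine (Finset.sum_le_sum h1).trans ?_
  rw [← Finset.mul_sum]
  have h2 := sum_inv_sq_le_of_ge ((Finset.Ico 1 (16 ^ (i + 1))).filter (fun d : ℕ => D ≤ (d : ℝ)))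
    D hD (by
      intro d hd
      simp only [Finset.mem_filter] at hd
      exact hd.2)
  have h3 : 31 * pw i * (2 / D) ≤ 64 * pw i / D := by
    have : 31 * pw i * (2 / D) = 62 * pw i / D := by ring
    rw [this]
    apply div_le_div_of_nonneg_right _ hD.le
    nlinarith
  have h4 := mul_le_mul_of_nonneg_left h2 (by positivity : (0 : ℝ) ≤ 31 * pw i)
  linarith

/-- Harmonic sum in base 16. -/
theorem harmonic_level (j : ℕ) :
    ∑ d ∈ Finset.Ico (1 : ℕ) (16 ^ j), (1 / (d : ℝ)) ≤ 15 * (j : ℝ) := by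
  induction j with
  | zero => simp
  | succ j ih =>
    have h1 : (1 : ℕ) ≤ 16 ^ j := Nat.one_le_pow _ _ (by norm_num)
    have h2 : (16 : ℕ) ^ j ≤ 16 ^ (j + 1) := Nat.pow_le_pow_right (by norm_num) (by omega)
    rw [← Finset.sum_Ico_consecutive (fun d : ℕ => 1 / (d : ℝ)) h1 h2]
    have h3 : ∑ d ∈ Finset.Ico ((16 : ℕ) ^ j) (16 ^ (j + 1)), (1 / (d : ℝ)) ≤ 15 := by
      have hp : (0 : ℝ) < (16 : ℝ) ^ j := by positivity
      have h4 : ∀ d ∈ Finset.Ico ((16 : ℕ) ^ j) (16 ^ (j + 1)), (1 / (d : ℝ)) ≤ 1 / (16 : ℝ) ^ j := by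
        intro d hd
        rw [Finset.mem_Ico] at hd
        apply one_div_le_one_div_of_le hp
        exact_mod_cast hd.1
      refine (Finset.sum_le_sum h4).trans ?_
      rw [Finset.sum_const, Nat.card_Ico, nsmul_eq_mul, Nat.cast_sub h2]
      push_cast
      rw [pow_succ]
      field_simp
      norm_num
    push_cast
    linarith

/-- First moment of the divisor function over a level. -/
theorem first_moment_tau (i : ℕ) :
    ∑ q ∈ Finset.Ico (16 ^ i) (16 ^ (i + 1)), ((Nat.divisors q).card : ℝ)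
      ≤ 500 * pw i * ((i : ℝ) + 1) := by
  have h0 : ∀ q : ℕ, ((Nat.divisors q).card : ℝ)
      = ∑ d ∈ (Nat.divisors q).filter (fun _ => True), (1 : ℝ) := by
    intro q
    rw [Finset.filter_true_of_mem (fun _ _ => trivial), Finset.sum_const, nsmul_eq_mul, mul_one]
  simp_rw [h0]
  rw [sum_level_divisors]
  rw [Finset.filter_true_of_mem (fun _ _ => trivial)]
  have hpw := pw_pos i
  have h1 : ∀ d ∈ Finset.Ico (1 : ℕ) (16 ^ (i + 1)),
      (((Finset.Ico ((16 : ℕ) ^ i) (16 ^ (i + 1))).filter (fun q => d ∣ q)).card : ℝ) * (1 : ℝ)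
        ≤ 31 * pw i * (1 / (d : ℝ)) := by
    intro d hd
    rw [Finset.mem_Ico] at hd
    have h := card_multiples_level i d hd.1 hd.2
    rw [mul_one]
    calc _ ≤ 31 * pw i / d := h
      _ = _ := by ring
  refine (Finset.sum_le_sum h1).trans ?_
  rw [← Finset.mul_sum]
  have h2 := harmonic_level (i + 1)
  push_cast at h2
  have h4 := mul_le_mul_of_nonneg_left h2 (by positivity : (0 : ℝ) ≤ 31 * pw i)
  have h5 : 31 * pw i * (15 * ((i : ℝ) + 1)) ≤ 500 * pw i * ((i : ℝ) + 1) := by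
    have hi : (0 : ℝ) ≤ (i : ℝ) + 1 := by positivity
    nlinarith [mul_nonneg hpw.le hi]
  linarith

end Vale.Agent.Lib.P028E
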