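import Mathlib

/-! Lattice part of the inhomogeneous Erdos-Vaaler argument.
The lattice is `ℤ × ℤ`, a point `z = (k, m)` has real coordinate `yv γ z = m + k γ`, and
`nrm γ ψ z = max |k| (|m + k γ| / (2 ψ))`. The vector `sv γ ψ` is a shortest nonzero vector. -/

namespace Vale.Agent.Lib.P028E

/-- The real coordinate of a lattice point `(k, m)`: the number `m + k γ`. -/
noncomputable def yv (γ : ℝ) (z : ℤ × ℤ) : ℝ := (z.2 : ℝ) + (z.1 : ℝ) * γ

/-- The norm attached to the parameter `ψ`. -/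
noncomputable def nrm (γ ψ : ℝ) (z : ℤ × ℤ) : ℝ := max |(z.1 : ℝ)| (|yv γ z| / (2 * ψ))

theorem nrm_le_iff (γ ψ M : ℝ) (hψ : 0 < ψ) (z : ℤ × ℤ) :
    nrm γ ψ z ≤ M ↔ |(z.1 : ℝ)| ≤ M ∧ |yv γ z| ≤ 2 * ψ * M := by
  unfold nrm
  rw [max_le_iff, div_le_iff₀ (by positivity)]
  constructor
  · rintro ⟨h1, h2⟩; exact ⟨h1, by linarith⟩
  · rintro ⟨h1, h2⟩; exact ⟨h1, by linarith⟩

theorem exists_shortest (γ ψ : ℝ) (hψ : 0 < ψ) :
    ∃ v : ℤ × ℤ, v ≠ 0 ∧ ∀ z : ℤ × ℤ, z ≠ 0 → nrm γ ψ v ≤ nrm γ ψ z := by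
  classical
  set B := nrm γ ψ (1, 0) with hB
  have hB0 : 0 ≤ B := le_trans (abs_nonneg _) (le_max_left _ _)
  set K : ℤ := ⌈B + 2 * ψ * B + B * |γ|⌉ with hK
  set S : Finset (ℤ × ℤ) :=
    ((Finset.Icc (-K) K) ×ˢ (Finset.Icc (-K) K)).filter (fun z => z ≠ 0 ∧ nrm γ ψ z ≤ B) with hS
  have hmem : ∀ z : ℤ × ℤ, z ≠ 0 → nrm γ ψ z ≤ B → z ∈ S := by
    intro z hz hzB
    obtain ⟨h1, h2⟩ := (nrm_le_iff γ ψ B hψ z).mp hzB
    have hKge : B + 2 * ψ * B + B * |γ| ≤ (K : ℝ) := Int.le_ceil _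
    have hB1 : 0 ≤ 2 * ψ * B := by positivity
    have hB2 : 0 ≤ B * |γ| := by positivity
    have hk : |(z.1 : ℝ)| ≤ K := by linarith
    have hm : |(z.2 : ℝ)| ≤ K := by
      have e : (z.2 : ℝ) = yv γ z - (z.1 : ℝ) * γ := by unfold yv; ring
      rw [e]
      calc |yv γ z - (z.1 : ℝ) * γ| ≤ |yv γ z| + |(z.1 : ℝ) * γ| := abs_sub _ _
        _ ≤ 2 * ψ * B + B * |γ| := by
            rw [abs_mul]
            have := mul_le_mul_of_nonneg_right h1 (abs_nonneg γ)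
            linarith
        _ ≤ K := by linarith
    rw [abs_le] at hk hm
    apply Finset.mem_filter.mpr
    refine ⟨?_, hz, hzB⟩
    rw [Finset.mem_product, Finset.mem_Icc, Finset.mem_Icc]
    refine ⟨⟨?_, ?_⟩, ⟨?_, ?_⟩⟩
    · exact_mod_cast hk.1
    · exact_mod_cast hk.2
    · exact_mod_cast hm.1
    · exact_mod_cast hm.2
  have hne : S.Nonempty := ⟨(1, 0), hmem _ (by simp) le_rfl⟩
  obtain ⟨v, hv, hmin⟩ := Finset.exists_min_image S (nrm γ ψ) hne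
  have hvS := Finset.mem_filter.mp hv
  refine ⟨v, hvS.2.1, fun z hz => ?_⟩
  by_cases hzB : nrm γ ψ z ≤ B
  · exact hmin z (hmem z hz hzB)
  · exact le_trans hvS.2.2 (le_of_lt (not_le.mp hzB))

/-- A shortest nonzero vector for the norm with parameter `ψ`. -/
noncomputable def sv (γ ψ : ℝ) : ℤ × ℤ :=
  if h : 0 < ψ then Classical.choose (exists_shortest γ ψ h) else (1, 0)

theorem sv_ne_zero (γ ψ : ℝ) : sv γ ψ ≠ 0 := by
  unfold sv
  split_ifs with h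
  · exact (Classical.choose_spec (exists_shortest γ ψ h)).1
  · simp

theorem sv_min (γ ψ : ℝ) (hψ : 0 < ψ) (z : ℤ × ℤ) (hz : z ≠ 0) :
    nrm γ ψ (sv γ ψ) ≤ nrm γ ψ z := by
  unfold sv
  rw [dif_pos hψ]
  exact (Classical.choose_spec (exists_shortest γ ψ hψ)).2 z hz

theorem nrm_nonneg (γ ψ : ℝ) (z : ℤ × ℤ) : 0 ≤ nrm γ ψ z :=
  le_trans (abs_nonneg _) (le_max_left _ _)

theorem nrm_pos (γ ψ : ℝ) (hψ : 0 < ψ) (z : ℤ × ℤ) (hz : z ≠ 0) : 0 < nrm γ ψ z := by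
  by_contra hn
  have h0 : nrm γ ψ z ≤ 0 := not_lt.mp hn
  obtain ⟨h1, h2⟩ := (nrm_le_iff γ ψ 0 hψ z).mp h0
  have h3 : (z.1 : ℝ) = 0 := abs_nonpos_iff.mp h1
  have h4 : yv γ z = 0 := by
    have : |yv γ z| ≤ 0 := by simpa using h2
    exact abs_nonpos_iff.mp this
  have h5 : z.1 = 0 := by exact_mod_cast h3
  have h6 : (z.2 : ℝ) = 0 := by
    unfold yv at h4
    rw [h3] at h4
    simpa using h4
  have h7 : z.2 = 0 := by exact_mod_cast h6
  exact hz (Prod.ext h5 h7)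

theorem yv_smul (γ : ℝ) (u : ℤ) (z : ℤ × ℤ) : yv γ (u • z) = (u : ℝ) * yv γ z := by
  unfold yv
  simp only [Prod.smul_fst, Prod.smul_snd, smul_eq_mul]
  push_cast
  ring

theorem yv_sub (γ : ℝ) (z w : ℤ × ℤ) : yv γ (z - w) = yv γ z - yv γ w := by
  unfold yv
  simp only [Prod.fst_sub, Prod.snd_sub]
  push_cast
  ring

/-- `nrm` is homogeneous. -/
theorem nrm_smul (γ ψ : ℝ) (hψ : 0 < ψ) (u : ℤ) (z : ℤ × ℤ) :
    nrm γ ψ (u • z) = |(u : ℝ)| * nrm γ ψ z := by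
  unfold nrm
  rw [yv_smul, abs_mul, mul_max_of_nonneg _ _ (abs_nonneg _)]
  simp only [Prod.smul_fst, smul_eq_mul]
  push_cast
  rw [abs_mul, mul_div_assoc]

theorem nrm_sub_le (γ ψ M : ℝ) (hψ : 0 < ψ) (z w : ℤ × ℤ) (hz : nrm γ ψ z ≤ M)
    (hw : nrm γ ψ w ≤ M) : nrm γ ψ (z - w) ≤ 2 * M := by
  obtain ⟨h1, h2⟩ := (nrm_le_iff γ ψ M hψ z).mp hz
  obtain ⟨h3, h4⟩ := (nrm_le_iff γ ψ M hψ w).mp hw
  apply (nrm_le_iff γ ψ (2 * M) hψ _).mpr
  constructor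
  · simp only [Prod.fst_sub]
    push_cast
    have := abs_sub ((z.1 : ℝ)) ((w.1 : ℝ))
    linarith
  · rw [yv_sub]
    have := abs_sub (yv γ z) (yv γ w)
    linarith

/-- A vector minimal for the norm is primitive. -/
theorem sv_coprime (γ ψ : ℝ) (hψ : 0 < ψ) : IsCoprime (sv γ ψ).1 (sv γ ψ).2 := by
  set v := sv γ ψ with hv
  have hv0 : v ≠ 0 := sv_ne_zero γ ψ
  set g : ℤ := ((Int.gcd v.1 v.2 : ℕ) : ℤ) with hg
  have hg0 : g ≠ 0 := by
    intro h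
    have h1 : Int.gcd v.1 v.2 = 0 := by
      rw [hg] at h
      exact_mod_cast h
    have h2 := Int.gcd_eq_zero_iff.mp h1
    exact hv0 (Prod.ext h2.1 h2.2)
  have hgpos : 0 < g := by
    have : 0 ≤ g := by rw [hg]; positivity
    omega
  obtain ⟨a, ha⟩ : g ∣ v.1 := Int.gcd_dvd_left ..
  obtain ⟨b, hb⟩ : g ∣ v.2 := Int.gcd_dvd_right ..
  have hw : (a, b) ≠ (0 : ℤ × ℤ) := by
    intro h
    have h1 : a = 0 := congrArg Prod.fst h
    have h2 : b = 0 := congrArg Prod.snd h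
    apply hv0
    apply Prod.ext
    · rw [ha, h1]; simp
    · rw [hb, h2]; simp
  have hvw : v = g • (a, b) := by
    apply Prod.ext
    · simp [ha]
    · simp [hb]
  have h1 := sv_min γ ψ hψ (a, b) hw
  rw [← hv, hvw, nrm_smul γ ψ hψ] at h1
  have hpos := nrm_pos γ ψ hψ (a, b) hw
  have hgR : (1 : ℝ) ≤ |(g : ℝ)| := by
    have : (1 : ℤ) ≤ |g| := Int.one_le_abs hg0
    exact_mod_cast this
  have hg1 : |(g : ℝ)| ≤ 1 := by
    by_contra hlt
    have hlt' := not_le.mp hlt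
    nlinarith
  have hg2 : g = 1 := by
    have : |(g : ℝ)| = 1 := le_antisymm hg1 hgR
    have h3 : |g| = 1 := by exact_mod_cast this
    rw [abs_of_pos hgpos] at h3
    exact h3
  rw [Int.isCoprime_iff_gcd_eq_one]
  have : ((Int.gcd v.1 v.2 : ℕ) : ℤ) = 1 := by rw [← hg]; exact hg2
  exact_mod_cast this

/-- The determinant of two points in terms of the real coordinates. -/
theorem det_real (γ : ℝ) (z v : ℤ × ℤ) :
    ((z.1 * v.2 - z.2 * v.1 : ℤ) : ℝ) = (z.1 : ℝ) * yv γ v - yv γ z * (v.1 : ℝ) := by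
  unfold yv
  push_cast
  ring

/-- Explicit Bezout form of divisibility by a primitive vector. -/
theorem eq_smul_of_det {v z : ℤ × ℤ} {s t : ℤ} (hst : s * v.1 + t * v.2 = 1)
    (hdet : z.1 * v.2 - z.2 * v.1 = 0) : z = (s * z.1 + t * z.2) • v := by
  have h1 : z.1 * v.2 = z.2 * v.1 := by linarith
  apply Prod.ext
  · simp only [Prod.smul_fst, smul_eq_mul]
    have : (s * z.1 + t * z.2) * v.1 = s * z.1 * v.1 + t * (z.2 * v.1) := by ring
    rw [this, ← h1]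
    have e : s * z.1 * v.1 + t * (z.1 * v.2) = z.1 * (s * v.1 + t * v.2) := by ring
    rw [e, hst, mul_one]
  · simp only [Prod.smul_snd, smul_eq_mul]
    have : (s * z.1 + t * z.2) * v.2 = s * (z.1 * v.2) + t * z.2 * v.2 := by ring
    rw [this, h1]
    have e : s * (z.2 * v.1) + t * z.2 * v.2 = z.2 * (s * v.1 + t * v.2) := by ring
    rw [e, hst, mul_one]

theorem card_Icc_floor (x : ℝ) (hx : 0 ≤ x) :
    ((Finset.Icc (-⌊x⌋) ⌊x⌋).card : ℝ) ≤ 2 * x + 1 := by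
  rw [Int.card_Icc]
  have h0 : 0 ≤ ⌊x⌋ := Int.floor_nonneg.mpr hx
  have h1 : ((⌊x⌋ + 1 - -⌊x⌋).toNat : ℤ) = 2 * ⌊x⌋ + 1 := by
    rw [Int.toNat_of_nonneg (by omega)]
    ring
  have h2 : (((⌊x⌋ + 1 - -⌊x⌋).toNat : ℕ) : ℝ) = 2 * (⌊x⌋ : ℝ) + 1 := by
    have h3 : (((⌊x⌋ + 1 - -⌊x⌋).toNat : ℕ) : ℝ) = (((⌊x⌋ + 1 - -⌊x⌋).toNat : ℤ) : ℝ) := by
      norm_cast
    rw [h3, h1]
    push_cast
    ring
  rw [h2]
  have := Int.floor_le x
  linarith

theorem mem_Icc_floor {u : ℤ} {x : ℝ} (h : |(u : ℝ)| ≤ x) : u ∈ Finset.Icc (-⌊x⌋) ⌊x⌋ := by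
  rw [abs_le] at h
  rw [Finset.mem_Icc]
  constructor
  · have : -(u : ℝ) ≤ x := by linarith [h.1]
    have h2 : -u ≤ ⌊x⌋ := Int.le_floor.mpr (by push_cast; exact this)
    omega
  · exact Int.le_floor.mpr h.2

/-- Dichotomy: points of a ball are all multiples of the shortest vector or few. -/
theorem dichotomy (γ ψ M : ℝ) (hψ : 0 < ψ) (Z : Finset (ℤ × ℤ))
    (hZ : ∀ z ∈ Z, z ≠ 0 ∧ nrm γ ψ z ≤ M) :
    (∀ z ∈ Z, ∃ u : ℤ, z = u • sv γ ψ) ∨ (Z.card : ℝ) ≤ 60 * ψ * M ^ 2 := by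
  classical
  by_cases hall : ∀ z ∈ Z, ∃ u : ℤ, z = u • sv γ ψ
  · exact Or.inl hall
  right
  push Not at hall
  obtain ⟨z₀, hz₀, hnot⟩ := hall
  set v := sv γ ψ with hv
  have hv0 : v ≠ 0 := sv_ne_zero γ ψ
  set lam := nrm γ ψ v with hlam
  have hlam0 : 0 < lam := nrm_pos γ ψ hψ v hv0
  obtain ⟨s, t, hst⟩ := sv_coprime γ ψ hψ
  rw [← hv] at hst
  set D : ℤ × ℤ → ℤ := fun z => z.1 * v.2 - z.2 * v.1 with hD
  obtain ⟨hvk, hvy⟩ := (nrm_le_iff γ ψ lam hψ v).mp le_rfl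
  have hDbound : ∀ z ∈ Z, |((D z : ℤ) : ℝ)| ≤ 4 * ψ * M * lam := by
    intro z hz
    obtain ⟨h1, h2⟩ := (nrm_le_iff γ ψ M hψ z).mp (hZ z hz).2
    have hM0 : 0 ≤ M := le_trans (abs_nonneg _) h1
    simp only [hD]
    rw [det_real γ z v]
    calc |(z.1 : ℝ) * yv γ v - yv γ z * (v.1 : ℝ)|
        ≤ |(z.1 : ℝ) * yv γ v| + |yv γ z * (v.1 : ℝ)| := abs_sub _ _
      _ = |(z.1 : ℝ)| * |yv γ v| + |yv γ z| * |(v.1 : ℝ)| := by rw [abs_mul, abs_mul]
      _ ≤ M * (2 * ψ * lam) + (2 * ψ * M) * lam := by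
          apply add_le_add
          · exact mul_le_mul h1 hvy (abs_nonneg _) hM0
          · exact mul_le_mul h2 hvk (abs_nonneg _) (by positivity)
      _ = 4 * ψ * M * lam := by ring
  have hDz₀ : D z₀ ≠ 0 := by
    intro h
    exact hnot _ (eq_smul_of_det hst h)
  have h1 : 1 ≤ 4 * ψ * M * lam := by
    have h2 := hDbound z₀ hz₀
    have h3 : (1 : ℝ) ≤ |((D z₀ : ℤ) : ℝ)| := by
      have : (1 : ℤ) ≤ |D z₀| := Int.one_le_abs hDz₀
      exact_mod_cast this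
    linarith
  have hz₀0 := hZ z₀ hz₀
  have hlamM : lam ≤ M := le_trans (sv_min γ ψ hψ z₀ hz₀0.1) hz₀0.2
  have hM0 : 0 < M := lt_of_lt_of_le hlam0 hlamM
  set X := 4 * ψ * M * lam with hX
  have hX0 : 0 ≤ X := by positivity
  set Y := 2 * M / lam with hY
  have hY0 : 0 ≤ Y := by positivity
  -- the image of `D`
  have himage : Z.image D ⊆ Finset.Icc (-⌊X⌋) ⌊X⌋ := by
    intro a ha
    obtain ⟨z, hz, rfl⟩ := Finset.mem_image.mp ha
    exact mem_Icc_floor (hDbound z hz)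
  have hcardimage : ((Z.image D).card : ℝ) ≤ 2 * X + 1 := by
    refine le_trans ?_ (card_Icc_floor X hX0)
    exact_mod_cast Finset.card_le_card himage
  -- the fibres of `D`
  set n : ℕ := (Finset.Icc (-⌊Y⌋) ⌊Y⌋).card with hn
  have hfibre : ∀ a ∈ Z.image D, (Z.filter (fun z => D z = a)).card ≤ n := by
    intro a ha
    obtain ⟨z₁, hz₁, rfl⟩ := Finset.mem_image.mp ha
    rw [hn]
    apply Finset.card_le_card_of_injOn (fun z => s * (z - z₁).1 + t * (z - z₁).2)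
    · intro z hz
      have hz' := Finset.mem_filter.mp (Finset.mem_coe.mp hz)
      have hdet : (z - z₁).1 * v.2 - (z - z₁).2 * v.1 = 0 := by
        have h2 := hz'.2
        simp only [hD] at h2
        simp only [Prod.fst_sub, Prod.snd_sub]
        linarith
      have he := eq_smul_of_det hst hdet
      have hbd := nrm_sub_le γ ψ M hψ z z₁ (hZ z hz'.1).2 (hZ z₁ hz₁).2
      rw [he, nrm_smul γ ψ hψ] at hbd
      apply Finset.mem_coe.mpr
      apply mem_Icc_floor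
      rw [hY, le_div_iff₀ hlam0]
      exact hbd
    · intro z hz w hw hzw
      have hz' := Finset.mem_filter.mp (Finset.mem_coe.mp hz)
      have hw' := Finset.mem_filter.mp (Finset.mem_coe.mp hw)
      have hdet1 : (z - z₁).1 * v.2 - (z - z₁).2 * v.1 = 0 := by
        have h2 := hz'.2
        simp only [hD] at h2
        simp only [Prod.fst_sub, Prod.snd_sub]
        linarith
      have hdet2 : (w - z₁).1 * v.2 - (w - z₁).2 * v.1 = 0 := by
        have h2 := hw'.2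
        simp only [hD] at h2
        simp only [Prod.fst_sub, Prod.snd_sub]
        linarith
      have he1 := eq_smul_of_det hst hdet1
      have he2 := eq_smul_of_det hst hdet2
      simp only at hzw
      rw [hzw, ← he2] at he1
      have : z = w := by
        have h3 := sub_left_injective he1
        exact h3
      exact this
  have hcard := Finset.card_le_mul_card_image Z n hfibre
  have hnR : (n : ℝ) ≤ 2 * Y + 1 := card_Icc_floor Y hY0
  have hcardR : (Z.card : ℝ) ≤ (n : ℝ) * ((Z.image D).card : ℝ) := by exact_mod_cast hcard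
  have hY1 : 2 * Y + 1 ≤ 5 * M / lam := by
    rw [hY]
    have : 1 ≤ M / lam := (one_le_div hlam0).mpr hlamM
    have e : 5 * M / lam = 4 * (M / lam) + M / lam := by ring
    have e2 : 2 * (2 * M / lam) = 4 * (M / lam) := by ring
    rw [e, e2]
    linarith
  have hX1 : 2 * X + 1 ≤ 3 * X := by linarith
  calc (Z.card : ℝ) ≤ (n : ℝ) * ((Z.image D).card : ℝ) := hcardR
    _ ≤ (5 * M / lam) * (3 * X) := by
        apply mul_le_mul (le_trans hnR hY1) (le_trans hcardimage hX1) (by positivity) (by positivity)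
    _ = 60 * ψ * M ^ 2 := by
        rw [hX]
        field_simp
        ring

/-- Nonzero multiples of the shortest vector in a ball. -/
theorem card_multiples (γ ψ M : ℝ) (hψ : 0 < ψ) (hM : 0 ≤ M) (Z : Finset (ℤ × ℤ))
    (hZ : ∀ z ∈ Z, z ≠ 0 ∧ nrm γ ψ z ≤ M ∧ ∃ u : ℤ, z = u • sv γ ψ) :
    (Z.card : ℝ) * nrm γ ψ (sv γ ψ) ≤ 2 * M := by
  classical
  set v := sv γ ψ with hv
  have hv0 : v ≠ 0 := sv_ne_zero γ ψ
  set lam := nrm γ ψ v with hlam
  have hlam0 : 0 < lam := nrm_pos γ ψ hψ v hv0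
  obtain ⟨s, t, hst⟩ := sv_coprime γ ψ hψ
  rw [← hv] at hst
  set Y := M / lam with hY
  have hY0 : 0 ≤ Y := by positivity
  set f : ℤ × ℤ → ℤ := fun z => s * z.1 + t * z.2 with hf
  have hspec : ∀ z ∈ Z, z = f z • v := by
    intro z hz
    obtain ⟨-, -, u, hu⟩ := hZ z hz
    have hdet : z.1 * v.2 - z.2 * v.1 = 0 := by
      rw [hu]
      simp only [Prod.smul_fst, Prod.smul_snd, smul_eq_mul]
      ring
    exact eq_smul_of_det hst hdet
  have hsub : Z.card ≤ ((Finset.Icc (-⌊Y⌋) ⌊Y⌋).erase 0).card := by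
    apply Finset.card_le_card_of_injOn f
    · intro z hz
      have hz' := Finset.mem_coe.mp hz
      have he := hspec z hz'
      obtain ⟨hz0, hzM, -⟩ := hZ z hz'
      apply Finset.mem_coe.mpr
      apply Finset.mem_erase.mpr
      constructor
      · intro h0
        rw [h0] at he
        exact hz0 (by rw [he]; simp)
      · apply mem_Icc_floor
        rw [he, nrm_smul γ ψ hψ] at hzM
        rw [hY, le_div_iff₀ hlam0]
        exact hzM
    · intro z hz w hw hzw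
      rw [hspec z (Finset.mem_coe.mp hz), hspec w (Finset.mem_coe.mp hw), hzw]
  have hzero : (0 : ℤ) ∈ Finset.Icc (-⌊Y⌋) ⌊Y⌋ := by
    have : 0 ≤ ⌊Y⌋ := Int.floor_nonneg.mpr hY0
    rw [Finset.mem_Icc]
    omega
  have hc1 : (((Finset.Icc (-⌊Y⌋) ⌊Y⌋).erase 0).card : ℝ) + 1 ≤ 2 * Y + 1 := by
    have h2 := Finset.card_erase_add_one hzero
    have h3 := card_Icc_floor Y hY0
    rw [← h2] at h3
    push_cast at h3
    exact h3
  have hZc : (Z.card : ℝ) ≤ 2 * Y := by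
    have : (Z.card : ℝ) ≤ (((Finset.Icc (-⌊Y⌋) ⌊Y⌋).erase 0).card : ℝ) := by exact_mod_cast hsub
    linarith
  calc (Z.card : ℝ) * lam ≤ 2 * Y * lam := mul_le_mul_of_nonneg_right hZc hlam0.le
    _ = 2 * M := by rw [hY]; field_simp

/-- Upper bound for the shortest vector, from the Dirichlet theorem. -/
theorem dirichlet_sv (γ ψ : ℝ) (hψ : 0 < ψ) (hψ2 : ψ ≤ 1 / 2) :
    (nrm γ ψ (sv γ ψ)) ^ 2 * ψ ≤ 2 := by
  set s := Real.sqrt (1 / (2 * ψ)) with hs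
  have h2ψ : 0 < 2 * ψ := by positivity
  have hs2 : s ^ 2 = 1 / (2 * ψ) := Real.sq_sqrt (by positivity)
  have hs1 : 1 ≤ s := by
    rw [hs]
    apply Real.one_le_sqrt.mpr
    rw [le_div_iff₀ h2ψ]
    linarith
  set n := ⌈s⌉₊ with hn
  have hns : s ≤ n := Nat.le_ceil s
  have hn1 : (n : ℝ) ≤ s + 1 := (Nat.ceil_lt_add_one (by linarith)).le
  have hnpos : 0 < n := Nat.ceil_pos.mpr (by linarith)
  obtain ⟨j, k, hk0, hkn, hjk⟩ := Real.exists_int_int_abs_mul_sub_le γ hnpos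
  set z : ℤ × ℤ := (k, -j) with hz
  have hz0 : z ≠ 0 := by
    intro h
    have : k = 0 := congrArg Prod.fst h
    omega
  have hnr : (0 : ℝ) < (n : ℝ) + 1 := by positivity
  have hkR : (0 : ℝ) < k := by exact_mod_cast hk0
  have hknR : (k : ℝ) ≤ n := by exact_mod_cast hkn
  have hzbd : nrm γ ψ z ≤ n := by
    unfold nrm
    apply max_le
    · simp only [hz]
      rw [abs_of_pos hkR]
      exact hknR
    · have e : yv γ z = (k : ℝ) * γ - j := by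
        simp only [yv, hz]
        push_cast
        ring
      rw [e, div_le_iff₀ h2ψ]
      have h3 : 1 / ((n : ℝ) + 1) ≤ (n : ℝ) * (2 * ψ) := by
        rw [div_le_iff₀ hnr]
        have h4 : 1 = s ^ 2 * (2 * ψ) := by rw [hs2]; field_simp
        have h5 : s ^ 2 ≤ (n : ℝ) * ((n : ℝ) + 1) := by nlinarith
        nlinarith
      linarith
  have hlam := sv_min γ ψ hψ z hz0
  have hlam0 := nrm_nonneg γ ψ (sv γ ψ)
  have h2s : nrm γ ψ (sv γ ψ) ≤ 2 * s := by linarith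
  have hsq : (nrm γ ψ (sv γ ψ)) ^ 2 ≤ (2 * s) ^ 2 := pow_le_pow_left₀ hlam0 h2s 2
  have e : (2 * s) ^ 2 = 4 * s ^ 2 := by ring
  rw [e, hs2] at hsq
  calc (nrm γ ψ (sv γ ψ)) ^ 2 * ψ ≤ (4 * (1 / (2 * ψ))) * ψ :=
        mul_le_mul_of_nonneg_right hsq hψ.le
    _ = 2 := by field_simp; norm_num

/-- Two shortest vectors at different parameters which are not equal up to sign are long. -/
theorem det_lower (γ ψ₁ ψ₂ : ℝ) (h₁ : 0 < ψ₁) (h₂ : 0 < ψ₂)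
    (hne : sv γ ψ₂ ≠ sv γ ψ₁) (hne' : sv γ ψ₂ ≠ -sv γ ψ₁) :
    1 ≤ 2 * nrm γ ψ₁ (sv γ ψ₁) * nrm γ ψ₂ (sv γ ψ₂) * (ψ₁ + ψ₂) := by
  set v₁ := sv γ ψ₁ with hv₁
  set v₂ := sv γ ψ₂ with hv₂
  set l₁ := nrm γ ψ₁ v₁ with hl₁
  set l₂ := nrm γ ψ₂ v₂ with hl₂
  have hc₁ := sv_coprime γ ψ₁ h₁
  have hc₂ := sv_coprime γ ψ₂ h₂
  rw [← hv₁] at hc₁
  rw [← hv₂] at hc₂
  obtain ⟨s, t, hst⟩ := hc₁
  have hdet : v₂.1 * v₁.2 - v₂.2 * v₁.1 ≠ 0 := by
    intro h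
    have he := eq_smul_of_det hst h
    set u := s * v₂.1 + t * v₂.2 with hu
    have hunit : IsUnit u := by
      obtain ⟨a, b, hab⟩ := hc₂
      apply IsUnit.of_mul_eq_one (a * v₁.1 + b * v₁.2)
      have e1 : v₂.1 = u * v₁.1 := by
        have := congrArg Prod.fst he
        simpa using this
      have e2 : v₂.2 = u * v₁.2 := by
        have := congrArg Prod.snd he
        simpa using this
      rw [e1, e2] at hab
      linarith
    rcases Int.isUnit_iff.mp hunit with h1 | h1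
    · apply hne
      rw [he, h1]
      simp
    · apply hne'
      rw [he, h1]
      simp
  obtain ⟨h1k, h1y⟩ := (nrm_le_iff γ ψ₁ l₁ h₁ v₁).mp le_rfl
  obtain ⟨h2k, h2y⟩ := (nrm_le_iff γ ψ₂ l₂ h₂ v₂).mp le_rfl
  have hl₁0 : 0 ≤ l₁ := nrm_nonneg _ _ _
  have hl₂0 : 0 ≤ l₂ := nrm_nonneg _ _ _
  have h3 : (1 : ℝ) ≤ |((v₂.1 * v₁.2 - v₂.2 * v₁.1 : ℤ) : ℝ)| := by
    have : (1 : ℤ) ≤ |v₂.1 * v₁.2 - v₂.2 * v₁.1| := Int.one_le_abs hdet
    exact_mod_cast this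
  rw [det_real γ v₂ v₁] at h3
  calc (1 : ℝ) ≤ |(v₂.1 : ℝ) * yv γ v₁ - yv γ v₂ * (v₁.1 : ℝ)| := h3
    _ ≤ |(v₂.1 : ℝ) * yv γ v₁| + |yv γ v₂ * (v₁.1 : ℝ)| := abs_sub _ _
    _ = |(v₂.1 : ℝ)| * |yv γ v₁| + |yv γ v₂| * |(v₁.1 : ℝ)| := by rw [abs_mul, abs_mul]
    _ ≤ l₂ * (2 * ψ₁ * l₁) + (2 * ψ₂ * l₂) * l₁ := by
        apply add_le_add
        · exact mul_le_mul h2k h1y (abs_nonneg _) hl₂0
        · exact mul_le_mul h2y h1k (abs_nonneg _) (by positivity)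
    _ = 2 * l₁ * l₂ * (ψ₁ + ψ₂) := by ring

end Vale.Agent.Lib.P028E
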