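import Mathlib

/-! Counting in an interval by the Moebius function. -/

namespace Vale.Agent.Lib.P028E

namespace MoebiusAux

open scoped Classical

/-- Count of `a` in an interval avoiding the residue classes given by the primes in `P`. -/
noncomputable def cnt (k m : ℤ) (P : Finset ℕ) (X : ℤ) (H : ℕ) : ℕ :=
  ((Finset.Ico X (X + H)).filter (fun a : ℤ => ∀ p ∈ P, ¬ ((p : ℤ) ∣ k * a - m))).card

/-- The Euler factor of `P`. -/
noncomputable def eul (P : Finset ℕ) : ℝ := ∏ p ∈ P, (1 - ((p : ℝ))⁻¹)

lemma eul_nonneg (P : Finset ℕ) (hP : ∀ p ∈ P, p.Prime) : 0 ≤ eul P := by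
  unfold eul
  refine Finset.prod_nonneg fun p hp => ?_
  have h1 : (1 : ℝ) ≤ p := by exact_mod_cast (hP p hp).one_lt.le
  have := inv_le_one_of_one_le₀ h1
  linarith

lemma eul_le_one (P : Finset ℕ) (hP : ∀ p ∈ P, p.Prime) : eul P ≤ 1 := by
  unfold eul
  refine Finset.prod_le_one (fun p hp => ?_) (fun p hp => ?_)
  · have h1 : (1 : ℝ) ≤ p := by exact_mod_cast (hP p hp).one_lt.le
    have := inv_le_one_of_one_le₀ h1
    linarith
  · have : (0 : ℝ) ≤ (p : ℝ)⁻¹ := by positivity
    linarith

/-- Splitting one prime off: the count with `p` removed. -/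
lemma cnt_insert (k : ℤ) (p : ℕ) (P : Finset ℕ) (hpP : p ∉ P) (hp : p.Prime)
    (hPp : ∀ r ∈ P, r.Prime) (hpk : ¬ ((p : ℤ) ∣ k)) (m X : ℤ) (H : ℕ) :
    ∃ (m' X' : ℤ) (H' : ℕ), |(H' : ℝ) - (H : ℝ) / p| ≤ 1 ∧
      (cnt k m (insert p P) X H : ℤ) = (cnt k m P X H : ℤ) - (cnt k m' P X' H' : ℤ) := by
  have hp0 : (0 : ℝ) < p := by exact_mod_cast hp.pos
  have hpz : (0 : ℤ) < p := by exact_mod_cast hp.pos
  -- the class of solutions
  have hcop : IsCoprime k (p : ℤ) := by
    have hpi : Prime (p : ℤ) := Nat.prime_iff_prime_int.mp hp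
    exact (hpi.coprime_iff_not_dvd.mpr hpk).symm
  obtain ⟨u, v, huv⟩ := hcop
  set c : ℤ := u * m with hc
  set t : ℤ := - (m * v) with ht
  have hct : k * c - m = p * t := by
    have : k * (u * m) - m = m * (u * k - 1) := by ring
    rw [hc, this, ht]
    have h2 : u * k - 1 = - (v * p) := by linarith
    rw [h2]; ring
  -- interval endpoints
  set A : ℤ := ⌈((X : ℝ) - c) / p⌉ with hA
  set B : ℤ := ⌈((X : ℝ) + H - c) / p⌉ with hB
  have hAB : A ≤ B := by
    apply Int.ceil_le_ceil
    apply div_le_div_of_nonneg_right _ hp0.le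
    have : (0 : ℝ) ≤ H := by positivity
    linarith
  set H' : ℕ := (B - A).toNat with hH'
  have hH'z : (H' : ℤ) = B - A := Int.toNat_of_nonneg (by omega)
  have hA' : A + (H' : ℤ) = B := by omega
  refine ⟨-t, A, H', ?_, ?_⟩
  · -- the length of the new interval
    have h1 : ((X : ℝ) - c) / p ≤ A := Int.le_ceil _
    have h2 : (A : ℝ) < ((X : ℝ) - c) / p + 1 := Int.ceil_lt_add_one _
    have h3 : ((X : ℝ) + H - c) / p ≤ B := Int.le_ceil _
    have h4 : (B : ℝ) < ((X : ℝ) + H - c) / p + 1 := Int.ceil_lt_add_one _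
    have h5 : ((H' : ℤ) : ℝ) = (B : ℝ) - A := by rw [hH'z]; push_cast; ring
    have h6 : ((X : ℝ) + H - c) / p = ((X : ℝ) - c) / p + (H : ℝ) / p := by
      field_simp; ring
    have h7 : (H' : ℝ) = (B : ℝ) - A := by exact_mod_cast h5
    rw [abs_le, h7]
    constructor <;> linarith
  · -- the combinatorial identity
    have key : (cnt k m P X H : ℤ) = (cnt k m (insert p P) X H : ℤ) + (cnt k (-t) P A H' : ℤ) := by
      unfold cnt
      set S := (Finset.Ico X (X + H)).filter (fun a : ℤ => ∀ r ∈ P, ¬ ((r : ℤ) ∣ k * a - m)) with hS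
      have hsplit : S.card = (S.filter (fun a : ℤ => ¬ ((p : ℤ) ∣ k * a - m))).card
          + (S.filter (fun a : ℤ => ((p : ℤ) ∣ k * a - m))).card := by
        rw [add_comm, Finset.card_filter_add_card_filter_not]
      have h1 : (Finset.Ico X (X + H)).filter (fun a : ℤ => ∀ r ∈ insert p P, ¬ ((r : ℤ) ∣ k * a - m))
          = S.filter (fun a : ℤ => ¬ ((p : ℤ) ∣ k * a - m)) := by
        ext a
        simp only [Finset.mem_filter, Finset.mem_insert, forall_eq_or_imp, hS]
        tauto
      have h2 : (S.filter (fun a : ℤ => ((p : ℤ) ∣ k * a - m))).card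
          = ((Finset.Ico A (A + H')).filter
              (fun b : ℤ => ∀ r ∈ P, ¬ ((r : ℤ) ∣ k * b - (-t)))).card := by
        symm
        apply Finset.card_bij (fun (b : ℤ) _ => c + p * b)
        · intro b hb
          simp only [Finset.mem_filter, Finset.mem_Ico] at hb
          obtain ⟨⟨hb1, hb2⟩, hb3⟩ := hb
          rw [hA'] at hb2
          have hform : k * (c + p * b) - m = p * (k * b - (-t)) := by
            have : k * (c + p * b) - m = (k * c - m) + p * (k * b) := by ring
            rw [this, hct]; ring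
          simp only [hS, Finset.mem_filter, Finset.mem_Ico]
          refine ⟨⟨⟨?_, ?_⟩, ?_⟩, ?_⟩
          · have h0 : (A : ℝ) ≤ b := by exact_mod_cast hb1
            have h00 : ((X : ℝ) - c) / p ≤ A := Int.le_ceil _
            have : ((X : ℝ) - c) / p ≤ b := le_trans h00 h0
            rw [div_le_iff₀ hp0] at this
            have h : (X : ℝ) ≤ ((c + p * b : ℤ) : ℝ) := by push_cast; linarith
            exact_mod_cast h
          · have : (b : ℝ) < ((X : ℝ) + H - c) / p := by
              apply Int.lt_ceil.mp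
              exact hb2
            rw [lt_div_iff₀ hp0] at this
            have h : (((c + p * b : ℤ)) : ℝ) < ((X + (H : ℤ) : ℤ) : ℝ) := by push_cast; linarith
            exact_mod_cast h
          · intro r hr hdvd
            rw [hform] at hdvd
            have hrp : r ≠ p := fun h => hpP (h ▸ hr)
            have hcop2 : IsCoprime (r : ℤ) (p : ℤ) := by
              have := (Nat.coprime_primes (hPp r hr) hp).mpr hrp
              exact_mod_cast Nat.isCoprime_iff_coprime.mpr this
            exact hb3 r hr (hcop2.dvd_of_dvd_mul_left hdvd)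
          · rw [hform]; exact dvd_mul_right _ _
        · intro b _ b' _ h
          have hp0' : (p : ℤ) ≠ 0 := ne_of_gt hpz
          have h' : (p : ℤ) * b = p * b' := by linarith
          exact mul_left_cancel₀ hp0' h'
        · intro a ha
          simp only [hS, Finset.mem_filter, Finset.mem_Ico] at ha
          obtain ⟨⟨⟨ha1, ha2⟩, ha3⟩, ha4⟩ := ha
          -- a is in the class of c
          have hdv : (p : ℤ) ∣ k * (a - c) := by
            have : k * (a - c) = (k * a - m) - (k * c - m) := by ring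
            rw [this, hct]
            exact dvd_sub ha4 (dvd_mul_right _ _)
          have hcop3 : IsCoprime (p : ℤ) k := by
            have hpi : Prime (p : ℤ) := Nat.prime_iff_prime_int.mp hp
            exact hpi.coprime_iff_not_dvd.mpr hpk
          have hdv2 : (p : ℤ) ∣ a - c := hcop3.dvd_of_dvd_mul_left hdv
          obtain ⟨b, hb⟩ := hdv2
          have hab : a = c + p * b := by linarith
          have hform : k * a - m = p * (k * b - (-t)) := by
            rw [hab]
            have : k * (c + p * b) - m = (k * c - m) + p * (k * b) := by ring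
            rw [this, hct]; ring
          refine ⟨b, ?_, hab.symm⟩
          simp only [Finset.mem_filter, Finset.mem_Ico]
          refine ⟨⟨?_, ?_⟩, ?_⟩
          · apply Int.ceil_le.mpr
            rw [div_le_iff₀ hp0]
            have h : (X : ℝ) ≤ (a : ℝ) := by exact_mod_cast ha1
            have h2 : (a : ℝ) = (c : ℝ) + p * b := by exact_mod_cast hab
            linarith
          · rw [hA']
            apply Int.lt_ceil.mpr
            rw [lt_div_iff₀ hp0]
            have h : (a : ℝ) < ((X + (H : ℤ) : ℤ) : ℝ) := by exact_mod_cast ha2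
            have h2 : (a : ℝ) = (c : ℝ) + p * b := by exact_mod_cast hab
            push_cast at h
            linarith
          · intro r hr hdvd
            apply ha3 r hr
            rw [hform]
            exact Dvd.dvd.mul_left hdvd _
      rw [h1, hsplit, h2]
      push_cast
      ring
    linarith

/-- The sieve estimate for a finite set of primes not dividing `k`. -/
lemma cnt_bound (k : ℤ) (P : Finset ℕ) (hP : ∀ p ∈ P, p.Prime ∧ ¬ ((p : ℤ) ∣ k)) :
    ∀ (m X : ℤ) (H : ℕ), |(cnt k m P X H : ℝ) - (H : ℝ) * eul P| ≤ (2 : ℝ) ^ P.card - 1 := by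
  induction P using Finset.induction_on with
  | empty =>
    intro m X H
    simp [cnt, eul]
  | insert p P hpP ih =>
    intro m X H
    have hP' : ∀ r ∈ P, r.Prime ∧ ¬ ((r : ℤ) ∣ k) :=
      fun r hr => hP r (Finset.mem_insert_of_mem hr)
    have hpp := hP p (Finset.mem_insert_self _ _)
    obtain ⟨m', X', H', h1, h2⟩ :=
      cnt_insert k p P hpP hpp.1 (fun r hr => (hP' r hr).1) hpp.2 m X H
    have e1 := ih hP' m X H
    have e2 := ih hP' m' X' H'
    have hcast : (cnt k m (insert p P) X H : ℝ) = (cnt k m P X H : ℝ) - (cnt k m' P X' H' : ℝ) := by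
      exact_mod_cast h2
    have heul : eul (insert p P) = (1 - ((p : ℝ))⁻¹) * eul P := by
      unfold eul
      rw [Finset.prod_insert hpP]
    have hE0 := eul_nonneg P (fun r hr => (hP' r hr).1)
    have hE1 := eul_le_one P (fun r hr => (hP' r hr).1)
    have hcard : ((2 : ℝ) ^ (insert p P).card) = 2 * (2 : ℝ) ^ P.card := by
      rw [Finset.card_insert_of_notMem hpP, pow_succ]; ring
    rw [hcast, heul, hcard]
    have h3 : |((H' : ℝ) - (H : ℝ) / p) * eul P| ≤ 1 := by
      rw [abs_mul, abs_of_nonneg hE0]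
      calc |(H' : ℝ) - (H : ℝ) / p| * eul P ≤ 1 * 1 := by
            apply mul_le_mul h1 hE1 hE0 (by norm_num)
        _ = 1 := by norm_num
    have hid : (cnt k m P X H : ℝ) - (cnt k m' P X' H' : ℝ) - (H : ℝ) * ((1 - ((p : ℝ))⁻¹) * eul P)
        = ((cnt k m P X H : ℝ) - (H : ℝ) * eul P) - ((cnt k m' P X' H' : ℝ) - (H' : ℝ) * eul P)
          - ((H' : ℝ) - (H : ℝ) / p) * eul P := by
      rw [div_eq_mul_inv]; ring
    rw [hid]
    rw [abs_le] at e1 e2 h3 ⊢
    constructor <;> linarith [e1.1, e1.2, e2.1, e2.2, h3.1, h3.2]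

end MoebiusAux

open scoped Classical in
/-- Count of `a` in an interval with `k a - m` coprime to `q`, where `k, m` are coprime. -/
theorem coprime_count (q : ℕ) (hq : 0 < q) (k m : ℤ) (hkm : IsCoprime k m) (X : ℤ) (H : ℕ) :
    (H : ℝ) * ((Nat.totient q : ℝ) / q) - ((Nat.divisors q).card : ℝ)
      ≤ (((Finset.Ico X (X + H)).filter (fun a : ℤ => IsCoprime (k * a - m) (q : ℤ))).card : ℝ) := by
  classical
  set P : Finset ℕ := q.primeFactors.filter (fun p : ℕ => ¬ ((p : ℤ) ∣ k)) with hPdef
  have hP : ∀ p ∈ P, p.Prime ∧ ¬ ((p : ℤ) ∣ k) := by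
    intro p hp
    simp only [hPdef, Finset.mem_filter, Nat.mem_primeFactors] at hp
    exact ⟨hp.1.1, hp.2⟩
  have hbound := MoebiusAux.cnt_bound k P hP m X H
  -- the sieved set is contained in the coprime set
  have hsub : MoebiusAux.cnt k m P X H
      ≤ ((Finset.Ico X (X + H)).filter (fun a : ℤ => IsCoprime (k * a - m) (q : ℤ))).card := by
    unfold MoebiusAux.cnt
    apply Finset.card_le_card
    intro a ha
    simp only [Finset.mem_filter] at ha ⊢
    refine ⟨ha.1, ?_⟩
    rw [Int.isCoprime_iff_gcd_eq_one]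
    by_contra hne
    obtain ⟨p, hp, hp1⟩ := Nat.exists_prime_and_dvd hne
    have hp2 : (p : ℤ) ∣ k * a - m := by
      have : (p : ℤ) ∣ ((Int.gcd (k * a - m) q : ℕ) : ℤ) := by exact_mod_cast hp1
      exact this.trans (Int.gcd_dvd_left ..)
    have hp3 : p ∣ q := by
      have h : (p : ℤ) ∣ (q : ℤ) := by
        have : (p : ℤ) ∣ ((Int.gcd (k * a - m) q : ℕ) : ℤ) := by exact_mod_cast hp1
        exact this.trans (Int.gcd_dvd_right ..)
      exact_mod_cast h
    by_cases hpk : (p : ℤ) ∣ k
    · -- then p divides m, contradicting coprimality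
      have hpm : (p : ℤ) ∣ m := by
        have : m = k * a - (k * a - m) := by ring
        rw [this]
        exact dvd_sub (Dvd.dvd.mul_right hpk a) hp2
      have hpi : Prime (p : ℤ) := Nat.prime_iff_prime_int.mp hp
      exact hpi.not_isUnit (hkm.isUnit_of_dvd' hpk hpm)
    · have hpP : p ∈ P := by
        simp only [hPdef, Finset.mem_filter, Nat.mem_primeFactors]
        exact ⟨⟨hp, hp3, hq.ne'⟩, hpk⟩
      exact ha.2 p hpP hp2
  -- the Euler factor
  have hprimes : ∀ p ∈ q.primeFactors, p.Prime := fun p hp => Nat.prime_of_mem_primeFactors hp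
  have hq0 : (0 : ℝ) < q := by exact_mod_cast hq
  have htot : (Nat.totient q : ℝ) / q = MoebiusAux.eul q.primeFactors := by
    have h := Nat.totient_eq_mul_prod_factors q
    have h' : (Nat.totient q : ℝ) = q * ∏ p ∈ q.primeFactors, (1 - ((p : ℝ))⁻¹) := by
      have h2 := congrArg (fun x : ℚ => (x : ℝ)) h
      simp only [Rat.cast_natCast, Rat.cast_mul, Rat.cast_prod, Rat.cast_sub, Rat.cast_one,
        Rat.cast_inv] at h2
      exact h2
    rw [h']
    unfold MoebiusAux.eul
    field_simp
  have heul : MoebiusAux.eul q.primeFactors ≤ MoebiusAux.eul P := by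
    have hsplit : MoebiusAux.eul q.primeFactors
        = MoebiusAux.eul P * MoebiusAux.eul (q.primeFactors \ P) := by
      unfold MoebiusAux.eul
      rw [mul_comm, Finset.prod_sdiff (Finset.filter_subset _ _)]
    rw [hsplit]
    have h0 := MoebiusAux.eul_nonneg P (fun p hp => (hP p hp).1)
    have h1 := MoebiusAux.eul_le_one (q.primeFactors \ P)
      (fun p hp => hprimes p (Finset.sdiff_subset hp))
    nlinarith
  -- the divisor bound
  have hdiv : (2 : ℝ) ^ P.card ≤ ((Nat.divisors q).card : ℝ) := by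
    have h1 : P.card ≤ q.primeFactors.card := Finset.card_le_card (Finset.filter_subset _ _)
    have h2 : 2 ^ q.primeFactors.card ≤ (Nat.divisors q).card := by
      rw [Nat.card_divisors hq.ne']
      calc 2 ^ q.primeFactors.card = ∏ _x ∈ q.primeFactors, 2 := by simp
        _ ≤ _ := by
          apply Finset.prod_le_prod' 
          intro p hp
          have := (Nat.Prime.factorization_pos_of_dvd (hprimes p hp) hq.ne'
            (Nat.dvd_of_mem_primeFactors hp))
          omega
    have h3 : (2 : ℕ) ^ P.card ≤ (Nat.divisors q).card :=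
      le_trans (Nat.pow_le_pow_right (by norm_num) h1) h2
    exact_mod_cast h3
  have hH : (0 : ℝ) ≤ H := by positivity
  have hmain : (H : ℝ) * ((Nat.totient q : ℝ) / q) ≤ (H : ℝ) * MoebiusAux.eul P := by
    rw [htot]
    exact mul_le_mul_of_nonneg_left heul hH
  have hb2 := (abs_le.mp hbound).1
  have hsub' : (MoebiusAux.cnt k m P X H : ℝ)
      ≤ (((Finset.Ico X (X + H)).filter (fun a : ℤ => IsCoprime (k * a - m) (q : ℤ))).card : ℝ) := by
    exact_mod_cast hsub
  linarith

end Vale.Agent.Lib.P028E
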