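import Vale.Agent.Lib.P028.Final
import Vale.Agent.Lib.P028E.Lattice

/-! Geometry of a pair of moduli. For moduli `q, r` with gcd `d`, `q' = q/d`, `r' = r/d`, two arcs
meet only if `r' a - q' b + (r' - q') γ` is small. If the bound is below one half then the integer
`m = r' a - q' b` is determined and the overlap of the two arc sets lies in one arc set of modulus `d`.
The last two lemmas are the divisibility facts behind the thinning. -/

open MeasureTheory Set
open Vale.Agent.Lib.P028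

namespace Vale.Agent.Lib.P028E

/-- `q / gcd (q, r)`. -/
def qp (q r : ℕ) : ℕ := q / Nat.gcd q r
/-- `r / gcd (q, r)`. -/
def rp (q r : ℕ) : ℕ := r / Nat.gcd q r
/-- `r' - q'`. -/
def pk (q r : ℕ) : ℤ := (rp q r : ℤ) - (qp q r : ℤ)
/-- The point `(k, m)` attached to a pair: `k = r' - q'` and `m` the integer nearest to `-k γ`. -/
noncomputable def pz (γ : ℝ) (q r : ℕ) : ℤ × ℤ := (pk q r, round (-(pk q r : ℝ) * γ))
/-- The bound `t = r' a + q' b`. -/
noncomputable def tt (q r : ℕ) (a b : ℝ) : ℝ := (rp q r : ℝ) * a + (qp q r : ℝ) * b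

theorem gcd_pos_left {q : ℕ} (r : ℕ) (hq : 0 < q) : 0 < Nat.gcd q r := Nat.gcd_pos_of_pos_left r hq

theorem nat_q_eq (q r : ℕ) : q = Nat.gcd q r * qp q r :=
  (Nat.mul_div_cancel' (Nat.gcd_dvd_left q r)).symm

theorem nat_r_eq (q r : ℕ) : r = Nat.gcd q r * rp q r :=
  (Nat.mul_div_cancel' (Nat.gcd_dvd_right q r)).symm

theorem real_q_eq (q r : ℕ) : (q : ℝ) = (Nat.gcd q r : ℝ) * (qp q r : ℝ) := by
  exact_mod_cast nat_q_eq q r

theorem real_r_eq (q r : ℕ) : (r : ℝ) = (Nat.gcd q r : ℝ) * (rp q r : ℝ) := by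
  exact_mod_cast nat_r_eq q r

theorem qp_pos {q : ℕ} (r : ℕ) (hq : 0 < q) : 0 < qp q r :=
  Nat.div_pos (Nat.le_of_dvd hq (Nat.gcd_dvd_left q r)) (gcd_pos_left r hq)

theorem rp_pos {q r : ℕ} (hq : 0 < q) (hr : 0 < r) : 0 < rp q r :=
  Nat.div_pos (Nat.le_of_dvd hr (Nat.gcd_dvd_right q r)) (gcd_pos_left r hq)

theorem coprime_qp_rp {q : ℕ} (r : ℕ) (hq : 0 < q) : Nat.Coprime (qp q r) (rp q r) :=
  Nat.coprime_div_gcd_div_gcd (gcd_pos_left r hq)

theorem isCoprime_qp_rp {q : ℕ} (r : ℕ) (hq : 0 < q) : IsCoprime (qp q r : ℤ) (rp q r : ℤ) :=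
  Nat.isCoprime_iff_coprime.mpr (coprime_qp_rp r hq)

/-- Two arcs meeting: the integer `r' a - q' b` is the second coordinate of `pz`, and the
coordinate `yv` is below the bound `tt`. -/
theorem pair_round {γ : ℝ} {q r : ℕ} (hq : 0 < q) (hr : 0 < r) {s t x : ℝ} {a b : ℤ}
    (h1 : |(q : ℝ) * x - a - γ| < s) (h2 : |(r : ℝ) * x - b - γ| < t)
    (ht : tt q r s t ≤ 1 / 2) :
    (rp q r : ℤ) * a - (qp q r : ℤ) * b = (pz γ q r).2 ∧ |yv γ (pz γ q r)| < tt q r s t := by
  have hq' := real_q_eq q r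
  have hr' := real_r_eq q r
  have hrp : (0 : ℝ) < (rp q r : ℝ) := by exact_mod_cast rp_pos hq hr
  have hqp : (0 : ℝ) < (qp q r : ℝ) := by exact_mod_cast qp_pos r hq
  have key : |((rp q r : ℝ) * a - (qp q r : ℝ) * b) + ((rp q r : ℝ) - (qp q r : ℝ)) * γ| < tt q r s t := by
    have e : ((rp q r : ℝ) * a - (qp q r : ℝ) * b) + ((rp q r : ℝ) - (qp q r : ℝ)) * γ =
        -((rp q r : ℝ) * ((q : ℝ) * x - a - γ) - (qp q r : ℝ) * ((r : ℝ) * x - b - γ)) := by
      rw [hq', hr']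
      ring
    rw [e, abs_neg]
    have h3 : |(rp q r : ℝ) * ((q : ℝ) * x - a - γ) - (qp q r : ℝ) * ((r : ℝ) * x - b - γ)| ≤
        |(rp q r : ℝ) * ((q : ℝ) * x - a - γ)| + |(qp q r : ℝ) * ((r : ℝ) * x - b - γ)| :=
      abs_sub_le _ 0 _ |>.trans (by simp)
    rw [abs_mul, abs_mul, abs_of_pos hrp, abs_of_pos hqp] at h3
    have h4 := mul_lt_mul_of_pos_left h1 hrp
    have h5 := mul_lt_mul_of_pos_left h2 hqp
    unfold tt
    linarith
  have hround : round (-(pk q r : ℝ) * γ) = (rp q r : ℤ) * a - (qp q r : ℤ) * b := by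
    rw [round_eq, Int.floor_eq_iff]
    have hk := abs_lt.mp (lt_of_lt_of_le key ht)
    simp only [pk]
    push_cast
    constructor <;> linarith [hk.1, hk.2]
  refine ⟨hround.symm, ?_⟩
  have e2 : yv γ (pz γ q r) = ((rp q r : ℝ) * a - (qp q r : ℝ) * b) + ((rp q r : ℝ) - (qp q r : ℝ)) * γ := by
    have h2' : (pz γ q r).2 = (rp q r : ℤ) * a - (qp q r : ℤ) * b := hround
    have h1' : (pz γ q r).1 = pk q r := rfl
    unfold yv
    rw [h1', h2']
    unfold pk
    push_cast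
    ring
  rw [e2]
  exact key

theorem integrable_ind_mul (A B : Set ℝ) (hA : MeasurableSet A) (hB : MeasurableSet B) (a b : ℝ) :
    IntervalIntegrable (fun x => ind A x * ind B x) volume a b := by
  refine intervalIntegrable_of_bdd ((measurable_ind hA).mul (measurable_ind hB)) 1 (fun x => ?_) a b
  show |ind A x * ind B x| ≤ 1
  rw [abs_of_nonneg (mul_nonneg (ind_nonneg _ _) (ind_nonneg _ _))]
  exact mul_le_one₀ (ind_le_one _ _) (ind_nonneg _ _) (ind_le_one _ _)

theorem integrable_ind (A : Set ℝ) (hA : MeasurableSet A) (a b : ℝ) :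
    IntervalIntegrable (ind A) volume a b := by
  refine intervalIntegrable_of_bdd (measurable_ind hA) 1 (fun x => ?_) a b
  rw [abs_of_nonneg (ind_nonneg _ _)]
  exact ind_le_one _ _

/-- Monotonicity: the overlap of two sets is at most the measure of a set containing the intersection. -/
theorem integral_mul_le_of_subset {A B S : Set ℝ} (hA : MeasurableSet A) (hB : MeasurableSet B)
    (hS : MeasurableSet S) (h : ∀ x, x ∈ A → x ∈ B → x ∈ S) :
    ∫ x in (0 : ℝ)..1, ind A x * ind B x ≤ ∫ x in (0 : ℝ)..1, ind S x := by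
  refine intervalIntegral.integral_mono_on zero_le_one (integrable_ind_mul A B hA hB 0 1)
    (integrable_ind S hS 0 1) (fun x _ => ?_)
  by_cases hxA : x ∈ A
  · by_cases hxB : x ∈ B
    · have hxS := h x hxA hxB
      simp [ind, hxA, hxB, hxS]
    · simp only [ind, Set.indicator, hxB, if_false, mul_zero]
      exact ind_nonneg S x
  · simp only [ind, Set.indicator, hxA, if_false, zero_mul]
    exact ind_nonneg S x

/-- Two witnesses with the same integer `m`: the point lies in the arc of modulus `d`. -/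
theorem mem_arc_of_witness {γ : ℝ} {q r : ℕ} (hq : 0 < q) (hr : 0 < r) {s t x : ℝ} {a b a0 b0 : ℤ}
    (h1 : |(q : ℝ) * x - a - γ| < s) (h2 : |(r : ℝ) * x - b - γ| < t)
    (hm : (rp q r : ℤ) * a - (qp q r : ℤ) * b = (rp q r : ℤ) * a0 - (qp q r : ℤ) * b0) :
    x ∈ arcSet (Nat.gcd q r) ((a0 + γ) / (qp q r : ℝ)) (s / (qp q r : ℝ)) ∧
    x ∈ arcSet (Nat.gcd q r) ((b0 + γ) / (rp q r : ℝ)) (t / (rp q r : ℝ)) := by
  have hrp : (0 : ℝ) < (rp q r : ℝ) := by exact_mod_cast rp_pos hq hr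
  have hqp : (0 : ℝ) < (qp q r : ℝ) := by exact_mod_cast qp_pos r hq
  have hqpZ : (qp q r : ℤ) ≠ 0 := by
    have := qp_pos r hq
    exact_mod_cast this.ne'
  have e : (qp q r : ℤ) * (b - b0) = (a - a0) * (rp q r : ℤ) := by linarith
  have hdvd : (qp q r : ℤ) ∣ a - a0 :=
    (isCoprime_qp_rp r hq).dvd_of_dvd_mul_right ⟨b - b0, e.symm⟩
  obtain ⟨n, hn⟩ := hdvd
  have hb : b - b0 = (rp q r : ℤ) * n := by
    apply mul_left_cancel₀ hqpZ
    rw [e, hn]
    ring
  have ha' : (a : ℝ) = a0 + (qp q r : ℝ) * n := by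
    have : a = a0 + (qp q r : ℤ) * n := by linarith
    rw [this]; push_cast; ring
  have hb' : (b : ℝ) = b0 + (rp q r : ℝ) * n := by
    have : b = b0 + (rp q r : ℤ) * n := by linarith
    rw [this]; push_cast; ring
  have hq' := real_q_eq q r
  have hr' := real_r_eq q r
  constructor
  · refine ⟨n, ?_⟩
    have e1 : (Nat.gcd q r : ℝ) * x - n - (a0 + γ) / (qp q r : ℝ) =
        ((q : ℝ) * x - a - γ) / (qp q r : ℝ) := by
      rw [ha', hq']
      field_simp
      ring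
    rw [e1, abs_div, abs_of_pos hqp]
    exact div_lt_div_of_pos_right h1 hqp
  · refine ⟨n, ?_⟩
    have e1 : (Nat.gcd q r : ℝ) * x - n - (b0 + γ) / (rp q r : ℝ) =
        ((r : ℝ) * x - b - γ) / (rp q r : ℝ) := by
      rw [hb', hr']
      field_simp
      ring
    rw [e1, abs_div, abs_of_pos hrp]
    exact div_lt_div_of_pos_right h2 hrp

/-- The overlap bound when `t ≤ 1/2`. -/
theorem overlap_le {γ : ℝ} {q r : ℕ} (hq : 0 < q) (hr : 0 < r) {s t : ℝ}
    (hs0 : 0 ≤ s) (hs1 : s ≤ 1 / 2) (ht0 : 0 ≤ t) (ht1 : t ≤ 1 / 2)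
    (htt : tt q r s t ≤ 1 / 2) :
    ∫ x in (0 : ℝ)..1, ind (arcSet q γ s) x * ind (arcSet r γ t) x
      ≤ 2 * (Nat.gcd q r : ℝ) * min (s / q) (t / r) := by
  have hqR : (0 : ℝ) < (q : ℝ) := by exact_mod_cast hq
  have hrR : (0 : ℝ) < (r : ℝ) := by exact_mod_cast hr
  have hdN := gcd_pos_left r hq
  have hd : (0 : ℝ) < (Nat.gcd q r : ℝ) := by exact_mod_cast hdN
  have hrp1 : (1 : ℝ) ≤ (rp q r : ℝ) := by exact_mod_cast rp_pos hq hr
  have hqp1 : (1 : ℝ) ≤ (qp q r : ℝ) := by exact_mod_cast qp_pos r hq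
  have hrp : (0 : ℝ) < (rp q r : ℝ) := by linarith
  have hqp : (0 : ℝ) < (qp q r : ℝ) := by linarith
  have hmA := measurableSet_arcSet q γ s
  have hmB := measurableSet_arcSet r γ t
  by_cases hne : ∃ x0, x0 ∈ arcSet q γ s ∧ x0 ∈ arcSet r γ t
  · obtain ⟨x0, ⟨a0, ha0⟩, ⟨b0, hb0⟩⟩ := hne
    have hm0 := (pair_round hq hr ha0 hb0 htt).1
    have hmem : ∀ x, x ∈ arcSet q γ s → x ∈ arcSet r γ t →
        x ∈ arcSet (Nat.gcd q r) ((a0 + γ) / (qp q r : ℝ)) (s / (qp q r : ℝ)) ∧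
        x ∈ arcSet (Nat.gcd q r) ((b0 + γ) / (rp q r : ℝ)) (t / (rp q r : ℝ)) := by
      rintro x ⟨a, ha⟩ ⟨b, hb⟩
      have hm := (pair_round hq hr ha hb htt).1
      exact mem_arc_of_witness hq hr ha hb (hm.trans hm0.symm)
    have h1 := integral_mul_le_of_subset hmA hmB (measurableSet_arcSet _ _ _)
      (fun x hx hy => (hmem x hx hy).1)
    have h2 := integral_mul_le_of_subset hmA hmB (measurableSet_arcSet _ _ _)
      (fun x hx hy => (hmem x hx hy).2)
    rw [integral_ind_arcSet _ hdN _ _ (div_nonneg hs0 hqp.le)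
      ((div_le_self hs0 hqp1).trans hs1)] at h1
    rw [integral_ind_arcSet _ hdN _ _ (div_nonneg ht0 hrp.le)
      ((div_le_self ht0 hrp1).trans ht1)] at h2
    have e1 : 2 * (s / (qp q r : ℝ)) = 2 * (Nat.gcd q r : ℝ) * (s / q) := by
      rw [real_q_eq q r]
      field_simp
    have e2 : 2 * (t / (rp q r : ℝ)) = 2 * (Nat.gcd q r : ℝ) * (t / r) := by
      rw [real_r_eq q r]
      field_simp
    rcases min_choice (s / (q : ℝ)) (t / (r : ℝ)) with h | h
    · rw [h, ← e1]; exact h1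
    · rw [h, ← e2]; exact h2
  · have hzero : ∀ x, ind (arcSet q γ s) x * ind (arcSet r γ t) x = 0 := by
      intro x
      by_cases hx : x ∈ arcSet q γ s
      · have hy : x ∉ arcSet r γ t := fun hy => hne ⟨x, hx, hy⟩
        simp [ind, hy]
      · simp [ind, hx]
    simp only [hzero, intervalIntegral.integral_zero]
    have : 0 ≤ min (s / (q : ℝ)) (t / (r : ℝ)) := le_min (div_nonneg hs0 hqR.le) (div_nonneg ht0 hrR.le)
    positivity

/-- The overlap bound when `t ≥ 1/2`. -/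
theorem typeI_le {γ : ℝ} {q r : ℕ} (hq : 0 < q) (hr : 0 < r) {s t : ℝ}
    (hs0 : 0 ≤ s) (hs1 : s ≤ 1 / 2) (ht0 : 0 ≤ t) (ht1 : t ≤ 1 / 2)
    (htt : 1 / 2 ≤ tt q r s t) :
    ∫ x in (0 : ℝ)..1, ind (arcSet q γ s) x * ind (arcSet r γ t) x ≤ 12 * s * t := by
  have hrp1 : (1 : ℝ) ≤ (rp q r : ℝ) := by exact_mod_cast rp_pos hq hr
  have hqp1 : (1 : ℝ) ≤ (qp q r : ℝ) := by exact_mod_cast qp_pos r hq
  have hrp : (0 : ℝ) < (rp q r : ℝ) := by linarith
  have hqp : (0 : ℝ) < (qp q r : ℝ) := by linarith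
  have hd : (0 : ℝ) < (Nat.gcd q r : ℝ) := by exact_mod_cast gcd_pos_left r hq
  have h1 := integral_ind_mul_le q r hq hr γ s γ t hs0 ht0 ht1
  have h2 := integral_ind_mul_le r q hr hq γ t γ s ht0 hs0 hs1
  simp only [mul_comm (ind (arcSet r γ t) _)] at h2
  rw [Nat.gcd_comm r q] at h2
  have e1 : (Nat.gcd q r : ℝ) / r = 1 / (rp q r : ℝ) := by
    rw [real_r_eq q r]
    field_simp
  have e2 : (Nat.gcd q r : ℝ) / q = 1 / (qp q r : ℝ) := by
    rw [real_q_eq q r]
    field_simp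
  rw [e1] at h1
  rw [e2] at h2
  unfold tt at htt
  by_cases hc : 1 / 4 ≤ (rp q r : ℝ) * s
  · have h3 : 1 / (rp q r : ℝ) ≤ 4 * s := by
      rw [div_le_iff₀ hrp]
      linarith
    have h4 : 2 * t * (2 * s + 1 / (rp q r : ℝ)) ≤ 2 * t * (2 * s + 4 * s) :=
      mul_le_mul_of_nonneg_left (by linarith) (by positivity)
    linarith
  · have hc' : 1 / 4 ≤ (qp q r : ℝ) * t := by
      push Not at hc
      linarith
    have h3 : 1 / (qp q r : ℝ) ≤ 4 * t := by
      rw [div_le_iff₀ hqp]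
      linarith
    have h4 : 2 * s * (2 * t + 1 / (qp q r : ℝ)) ≤ 2 * s * (2 * t + 4 * t) :=
      mul_le_mul_of_nonneg_left (by linarith) (by positivity)
    linarith

/-- If the point of the pair is a multiple of `v`, then `q'` divides `v.1 a - v.2`. -/
theorem kill_left {γ : ℝ} {q r : ℕ} (hq : 0 < q) (hr : 0 < r) {a b : ℤ} {v : ℤ × ℤ} {u : ℤ}
    (hm : (rp q r : ℤ) * a - (qp q r : ℤ) * b = (pz γ q r).2) (hz : pz γ q r = u • v) :
    (qp q r : ℤ) ∣ v.1 * a - v.2 := by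
  have hz1 : pk q r = u * v.1 := by
    have := congrArg Prod.fst hz
    simpa [pz] using this
  have hz2 : (pz γ q r).2 = u * v.2 := by
    have := congrArg Prod.snd hz
    simpa using this
  have hcop : IsCoprime (qp q r : ℤ) u := by
    have h0 : IsCoprime (qp q r : ℤ) (pk q r) := by
      have := (isCoprime_qp_rp r hq)
      unfold pk
      have e : (rp q r : ℤ) - (qp q r : ℤ) = (rp q r : ℤ) + (qp q r : ℤ) * (-1) := by ring
      rw [e]
      exact this.add_mul_left_right (-1)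
    exact h0.of_isCoprime_of_dvd_right ⟨v.1, hz1⟩
  have hd : (qp q r : ℤ) ∣ u * (v.1 * a - v.2) := by
    refine ⟨b - a, ?_⟩
    have : u * (v.1 * a - v.2) = pk q r * a - (pz γ q r).2 := by
      rw [hz1, hz2]; ring
    rw [this, ← hm]
    unfold pk
    ring
  exact hcop.dvd_of_dvd_mul_left hd

/-- If the point of the pair is a multiple of `v`, then `r'` divides `v.1 b - v.2`. -/
theorem kill_right {γ : ℝ} {q r : ℕ} (hq : 0 < q) (hr : 0 < r) {a b : ℤ} {v : ℤ × ℤ} {u : ℤ}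
    (hm : (rp q r : ℤ) * a - (qp q r : ℤ) * b = (pz γ q r).2) (hz : pz γ q r = u • v) :
    (rp q r : ℤ) ∣ v.1 * b - v.2 := by
  have hz1 : pk q r = u * v.1 := by
    have := congrArg Prod.fst hz
    simpa [pz] using this
  have hz2 : (pz γ q r).2 = u * v.2 := by
    have := congrArg Prod.snd hz
    simpa using this
  have hcop : IsCoprime (rp q r : ℤ) u := by
    have h0 : IsCoprime (rp q r : ℤ) (pk q r) := by
      have := (isCoprime_qp_rp r hq).symm
      unfold pk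
      have e : (rp q r : ℤ) - (qp q r : ℤ) = -(qp q r : ℤ) + (rp q r : ℤ) * 1 := by ring
      rw [e]
      exact this.neg_right.add_mul_left_right 1
    exact h0.of_isCoprime_of_dvd_right ⟨v.1, hz1⟩
  have hd : (rp q r : ℤ) ∣ u * (v.1 * b - v.2) := by
    refine ⟨b - a, ?_⟩
    have : u * (v.1 * b - v.2) = pk q r * b - (pz γ q r).2 := by
      rw [hz1, hz2]; ring
    rw [this, ← hm]
    unfold pk
    ring
  exact hcop.dvd_of_dvd_mul_left hd

/-- Injectivity of the point in `r`, for fixed `q` and fixed gcd. -/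
theorem pz_inj {γ : ℝ} {q r r₁ : ℕ} (hq : 0 < q) (hr : 0 < r) (hr₁ : 0 < r₁)
    (hd : Nat.gcd q r = Nat.gcd q r₁) (h : pz γ q r = pz γ q r₁) : r = r₁ := by
  have h1 : pk q r = pk q r₁ := congrArg Prod.fst h
  have hq' : qp q r = qp q r₁ := by simp only [qp, hd]
  have hrp : rp q r = rp q r₁ := by
    unfold pk at h1
    rw [hq'] at h1
    have : (rp q r : ℤ) = (rp q r₁ : ℤ) := by linarith
    exact_mod_cast this
  rw [nat_r_eq q r, nat_r_eq q r₁, hd, hrp]

/-- The point is nonzero when `q < r`; the first coordinate is positive and at most `r'`. -/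
theorem pk_bounds {q r : ℕ} (hq : 0 < q) (hqr : q < r) :
    0 < pk q r ∧ pk q r ≤ (rp q r : ℤ) := by
  have hd := gcd_pos_left r hq
  have h1 : qp q r < rp q r := by
    have h2 : Nat.gcd q r * qp q r < Nat.gcd q r * rp q r := by
      rw [← nat_q_eq, ← nat_r_eq]
      exact hqr
    exact Nat.lt_of_mul_lt_mul_left h2
  unfold pk
  constructor <;> omega

end Vale.Agent.Lib.P028E
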