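import Vale.Agent.Lib.P028E.Count

/-! The second moment on a block. -/

open MeasureTheory Set
open Vale.Agent.Lib.P028

namespace Vale.Agent.Lib.P028E

theorem Ovl_comm (E : ℕ → Set ℝ) (q r : ℕ) : Ovl E q r = Ovl E r q := by
  unfold Ovl
  congr 1
  funext x
  ring

theorem BlockOK.psi_le_half {ψ : ℕ → ℝ} {B : Finset ℕ} (hB : BlockOK ψ B) {q : ℕ} (hq : q ∈ B) :
    ψ q ≤ 1 / 2 := by
  have h2 : (2 : ℝ) ≤ q := by exact_mod_cast hB.two_le q hq
  have h1 := hB.psi_le q hq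
  have h0 := hB.psi_pos q hq
  nlinarith

theorem BlockOK.q_pos {ψ : ℕ → ℝ} {B : Finset ℕ} (hB : BlockOK ψ B) {q : ℕ} (hq : q ∈ B) :
    0 < q := by
  have := hB.two_le q hq
  omega

/-- The diagonal term. -/
theorem Ovl_self_le (γ : ℝ) (ψ : ℕ → ℝ) (B : Finset ℕ) (hB : BlockOK ψ B) (E : ℕ → Set ℝ)
    (hopen : ∀ q, IsOpen (E q)) (hE : ∀ q, E q ⊆ arcSet q γ (ψ q)) {q : ℕ} (hq : q ∈ B) :
    Ovl E q q ≤ 2 * ψ q := by
  refine le_trans (Ovl_le γ ψ E hopen hE q q) ?_
  have e : (fun x => ind (arcSet q γ (ψ q)) x * ind (arcSet q γ (ψ q)) x)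
      = ind (arcSet q γ (ψ q)) := by
    funext x
    unfold ind
    by_cases hx : x ∈ arcSet q γ (ψ q)
    · simp [Set.indicator_of_mem hx]
    · simp [Set.indicator_of_notMem hx]
  rw [e, integral_ind_arcSet q (hB.q_pos hq) γ (ψ q) (hB.psi_pos q hq).le (hB.psi_le_half hq)]

/-- Sum over an ordered square of a symmetric kernel. -/
theorem sum_square_symm (B : Finset ℕ) (f : ℕ → ℕ → ℝ) (hf : ∀ q r, f q r = f r q) :
    ∑ q ∈ B, ∑ r ∈ B, f q r
      = ∑ q ∈ B, f q q + 2 * ∑ q ∈ B, ∑ r ∈ B.filter (fun r => q < r), f q r := by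
  classical
  have hsplit : ∀ q ∈ B, ∑ r ∈ B, f q r
      = (if q ∈ B then f q q else 0) + ∑ r ∈ B.filter (fun r => q < r), f q r
        + ∑ r ∈ B.filter (fun r => r < q), f q r := by
    intro q hq
    rw [if_pos hq]
    have h1 : B = insert q ((B.filter (fun r => q < r)) ∪ (B.filter (fun r => r < q))) := by
      ext r
      simp only [Finset.mem_insert, Finset.mem_union, Finset.mem_filter]
      constructor
      · intro hr
        rcases lt_trichotomy q r with h | h | h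
        · exact Or.inr (Or.inl ⟨hr, h⟩)
        · exact Or.inl h.symm
        · exact Or.inr (Or.inr ⟨hr, h⟩)
      · rintro (h | ⟨h, -⟩ | ⟨h, -⟩)
        · rw [h]; exact hq
        · exact h
        · exact h
    have hd : Disjoint (B.filter (fun r => q < r)) (B.filter (fun r => r < q)) := by
      rw [Finset.disjoint_left]
      intro r hr hr'
      have h3 := (Finset.mem_filter.mp hr).2
      have h4 := (Finset.mem_filter.mp hr').2
      omega
    have hnm : q ∉ (B.filter (fun r => q < r)) ∪ (B.filter (fun r => r < q)) := by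
      simp
    conv_lhs => rw [h1]
    rw [Finset.sum_insert hnm, Finset.sum_union hd]
    ring
  have hswap : ∑ q ∈ B, ∑ r ∈ B.filter (fun r => r < q), f q r
      = ∑ q ∈ B, ∑ r ∈ B.filter (fun r => q < r), f q r := by
    simp only [Finset.sum_filter]
    rw [Finset.sum_comm]
    apply Finset.sum_congr rfl
    intro q _
    apply Finset.sum_congr rfl
    intro r _
    rw [hf q r]
  calc ∑ q ∈ B, ∑ r ∈ B, f q r
      = ∑ q ∈ B, ((if q ∈ B then f q q else 0) + ∑ r ∈ B.filter (fun r => q < r), f q r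
        + ∑ r ∈ B.filter (fun r => r < q), f q r) := Finset.sum_congr rfl hsplit
    _ = ∑ q ∈ B, f q q + 2 * ∑ q ∈ B, ∑ r ∈ B.filter (fun r => q < r), f q r := by
        rw [Finset.sum_add_distrib, Finset.sum_add_distrib, hswap]
        have : ∑ q ∈ B, (if q ∈ B then f q q else 0) = ∑ q ∈ B, f q q :=
          Finset.sum_congr rfl (fun q hq => by rw [if_pos hq])
        rw [this]
        ring

open scoped Classical in
/-- The second moment on a block, for a family with an exceptional relation `Exc`. -/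
theorem second_moment (γ : ℝ) (ψ : ℕ → ℝ) (B : Finset ℕ) (hB : BlockOK ψ B) (E : ℕ → Set ℝ)
    (hopen : ∀ q, IsOpen (E q)) (hE : ∀ q, E q ⊆ arcSet q γ (ψ q))
    (Exc : ℕ → ℕ → Prop) (Lam : ℕ → ℝ) (hLam : ∀ i, 0 < Lam i)
    (hN : ∀ q ∈ B, ∀ r ∈ B, q < r → tt q r (ψ q) (ψ r) < 1 / 2 → (E q ∩ E r).Nonempty → ¬ Exc q r →
        ψ r / r ≤ ψ q / q → ∀ u : ℤ,
        pz γ q r = u • sv γ (ψ q) → Lam (lev q) ≤ nrm γ (ψ q) (sv γ (ψ q)))
    (hT : ∀ q ∈ B, ∀ r ∈ B, q < r → tt q r (ψ q) (ψ r) < 1 / 2 → (E q ∩ E r).Nonempty → ¬ Exc q r →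
        ψ q / q < ψ r / r → ∀ u : ℤ,
        pz γ q r = u • sv γ (pstar (lev q) (lev r) (ell ((r : ℝ) * ψ r))) →
        Lam (lev q) ≤ nrm γ (pstar (lev q) (lev r) (ell ((r : ℝ) * ψ r)))
          (sv γ (pstar (lev q) (lev r) (ell ((r : ℝ) * ψ r))))) :
    ∑ q ∈ B, ∑ r ∈ B, Ovl E q r
      ≤ 2 * (∑ q ∈ B, ψ q) + 24 * (∑ q ∈ B, ψ q) ^ 2
        + 2 * (16100000 * (∑ q ∈ B, ψ q) + 256000 * ∑ i ∈ B.image lev, ((i : ℝ) + 1) / Lam i)
        + 2 * ∑ q ∈ B, ∑ r ∈ B.filter (fun r => q < r ∧ tt q r (ψ q) (ψ r) < 1 / 2 ∧ Exc q r),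
            Ovl E q r := by
  set Good : ℕ → ℕ → Prop :=
    fun q r => tt q r (ψ q) (ψ r) < 1 / 2 ∧ (E q ∩ E r).Nonempty ∧ ¬ Exc q r with hGood
  have hGood' : ∀ q r, Good q r → tt q r (ψ q) (ψ r) < 1 / 2 ∧ (E q ∩ E r).Nonempty :=
    fun q r h => ⟨h.1, h.2.1⟩
  have hS := hS_of_lines γ ψ B hB E hopen hE Good Lam hLam hGood'
    (fun q hq r hr hqr hg hc u hz => hN q hq r hr hqr hg.1 hg.2.1 hg.2.2 hc u hz)
    (fun q hq r hr hqr hg hc u hz => hT q hq r hr hqr hg.1 hg.2.1 hg.2.2 hc u hz)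
  have hO : ∀ q ∈ B, ∀ r ∈ B, q < r → Good q r →
      Ovl E q r ≤ 2 * (Nat.gcd q r : ℝ) * min (ψ q / q) (ψ r / r) := by
    intro q hq r hr _ hg
    refine le_trans (Ovl_le γ ψ E hopen hE q r) ?_
    exact overlap_le (hB.q_pos hq) (hB.q_pos hr) (hB.psi_pos q hq).le (hB.psi_le_half hq)
      (hB.psi_pos r hr).le (hB.psi_le_half hr) hg.1.le
  have hmain := schur_main ψ B hB (Ovl E) (Ovl_nonneg E) Good Lam hLam hO hS
  -- the pairs `q < r`
  have hpair : ∀ q ∈ B, ∀ r ∈ B, q < r →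
      Ovl E q r ≤ 12 * (ψ q * ψ r)
        + (if Good q r then Ovl E q r else 0)
        + (if tt q r (ψ q) (ψ r) < 1 / 2 ∧ Exc q r then Ovl E q r else 0) := by
    intro q hq r hr _
    have h0 := Ovl_nonneg E q r
    have hpp : 0 ≤ ψ q * ψ r := (mul_pos (hB.psi_pos q hq) (hB.psi_pos r hr)).le
    have hif1 : 0 ≤ (if Good q r then Ovl E q r else 0) := by split_ifs <;> simp [h0]
    have hif2 : 0 ≤ (if tt q r (ψ q) (ψ r) < 1 / 2 ∧ Exc q r then Ovl E q r else 0) := by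
      split_ifs <;> simp [h0]
    by_cases ht : tt q r (ψ q) (ψ r) < 1 / 2
    · by_cases hne : (E q ∩ E r).Nonempty
      · by_cases hex : Exc q r
        · rw [if_pos (show tt q r (ψ q) (ψ r) < 1 / 2 ∧ Exc q r from ⟨ht, hex⟩)]
          linarith
        · rw [if_pos (show Good q r from ⟨ht, hne, hex⟩)]
          linarith
      · rw [Ovl_eq_zero E q r hne]
        have h3 : 0 ≤ (if Good q r then Ovl E q r else 0) := hif1
        simp only [Ovl_eq_zero E q r hne] at hif1 hif2 ⊢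
        linarith
    · have h1 : Ovl E q r ≤ 12 * ψ q * ψ r :=
        le_trans (Ovl_le γ ψ E hopen hE q r)
          (typeI_le (hB.q_pos hq) (hB.q_pos hr) (hB.psi_pos q hq).le (hB.psi_le_half hq)
            (hB.psi_pos r hr).le (hB.psi_le_half hr) (not_lt.mp ht))
      have e : 12 * ψ q * ψ r = 12 * (ψ q * ψ r) := by ring
      rw [e] at h1
      linarith
  have hm0 : 0 ≤ ∑ q ∈ B, ψ q := Finset.sum_nonneg (fun q hq => (hB.psi_pos q hq).le)
  -- the sum over pairs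
  have hsum : ∑ q ∈ B, ∑ r ∈ B.filter (fun r => q < r), Ovl E q r
      ≤ 12 * (∑ q ∈ B, ψ q) ^ 2
        + ∑ q ∈ B, ∑ r ∈ B.filter (fun r => q < r ∧ Good q r), Ovl E q r
        + ∑ q ∈ B, ∑ r ∈ B.filter (fun r => q < r ∧ tt q r (ψ q) (ψ r) < 1 / 2 ∧ Exc q r),
            Ovl E q r := by
    have h1 : ∀ q ∈ B, ∑ r ∈ B.filter (fun r => q < r), Ovl E q r
        ≤ 12 * (ψ q * ∑ r ∈ B, ψ r)
          + ∑ r ∈ B.filter (fun r => q < r ∧ Good q r), Ovl E q r
          + ∑ r ∈ B.filter (fun r => q < r ∧ tt q r (ψ q) (ψ r) < 1 / 2 ∧ Exc q r), Ovl E q r := by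
      intro q hq
      have e1 : ∑ r ∈ B.filter (fun r => q < r ∧ Good q r), Ovl E q r
          = ∑ r ∈ B.filter (fun r => q < r), (if Good q r then Ovl E q r else 0) := by
        rw [Finset.sum_filter, Finset.sum_filter]
        apply Finset.sum_congr rfl
        intro r _
        by_cases h1 : q < r <;> by_cases h2 : Good q r <;> simp [h1, h2]
      have e2 : ∑ r ∈ B.filter (fun r => q < r ∧ tt q r (ψ q) (ψ r) < 1 / 2 ∧ Exc q r), Ovl E q r
          = ∑ r ∈ B.filter (fun r => q < r),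
              (if tt q r (ψ q) (ψ r) < 1 / 2 ∧ Exc q r then Ovl E q r else 0) := by
        rw [Finset.sum_filter, Finset.sum_filter]
        apply Finset.sum_congr rfl
        intro r _
        by_cases h1 : q < r <;> by_cases h2 : tt q r (ψ q) (ψ r) < 1 / 2 ∧ Exc q r <;> simp [h1, h2]
      have e3 : ∑ r ∈ B.filter (fun r => q < r), 12 * (ψ q * ψ r) ≤ 12 * (ψ q * ∑ r ∈ B, ψ r) := by
        rw [Finset.mul_sum, Finset.mul_sum]
        apply Finset.sum_le_sum_of_subset_of_nonneg (Finset.filter_subset _ _)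
        intro r hr _
        have := hB.psi_pos q hq
        have := hB.psi_pos r hr
        positivity
      rw [e1, e2]
      calc ∑ r ∈ B.filter (fun r => q < r), Ovl E q r
          ≤ ∑ r ∈ B.filter (fun r => q < r), (12 * (ψ q * ψ r)
              + (if Good q r then Ovl E q r else 0)
              + (if tt q r (ψ q) (ψ r) < 1 / 2 ∧ Exc q r then Ovl E q r else 0)) := by
            apply Finset.sum_le_sum
            intro r hr
            have hr' := Finset.mem_filter.mp hr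
            exact hpair q hq r hr'.1 hr'.2
        _ ≤ _ := by
            rw [Finset.sum_add_distrib, Finset.sum_add_distrib]
            linarith
    calc ∑ q ∈ B, ∑ r ∈ B.filter (fun r => q < r), Ovl E q r
        ≤ ∑ q ∈ B, (12 * (ψ q * ∑ r ∈ B, ψ r)
          + ∑ r ∈ B.filter (fun r => q < r ∧ Good q r), Ovl E q r
          + ∑ r ∈ B.filter (fun r => q < r ∧ tt q r (ψ q) (ψ r) < 1 / 2 ∧ Exc q r), Ovl E q r) :=
          Finset.sum_le_sum h1
      _ = _ := by
          rw [Finset.sum_add_distrib, Finset.sum_add_distrib, ← Finset.mul_sum, ← Finset.sum_mul]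
          ring
  have hdiag : ∑ q ∈ B, Ovl E q q ≤ 2 * ∑ q ∈ B, ψ q := by
    rw [Finset.mul_sum]
    exact Finset.sum_le_sum (fun q hq => Ovl_self_le γ ψ B hB E hopen hE hq)
  have hsq := sum_square_symm B (Ovl E) (Ovl_comm E)
  have hsum' : ∑ q ∈ B, ∑ r ∈ B.filter (fun r => q < r), Ovl E q r
      ≤ 12 * (∑ q ∈ B, ψ q) ^ 2
        + (16100000 * (∑ q ∈ B, ψ q) + 256000 * ∑ i ∈ B.image lev, ((i : ℝ) + 1) / Lam i)
        + ∑ q ∈ B, ∑ r ∈ B.filter (fun r => q < r ∧ tt q r (ψ q) (ψ r) < 1 / 2 ∧ Exc q r),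
            Ovl E q r := by
    refine le_trans hsum ?_
    have : ∑ q ∈ B, ∑ r ∈ B.filter (fun r => q < r ∧ Good q r), Ovl E q r
        ≤ 16100000 * (∑ q ∈ B, ψ q) + 256000 * ∑ i ∈ B.image lev, ((i : ℝ) + 1) / Lam i := by
      convert hmain
    linarith
  rw [hsq]
  linarith

end Vale.Agent.Lib.P028E
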