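import Vale.Agent.Lib.P028E.Dio
import Vale.Agent.Lib.P028E.Moebius
import Vale.Agent.Lib.P028E.Arith

/-! The second family: arcs whose centre avoids the line of the shortest vector modulo every prime
factor of the modulus. -/

open MeasureTheory Set Filter Topology
open Vale.Agent.Lib.P028

namespace Vale.Agent.Lib.P028E

/-- Restricted centres of the second family. -/
def cop (γ s : ℝ) (q : ℕ) : Set ℤ := {a | IsCoprime ((sv γ s).1 * a - (sv γ s).2) (q : ℤ)}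

/-- The measure lower bound for a cell, for the thinned family. -/
theorem cell_thin (γ : ℝ) (ψ : ℕ → ℝ) (h0 : ∀ q, 0 ≤ ψ q) (hL : ∀ q : ℕ, 1 ≤ q → (q : ℝ) * ψ q ≤ 1)
    (c : ℝ) (hc : 0 < c) (hφ : ∀ q : ℕ, 0 < ψ q → c * q ≤ Nat.totient q) (N : ℕ) (hN : 0 < N) :
    ∃ q₁ : ℕ, ∀ q, q₁ ≤ q → 0 < ψ q → ∀ n : ℕ, n < N →
      c / N * ψ q ≤ (volume (thinSet q γ (ψ q) (cop γ (ψ q) q) ∩
          Ioc ((n : ℝ) / N) (((n : ℝ) + 1) / N))).toReal := by
  classical
  have hN' : (0 : ℝ) < N := by exact_mod_cast hN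
  refine ⟨max 2 (max (12 * N) ⌈64 * (N : ℝ) ^ 2 / c ^ 2⌉₊), ?_⟩
  intro q hq hψ n hn
  have hq2 : 2 ≤ q := le_trans (le_max_left _ _) hq
  have hq12 : 12 * N ≤ q := le_trans (le_trans (le_max_left _ _) (le_max_right _ _)) hq
  have hq64 : ⌈64 * (N : ℝ) ^ 2 / c ^ 2⌉₊ ≤ q := le_trans (le_trans (le_max_right _ _) (le_max_right _ _)) hq
  have hq0 : 0 < q := by omega
  have hq' : (0 : ℝ) < q := by exact_mod_cast hq0
  have hq2' : (2 : ℝ) ≤ q := by exact_mod_cast hq2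
  have hq12' : 12 * (N : ℝ) ≤ q := by exact_mod_cast hq12
  have hq64' : 64 * (N : ℝ) ^ 2 / c ^ 2 ≤ q := le_trans (Nat.le_ceil _) (by exact_mod_cast hq64)
  have hψ2 : ψ q ≤ 1 / 2 := by
    have := hL q (by omega)
    nlinarith
  set τ : ℝ := ((Nat.divisors q).card : ℝ) with hτ
  have hA : ∀ (X : ℤ) (H : ℕ), c * H - τ ≤
      (((Finset.Ico X (X + H)).filter (· ∈ cop γ (ψ q) q)).card : ℝ) := by
    intro X H
    have h1 := coprime_count q hq0 (sv γ (ψ q)).1 (sv γ (ψ q)).2 (sv_coprime γ (ψ q) hψ) X H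
    have h2 : c ≤ (Nat.totient q : ℝ) / q := by
      rw [le_div_iff₀ hq']
      exact hφ q hψ
    have h3 : c * H ≤ (H : ℝ) * ((Nat.totient q : ℝ) / q) := by
      have hH : (0 : ℝ) ≤ H := Nat.cast_nonneg _
      nlinarith
    have h4 : (Finset.Ico X (X + H)).filter (· ∈ cop γ (ψ q) q)
        = (Finset.Ico X (X + H)).filter
          (fun a : ℤ => IsCoprime ((sv γ (ψ q)).1 * a - (sv γ (ψ q)).2) (q : ℤ)) := by
      ext a
      simp only [Finset.mem_filter]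
      exact Iff.rfl
    rw [h4]
    linarith
  have hmain := cell_lower q hq0 γ (ψ q) hψ hψ2 (cop γ (ψ q) q) c τ hc.le hA
    ((n : ℝ) / N) (((n : ℝ) + 1) / N)
    (by
      apply div_le_div_of_nonneg_right _ hN'.le
      linarith)
  refine le_trans ?_ hmain
  have hvu : (q : ℝ) * (((n : ℝ) + 1) / N - (n : ℝ) / N) = q / N := by
    field_simp
    ring
  rw [hvu]
  -- the divisor bound
  have hτ2 : τ ^ 2 ≤ 4 * q := card_divisors_sq_le q
  have hτ0 : 0 ≤ τ := Nat.cast_nonneg _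
  have hcq : 0 < c * q / (4 * N) := by positivity
  have hτle : τ ≤ c * q / (4 * N) := by
    apply abs_le_of_sq_le_sq' _ hcq.le |>.2
    have h5 : 64 * (N : ℝ) ^ 2 ≤ q * c ^ 2 := by
      rw [div_le_iff₀ (by positivity)] at hq64'
      exact hq64'
    have h6 : 4 * (q : ℝ) ≤ (c * q / (4 * N)) ^ 2 := by
      rw [div_pow, le_div_iff₀ (by positivity)]
      have : (0 : ℝ) ≤ q := hq'.le
      nlinarith
    linarith
  have h3c : 3 * c ≤ c * q / (4 * N) := by
    rw [le_div_iff₀ (by positivity)]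
    nlinarith
  -- goal
  have hkey : c * q / N ≤ 2 * (c * (q / N - 3) - τ) := by
    have e1 : c * q / N = 4 * (c * q / (4 * N)) := by
      field_simp
    have e2 : c * ((q : ℝ) / N - 3) = c * q / N - 3 * c := by
      ring
    rw [e2, e1]
    linarith
  have hψq : 0 < ψ q / q := by positivity
  have e3 : c / N * ψ q = (ψ q / q) * (c * q / N) := by
    field_simp
  rw [e3]
  have := mul_le_mul_of_nonneg_left hkey hψq.le
  nlinarith

open scoped Classical in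
/-- The exceptional sum of the second family. -/
theorem exc_sum (γ : ℝ) (ψ : ℕ → ℝ) (h0 : ∀ q, 0 ≤ ψ q) (c : ℝ) (hc : 0 < c)
    (hφ : ∀ q : ℕ, 0 < ψ q → c * q ≤ Nat.totient q) (B : Finset ℕ) (hB : BlockOK ψ B) :
    ∑ q ∈ B, ∑ r ∈ B.filter (fun r => q < r ∧ tt q r (ψ q) (ψ r) < 1 / 2 ∧
          (ψ r / r ≤ ψ q / q ∧ q ∣ r)),
        Ovl (fun q => thinSet q γ (ψ q) (cop γ (ψ q) q)) q r ≤ 2 / c * ∑ q ∈ B, ψ q := by
  set E : ℕ → Set ℝ := fun q => thinSet q γ (ψ q) (cop γ (ψ q) q) with hE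
  -- termwise bound
  have hterm : ∀ q ∈ B, ∀ r ∈ B, q < r → tt q r (ψ q) (ψ r) < 1 / 2 → q ∣ r →
      Ovl E q r ≤ 2 * (q : ℝ) * (ψ r / r) := by
    intro q hq r hr hqr ht hdvd
    have hq2 := hB.two_le q hq
    have hr2 := hB.two_le r hr
    have hle1 := Ovl_le γ ψ E (fun q => isOpen_thinSet _ _ _ _)
      (fun q => thinSet_subset _ _ _ _) q r
    have hq1 : ψ q ≤ 1 / 2 := by
      have h1 := hB.psi_le q hq
      have h2 : (2 : ℝ) ≤ q := by exact_mod_cast hq2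
      nlinarith [hB.psi_pos q hq]
    have hr1 : ψ r ≤ 1 / 2 := by
      have h1 := hB.psi_le r hr
      have h2 : (2 : ℝ) ≤ r := by exact_mod_cast hr2
      nlinarith [hB.psi_pos r hr]
    have hle2 := overlap_le (γ := γ) (q := q) (r := r) (by omega) (by omega) (h0 q) hq1 (h0 r) hr1 ht.le
    have hg : Nat.gcd q r = q := Nat.gcd_eq_left hdvd
    rw [hg] at hle2
    have hmin : min (ψ q / q) (ψ r / r) ≤ ψ r / r := min_le_right _ _
    have hq0 : (0 : ℝ) ≤ q := Nat.cast_nonneg _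
    calc Ovl E q r ≤ _ := hle1
      _ ≤ _ := hle2
      _ ≤ 2 * (q : ℝ) * (ψ r / r) := by
        apply mul_le_mul_of_nonneg_left hmin (by positivity)
  -- reduce to a sum over all pairs with q dividing r
  have hstep1 : ∑ q ∈ B, ∑ r ∈ B.filter (fun r => q < r ∧ tt q r (ψ q) (ψ r) < 1 / 2 ∧
          (ψ r / r ≤ ψ q / q ∧ q ∣ r)), Ovl E q r
      ≤ ∑ q ∈ B, ∑ r ∈ B, (if q ∣ r then 2 * (q : ℝ) * (ψ r / r) else 0) := by
    apply Finset.sum_le_sum
    intro q hq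
    have hnn : ∀ r ∈ B, 0 ≤ (if q ∣ r then 2 * (q : ℝ) * (ψ r / r) else 0) := by
      intro r hr
      split_ifs
      · have := h0 r
        positivity
      · exact le_rfl
    have hsubset : B.filter (fun r => q < r ∧ tt q r (ψ q) (ψ r) < 1 / 2 ∧
          (ψ r / r ≤ ψ q / q ∧ q ∣ r)) ⊆ B := Finset.filter_subset _ _
    refine le_trans ?_ (Finset.sum_le_sum_of_subset_of_nonneg hsubset
      (fun r hr _ => hnn r hr))
    apply Finset.sum_le_sum
    intro r hr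
    obtain ⟨hrB, hqr, ht, -, hdvd⟩ := Finset.mem_filter.mp hr
    rw [if_pos hdvd]
    exact hterm q hq r hrB hqr ht hdvd
  refine le_trans hstep1 ?_
  rw [Finset.sum_comm, Finset.mul_sum]
  apply Finset.sum_le_sum
  intro r hr
  have hr2 := hB.two_le r hr
  have hr0 : 0 < r := by omega
  have hr' : (0 : ℝ) < r := by exact_mod_cast hr0
  have hψr := hB.psi_pos r hr
  -- sum over divisors
  have hsub : ∑ q ∈ B, (if q ∣ r then 2 * (q : ℝ) * (ψ r / r) else 0)
      ≤ ∑ q ∈ Nat.divisors r, 2 * (q : ℝ) * (ψ r / r) := by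
    rw [← Finset.sum_filter]
    apply Finset.sum_le_sum_of_subset_of_nonneg
    · intro q hq
      rw [Finset.mem_filter] at hq
      exact Nat.mem_divisors.mpr ⟨hq.2, hr0.ne'⟩
    · intro q _ _
      have := h0 r
      positivity
  refine le_trans hsub ?_
  have hfac : ∑ q ∈ Nat.divisors r, 2 * (q : ℝ) * (ψ r / r)
      = (∑ d ∈ Nat.divisors r, (d : ℝ)) * (2 * ψ r / r) := by
    rw [Finset.sum_mul]
    apply Finset.sum_congr rfl
    intro q _
    ring
  rw [hfac]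
  have hσ := sigma_totient_le r hr0
  have hφr := hφ r hψr
  set σ : ℝ := ∑ d ∈ Nat.divisors r, (d : ℝ) with hσdef
  have hσ0 : 0 ≤ σ := Finset.sum_nonneg (fun _ _ => Nat.cast_nonneg _)
  have hσc : σ * c ≤ r := by
    have h1 : σ * (c * r) ≤ (r : ℝ) ^ 2 := le_trans (mul_le_mul_of_nonneg_left hφr hσ0) hσ
    have h2 : (σ * c) * r ≤ r * r := by nlinarith
    exact le_of_mul_le_mul_right h2 hr'
  have e : 2 / c * ψ r = (2 * ψ r / r) * (r / c) := by
    field_simp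
  rw [e, mul_comm]
  apply mul_le_mul_of_nonneg_left _ (by positivity)
  rw [le_div_iff₀ hc]
  exact hσc

/-- The second family: first case, all multiples are killed. -/
theorem thin_hN (γ : ℝ) (ψ : ℕ → ℝ) (q r : ℕ) (hq : 2 ≤ q) (hψq : 0 < ψ q) (hqr : q < r)
    (ht : tt q r (ψ q) (ψ r) < 1 / 2)
    (hmeet : (thinSet q γ (ψ q) (cop γ (ψ q) q) ∩ thinSet r γ (ψ r) (cop γ (ψ r) r)).Nonempty)
    (hex : ¬ (ψ r / r ≤ ψ q / q ∧ q ∣ r)) (hcase : ψ r / r ≤ ψ q / q) (u : ℤ)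
    (hz : pz γ q r = u • sv γ (ψ q)) : False := by
  obtain ⟨x, ⟨a, ha, hax⟩, ⟨b, _, hbx⟩⟩ := hmeet
  have hq0 : 0 < q := by omega
  have hr0 : 0 < r := by omega
  obtain ⟨hm, _⟩ := pair_round hq0 hr0 hax hbx ht.le
  have hdvd := kill_left hq0 hr0 hm hz
  have hco : IsCoprime ((sv γ (ψ q)).1 * a - (sv γ (ψ q)).2) (q : ℤ) := ha
  have hq'dvd : ((qp q r : ℕ) : ℤ) ∣ (q : ℤ) := by
    exact_mod_cast Nat.div_dvd_of_dvd (Nat.gcd_dvd_left q r)
  have hunit : IsUnit ((qp q r : ℕ) : ℤ) := hco.isUnit_of_dvd' hdvd hq'dvd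
  have hone : qp q r = 1 := by
    have := Int.isUnit_iff_natAbs_eq.mp hunit
    simpa using this
  have hg : 0 < Nat.gcd q r := Nat.gcd_pos_of_pos_left _ hq0
  have hq_eq : q = Nat.gcd q r := by
    have h1 : q / Nat.gcd q r = 1 := hone
    have h2 := Nat.div_mul_cancel (Nat.gcd_dvd_left q r)
    rw [h1, one_mul] at h2
    exact h2.symm
  exact hex ⟨hcase, by rw [hq_eq]; exact Nat.gcd_dvd_right q r⟩

/-- The second family: second case, the shortest vector is long. -/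
theorem thin_hT (γ : ℝ) (ψ : ℕ → ℝ) (hL : ∀ q : ℕ, 1 ≤ q → (q : ℝ) * ψ q ≤ 1) (q r : ℕ) (hq : 2 ≤ q)
    (hψr : 0 < ψ r) (hqr : q < r)
    (ht : tt q r (ψ q) (ψ r) < 1 / 2)
    (hmeet : (thinSet q γ (ψ q) (cop γ (ψ q) q) ∩ thinSet r γ (ψ r) (cop γ (ψ r) r)).Nonempty)
    (u : ℤ)
    (hz : pz γ q r = u • sv γ (pstar (lev q) (lev r) (ell ((r : ℝ) * ψ r)))) :
    (4 : ℝ) ^ (lev q) / 91 ≤ nrm γ (pstar (lev q) (lev r) (ell ((r : ℝ) * ψ r)))
          (sv γ (pstar (lev q) (lev r) (ell ((r : ℝ) * ψ r)))) := by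
  obtain ⟨x, ⟨a, _, hax⟩, ⟨b, hb, hbx⟩⟩ := hmeet
  have hq0 : 0 < q := by omega
  have hr0 : 0 < r := by omega
  have hr2 : 2 ≤ r := by omega
  obtain ⟨hm, _⟩ := pair_round hq0 hr0 hax hbx ht.le
  set l := ell ((r : ℝ) * ψ r) with hl
  set i := lev q with hi
  set j := lev r with hj
  have hij : i ≤ j := lev_mono hqr.le
  set ps := pstar i j l with hps
  have hps0 : 0 < ps := pstar_pos i j l
  set vs := sv γ ps with hvs
  set vr := sv γ (ψ r) with hvr
  have hco : IsCoprime (vr.1 * b - vr.2) (r : ℤ) := hb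
  -- the two lines are different
  have hkill : ∀ u' : ℤ, pz γ q r = u' • vr → False := by
    intro u' hz'
    have hdvd := kill_right hq0 hr0 hm hz'
    have hr'dvd : ((rp q r : ℕ) : ℤ) ∣ (r : ℤ) := by
      exact_mod_cast Nat.div_dvd_of_dvd (Nat.gcd_dvd_right q r)
    have hunit : IsUnit ((rp q r : ℕ) : ℤ) := hco.isUnit_of_dvd' hdvd hr'dvd
    have hone : rp q r = 1 := by
      have := Int.isUnit_iff_natAbs_eq.mp hunit
      simpa using this
    have h1 : r / Nat.gcd q r = 1 := hone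
    have h2 := Nat.div_mul_cancel (Nat.gcd_dvd_right q r)
    rw [h1, one_mul] at h2
    have h3 : Nat.gcd q r ≤ q := Nat.gcd_le_left _ hq0
    omega
  have hne : vr ≠ vs := by
    intro h
    apply hkill u
    rw [hz, h]
  have hne' : vr ≠ -vs := by
    intro h
    apply hkill (-u)
    rw [hz, h, smul_neg, neg_smul, neg_neg]
  have hdet := det_lower γ ps (ψ r) hps0 hψr hne hne'
  have hψr2 : ψ r ≤ 1 / 2 := by
    have := hL r (by omega)
    have hr2' : (2 : ℝ) ≤ r := by exact_mod_cast hr2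
    nlinarith
  have hdir := dirichlet_sv γ (ψ r) hψr hψr2
  -- sizes
  have hr' : (0 : ℝ) < r := by exact_mod_cast hr0
  have hLr : (r : ℝ) * ψ r ≤ 1 := hL r (by omega)
  have hLr0 : 0 < (r : ℝ) * ψ r := by positivity
  obtain ⟨hA1, hA2⟩ := ell_spec _ hLr0 hLr
  rw [← hl] at hA1 hA2
  set A := lam l with hA
  have hA0 : 0 < A := lam_pos l
  have hA1' : A ≤ 1 := lam_le_one l
  set R := pw j with hR
  have hR0 : 0 < R := pw_pos j
  obtain ⟨hr1, hr3⟩ := lev_spec r hr0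
  rw [← hj, ← hR] at hr1 hr3
  -- psi r is about A / R
  have hψup : ψ r ≤ A / R := by
    rw [le_div_iff₀ hR0]
    nlinarith
  have hψlo : A / (256 * R) < ψ r := by
    rw [div_lt_iff₀ (by positivity)]
    nlinarith
  have hQR : pw i ≤ R := by
    rw [hR]; unfold pw
    exact pow_le_pow_right₀ (by norm_num) hij
  have hQ0 : 0 < pw i := pw_pos i
  have hpsup : ps ≤ A / R := by
    rw [hps]; unfold pstar
    rw [div_le_div_iff₀ (by positivity) hR0]
    rw [← hA, ← hR]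
    have : pw i * A * R ≤ R * A * R := by
      apply mul_le_mul_of_nonneg_right _ hR0.le
      exact mul_le_mul_of_nonneg_right hQR hA0.le
    nlinarith
  set Lr := nrm γ (ψ r) vr with hLrdef
  set Ls := nrm γ ps vs with hLsdef
  have hLs0 : 0 ≤ Ls := nrm_nonneg _ _ _
  have hLr0' : 0 ≤ Lr := nrm_nonneg _ _ _
  -- squares
  have hLrsq : Lr ^ 2 * A ≤ 512 * R := by
    have h1 : Lr ^ 2 * (A / (256 * R)) ≤ Lr ^ 2 * ψ r :=
      mul_le_mul_of_nonneg_left hψlo.le (by positivity)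
    have h2 : Lr ^ 2 * (A / (256 * R)) ≤ 2 := le_trans h1 hdir
    have e : Lr ^ 2 * (A / (256 * R)) = (Lr ^ 2 * A) / (256 * R) := by ring
    rw [e, div_le_iff₀ (by positivity)] at h2
    linarith
  have h1 : 1 ≤ 4 * Ls * Lr * (A / R) := by
    have h2 : ps + ψ r ≤ 2 * (A / R) := by linarith
    calc (1 : ℝ) ≤ 2 * Ls * Lr * (ps + ψ r) := hdet
      _ ≤ 2 * Ls * Lr * (2 * (A / R)) := by
        apply mul_le_mul_of_nonneg_left h2 (by positivity)
      _ = 4 * Ls * Lr * (A / R) := by ring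
  have hsq : R ≤ 8192 * Ls ^ 2 := by
    have h2 : (1 : ℝ) ≤ (4 * Ls * Lr * (A / R)) ^ 2 := by
      have := pow_le_pow_left₀ (by norm_num : (0:ℝ) ≤ 1) h1 2
      simpa using this
    have e : (4 * Ls * Lr * (A / R)) ^ 2 = 16 * Ls ^ 2 * (Lr ^ 2 * A) * A / R ^ 2 := by
      field_simp
      ring
    rw [e, le_div_iff₀ (by positivity), one_mul] at h2
    have h3 : 16 * Ls ^ 2 * (Lr ^ 2 * A) * A ≤ 16 * Ls ^ 2 * (512 * R) * 1 := by
      apply mul_le_mul _ hA1' hA0.le (by positivity)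
      exact mul_le_mul_of_nonneg_left hLrsq (by positivity)
    have h4 : R ^ 2 ≤ 16 * Ls ^ 2 * (512 * R) * 1 := le_trans h2 h3
    have h5 : R * R ≤ (8192 * Ls ^ 2) * R := by nlinarith
    exact le_of_mul_le_mul_right h5 hR0
  -- conclude
  have hpow : ((4 : ℝ) ^ i) ^ 2 = pw i := by
    unfold pw
    rw [← pow_mul, mul_comm, pow_mul]
    norm_num
  apply abs_le_of_sq_le_sq' _ hLs0 |>.2
  rw [div_pow, hpow]
  rw [div_le_iff₀ (by norm_num)]
  nlinarith [hQR, hsq, sq_nonneg Ls]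

theorem summable_thin : Summable (fun i : ℕ => ((i : ℝ) + 1) / ((4 : ℝ) ^ i / 91)) := by
  have h1 : Summable (fun i : ℕ => ((i : ℝ) ^ 1) * (1 / 4 : ℝ) ^ i) :=
    summable_pow_mul_geometric_of_norm_lt_one 1 (by norm_num)
  have h2 : Summable (fun i : ℕ => (1 / 4 : ℝ) ^ i) :=
    summable_geometric_of_lt_one (by norm_num) (by norm_num)
  have h3 := (h1.add h2).mul_left 91
  refine h3.congr ?_
  intro i
  have : (0 : ℝ) < 4 ^ i := by positivity
  rw [one_div, inv_pow]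
  field_simp

end Vale.Agent.Lib.P028E
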